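import Vale.Agent.P179.R2.H666.Thr1
import Vale.Agent.P179.R2.H351.Ind4
import Vale.Agent.P179.R2.H92.ClsDef

/-!
# The class of abelian `p`-groups with growing cyclic factors: closure properties and arithmetic
-/

namespace P179H666

open Subgroup P179H292 P179H92 P179H351

open P179B (facJ facN GrowingFactors)

section Arith

theorem le_facJ (i : ℕ) : i ≤ facJ i := le_max_left _ _

theorem mul_le_facJ (i : ℕ) : i * (i + 1) ≤ 4 * facJ i := by
  have h1 : (i * (i + 1) + 3) / 4 ≤ facJ i := le_max_right _ _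
  generalize i * (i + 1) = x at h1 ⊢
  omega

theorem facN_of_le {r : ℕ} (h : 3 ≤ r) : facN r = 1 + (r - 1) * facJ r := by
  unfold facN
  rw [if_neg (by omega)]

theorem facJ_mul_lt {r : ℕ} (h : 3 ≤ r) : facJ r * (r - 1) < facN r := by
  rw [facN_of_le h, mul_comm]
  omega

theorem facJ_le_facN {r : ℕ} (h : 3 ≤ r) : facJ r ≤ facN r := by
  have h1 := facJ_mul_lt h
  have h2 : facJ r * 1 ≤ facJ r * (r - 1) := Nat.mul_le_mul_left _ (by omega)
  omega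

theorem le_facN (i : ℕ) : i ≤ facN i := by
  rcases Nat.lt_or_ge 2 i with h | h
  · exact (le_facJ i).trans (facJ_le_facN h)
  · unfold facN
    rw [if_pos h]

theorem facJ_mono {i i' : ℕ} (h : i ≤ i') : facJ i ≤ facJ i' := by
  unfold facJ
  refine max_le_max h (Nat.div_le_div_right ?_)
  have : i * (i + 1) ≤ i' * (i' + 1) := Nat.mul_le_mul h (Nat.succ_le_succ h)
  omega

theorem facN_mono {i i' : ℕ} (h : i ≤ i') : facN i ≤ facN i' := by
  rcases Nat.lt_or_ge 2 i with h1 | h1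
  · rw [facN_of_le h1, facN_of_le (by omega)]
    have := Nat.mul_le_mul (show i - 1 ≤ i' - 1 by omega) (facJ_mono h)
    omega
  · have h2 : facN i = i := by unfold facN; rw [if_pos h1]
    rw [h2]
    exact h.trans (le_facN i')

theorem one_le_facN {i : ℕ} (h : 1 ≤ i) : 1 ≤ facN i := h.trans (le_facN i)

theorem sub_one_le {p t : ℕ} (hp : 1 ≤ p) : p ^ (t + 1 + 1) - 1 ≤ (p - 1) * p ^ (t + 1 + 1) := by
  obtain ⟨q, rfl⟩ : ∃ q, p = q + 1 := ⟨p - 1, by omega⟩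
  rw [Nat.add_sub_cancel]
  rcases Nat.eq_zero_or_pos q with h | h
  · subst h
    simp
  · have h1 : 1 * (q + 1) ^ (t + 1 + 1) ≤ q * (q + 1) ^ (t + 1 + 1) := Nat.mul_le_mul_right _ h
    omega

/-- `∏_{t < c} (p ^ (t + 1) - 1) ≤ (p - 1) ^ c p ^ (c (c + 1) / 2 - 1)` -/
theorem prod_le_pow {p : ℕ} (hp : 1 ≤ p) : ∀ c : ℕ, 1 ≤ c → ∃ m : ℕ, 2 * m + 2 = c * (c + 1) ∧
    ∏ t ∈ Finset.range c, (p ^ (t + 1) - 1) ≤ (p - 1) ^ c * p ^ m := by
  intro c hc
  induction c, hc using Nat.le_induction with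
  | base => exact ⟨0, rfl, by simp⟩
  | succ c hc ih =>
    obtain ⟨m, hm, hle⟩ := ih
    refine ⟨m + (c + 1), by nlinarith, ?_⟩
    obtain ⟨c', rfl⟩ : ∃ c', c = c' + 1 := ⟨c - 1, by omega⟩
    rw [Finset.prod_range_succ]
    calc (∏ t ∈ Finset.range (c' + 1), (p ^ (t + 1) - 1)) * (p ^ (c' + 1 + 1) - 1)
        ≤ (p - 1) ^ (c' + 1) * p ^ m * ((p - 1) * p ^ (c' + 1 + 1)) :=
          Nat.mul_le_mul hle (sub_one_le hp)
      _ = _ := by
        rw [pow_succ (p - 1) (c' + 1), pow_add p m]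
        ring

/-- **(CQ)** -/
theorem lemma_CQ {p s r j e : ℕ} (hp : 2 < p) (hs : 1 ≤ s) (hsr : s < r)
    (h4 : r * (r + 1) ≤ 4 * j)
    (he : e ≤ (∏ t ∈ Finset.range s, (p ^ (t + 1) - 1)) *
      ∏ t ∈ Finset.range (r - s), (p ^ (t + 1) - 1)) :
    e * p ^ r < p ^ (2 * j) * (p - 1) ^ r := by
  obtain ⟨u, rfl⟩ : ∃ u, r = s + u := ⟨r - s, by omega⟩
  rw [Nat.add_sub_cancel_left] at he
  obtain ⟨m₁, h1, h1'⟩ := prod_le_pow (p := p) (by omega) s hs
  obtain ⟨m₂, h2, h2'⟩ := prod_le_pow (p := p) (by omega) u (by omega)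
  have hsu : s + u ≤ s * u + 1 := by
    obtain ⟨s', rfl⟩ : ∃ s', s = s' + 1 := ⟨s - 1, by omega⟩
    obtain ⟨u', rfl⟩ : ∃ u', u = u' + 1 := ⟨u - 1, by omega⟩
    nlinarith [Nat.zero_le (s' * u')]
  have hexp : m₁ + m₂ + (s + u) < 2 * j := by
    have h3 : (s + u) * (s + u + 1) = s * (s + 1) + u * (u + 1) + 2 * (s * u) := by ring
    rw [h3, ← h1, ← h2] at h4
    omega
  have hpos : 0 < (p - 1) ^ (s + u) := Nat.pow_pos (by omega)
  calc e * p ^ (s + u)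
      ≤ ((p - 1) ^ s * p ^ m₁) * ((p - 1) ^ u * p ^ m₂) * p ^ (s + u) :=
        Nat.mul_le_mul_right _ (he.trans (Nat.mul_le_mul h1' h2'))
    _ = p ^ (m₁ + m₂ + (s + u)) * (p - 1) ^ (s + u) := by
        rw [pow_add p (m₁ + m₂), pow_add p m₁, pow_add (p - 1)]
        ring
    _ < _ := Nat.mul_lt_mul_of_pos_right (Nat.pow_lt_pow_right (by omega) hexp) hpos

end Arith

section Cls

variable {G X : Type*} [Group G] [Group X]

theorem card_omP_equiv {K : Subgroup G} {D : Subgroup X} (e : K ≃* D) (p q : ℕ) :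
    Nat.card {x : G // (∃ y ∈ K, y ^ q = x) ∧ x ^ p = 1} =
      Nat.card {x : X // (∃ y ∈ D, y ^ q = x) ∧ x ^ p = 1} := by
  have hle : ∀ {H : Type _} [Group H] {L : Subgroup H} {x : H}, (∃ y ∈ L, y ^ q = x) → x ∈ L := by
    rintro H _ L x ⟨y, hy, rfl⟩
    exact pow_mem hy q
  have hle' : ∀ {x : X}, (∃ y ∈ D, y ^ q = x) → x ∈ D := by
    rintro x ⟨y, hy, rfl⟩
    exact pow_mem hy q
  refine Nat.card_congr
    { toFun := fun x => ⟨e ⟨x, hle x.2.1⟩, ?_, ?_⟩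
      invFun := fun x => ⟨e.symm ⟨x, hle' x.2.1⟩, ?_, ?_⟩
      left_inv := fun x => Subtype.ext ?_
      right_inv := fun x => Subtype.ext ?_ }
  · obtain ⟨y, hy, hyx⟩ := x.2.1
    refine ⟨e ⟨y, hy⟩, (e ⟨y, hy⟩).2, ?_⟩
    rw [pow_equiv]
    congr 2
    exact Subtype.ext hyx
  · exact (pow_eq_one_equiv e _ p).2 x.2.2
  · obtain ⟨y, hy, hyx⟩ := x.2.1
    refine ⟨e.symm ⟨y, hy⟩, (e.symm ⟨y, hy⟩).2, ?_⟩
    rw [pow_equiv]
    congr 2
    exact Subtype.ext hyx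
  · exact (pow_eq_one_equiv e.symm _ p).2 x.2.2
  · change ((e.symm (e ⟨x, hle x.2.1⟩) : K) : G) = x
    rw [e.symm_apply_apply]
  · change ((e (e.symm ⟨x, hle' x.2.1⟩) : D) : X) = x
    rw [e.apply_symm_apply]

/-- isomorphic groups -/
theorem growing_equiv {K : Subgroup G} {D : Subgroup X} (e : K ≃* D) {p : ℕ}
    (h : GrowingFactors p K) : GrowingFactors p D := by
  intro i hi
  rw [← card_equiv e p, ← card_omP_equiv e p]
  exact h i hi

theorem card_omP_swap (D : Subgroup G) (p q : ℕ) :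
    Nat.card {x : G // (∃ y ∈ D, y ^ q = x) ∧ x ^ p = 1} =
      Nat.card {x : G // (x ∈ D ∧ x ^ p = 1) ∧ ∃ y ∈ D, y ^ q = x} := by
  refine Nat.card_congr (Equiv.subtypeEquivRight fun x => ?_)
  constructor
  · rintro ⟨⟨y, hy, rfl⟩, hx⟩
    exact ⟨⟨pow_mem hy q, hx⟩, y, hy, rfl⟩
  · rintro ⟨⟨-, hx⟩, hy⟩
    exact ⟨hy, hx⟩

/-- direct factors -/
theorem growing_dec [Finite G] {D C K : Subgroup G} (h : Dec D C K)
    (hab : ∀ a ∈ D, ∀ b ∈ D, a * b = b * a) {p : ℕ} (hD : GrowingFactors p D) :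
    GrowingFactors p K := by
  intro i hi
  have h1 := hD i hi
  rw [card_omP_swap] at h1 ⊢
  exact h.small hab h1

theorem dec_of_isFactor {D K : Subgroup G} (h : IsFactor D K) : ∃ C : Subgroup G, Dec D C K := by
  obtain ⟨h1, C, h2, h3, h4⟩ := h
  exact ⟨C, h2, h1, h3, h4⟩

theorem growing_factor [Finite G] {D K : Subgroup G} (hab : ∀ a ∈ D, ∀ b ∈ D, a * b = b * a)
    {p : ℕ} (hD : GrowingFactors p D) (h : IsFactor D K) : GrowingFactors p K := by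
  obtain ⟨C, hC⟩ := dec_of_isFactor h
  exact growing_dec hC hab hD

end Cls

end P179H666
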