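import Vale.Agent.P179.R2.H666.Cnt2
import Vale.Agent.P179.R2.H967.Cos

/-!
# Sums over cosets: the number of `m`-rational characters, final form
-/

namespace P179H666

open Finset P179P P179C P179Y Subgroup P179H524 P179I P179H452 P179H46

open scoped Classical IsMulCommutative

universe v

set_option linter.unusedSectionVars false

section

variable {p : ℕ} [hp : Fact p.Prime] {k : Type v} [Field k] [CharP k p] {red : AA →+* k}
  {G : Type} [Group G] [Fintype G] {D : Subgroup G} {l : (G → k) → k}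
  {Φ : ∀ H : Subgroup G, Irr H} {aH bH : Subgroup G → ℕ} {ε : Subgroup G → ℤ} {κ₀ : k}

include hp in
/-- **the number of `m`-rational characters** -/
theorem count_reg [IsAlgClosed k] [IsMulCommutative D] (h : LocR p red D l Φ aH bH ε κ₀)
    (hl : BP p D l) (hD : IsPGroup p D) (hab : D ≤ centralizer (D : Set G)) (hp2 : p ≠ 2)
    (he : ¬ p ∣ (centralizer (D : Set G)).relIndex (stabT D l)) {m : ℕ}
    (hm : m.Coprime (Nat.card G)) (hm1 : m ≡ 1 [MOD ordCompl[p] (Nat.card G)])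
    (hgen : ∀ i : ℕ, i ≡ 1 [MOD p] → ∃ t : ℕ, m ^ t ≡ i [MOD ordProj[p] (Nat.card G)])
    (X : Finset (Irr G)) (hX : ∀ χ ∈ X, ∀ g, χ.1 (g ^ m) = χ.1 g)
    (Y : Subgroup D) (w : D) {o : ℕ}
    (hW : ∀ y ∈ Y, RegT D l ((w * y : D) : G) ∧ ((w * y : D) : G) ≠ 1)
    (hYT : ∀ t ∈ stabT D l, ∀ y ∈ Y, ∃ y' ∈ Y, t * (y : G) * t⁻¹ = (y' : G))
    (hreg : ∀ n ∈ stabT D l, (∃ y ∈ Y, n * (w : G) * n⁻¹ * (w : G)⁻¹ = (y : G)) →
      n ∈ centralizer (D : Set G))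
    (ho : ∀ i : ℕ, w ^ i ∈ Y → o ∣ i)
    (hne : ∀ χ ∈ X, sY p D Φ ε Y w χ ≠ 0) :
    X.card * Nat.card Y * o ≤ Nat.card D * p := by
  refine count h hl hD hab hp2 (by
    rw [Ne, CharP.cast_eq_zero_iff k p]
    exact he) hm hm1 hgen X hX Y w hW hYT ?_ ho hne
  intro t ht a b ha hab2 hmem
  have hmap : ∀ x : G, x ∈ Y.map D.subtype ↔ ∃ y ∈ Y, x = (y : G) := by
    intro x
    constructor
    · rintro ⟨y, hy, rfl⟩
      exact ⟨y, hy, rfl⟩
    · rintro ⟨y, hy, rfl⟩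
      exact ⟨y, hy, rfl⟩
  obtain ⟨h1, h2⟩ := P179H967.cos_reg hD (fun x hx y hy => (mem_centralizer_iff.1 (hab hy) x hx))
    (stabT_le_norm D l) he (Y := Y.map D.subtype) (by
      intro n hn y hy
      obtain ⟨y₁, hy₁, rfl⟩ := (hmap y).1 hy
      exact (hmap _).2 (hYT n hn y₁ hy₁)) w.2 (by
      intro n hn hmem
      exact hreg n hn ((hmap _).1 hmem)) ha hab2 ht ((hmap _).2 hmem)
  refine ⟨h1, ?_⟩
  obtain ⟨y, hy, hyeq⟩ := (hmap _).1 h2
  have h3 : w ^ a * (w ^ b)⁻¹ = y := Subtype.ext (by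
    rw [← hyeq]
    push_cast
    rfl)
  rw [h3]
  exact hy

end

end P179H666
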