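import Vale.Agent.P179.R2.H666.Kb4

/-!
# The basic set of a block with cyclic defect group modulo a central subgroup
-/

namespace P179H666

open Finset P179P P179C P179Y Subgroup P179H524 P179I P179H452 P179H450 P179A

open P179X (pp SameSec IrrB)

open scoped Classical

universe v

set_option linter.unusedSectionVars false

section

variable {p : ℕ} [hp : Fact p.Prime] {k : Type v} [Field k] [CharP k p] {red : AA →+* k}
  {G : Type} [Group G] [Fintype G] {D : Subgroup G} {l : (G → k) → k}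
  {Φ : ∀ H : Subgroup G, Irr H} {aH bH : Subgroup G → ℕ} {ε : Subgroup G → ℤ} {κ₀ : k}
  {Z : Subgroup G} {s m : ℕ} {e : ℤ} {χ : Fin m → Irr G} {r : Irr G → ℤ}

/-- splitting of the sums over `X` -/
theorem sum_split (hc : Coh p red D l Φ ε Z s m e χ r) (f : Irr G → ℂ) :
    ∑ ψ ∈ XZ red l Z, f ψ =
      ∑ ψ ∈ (XZ red l Z).filter (fun ψ => ∀ i, ψ ≠ χ i), f ψ + ∑ i, f (χ i) := by
  rw [← Finset.sum_filter_add_sum_filter_not (XZ red l Z) (fun ψ => ∀ i, ψ ≠ χ i)]
  congr 1
  have h1 : (XZ red l Z).filter (fun ψ => ¬ ∀ i, ψ ≠ χ i) = univ.image χ := by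
    ext ψ
    rw [mem_filter, mem_image]
    constructor
    · rintro ⟨-, h⟩
      push Not at h
      obtain ⟨i, hi⟩ := h
      exact ⟨i, mem_univ _, hi.symm⟩
    · rintro ⟨i, -, rfl⟩
      exact ⟨hc.mem i, fun h => h i rfl⟩
  rw [h1, Finset.sum_image fun a _ b _ hab => hc.inj hab]

omit hp [Field k] [CharP k p] in
theorem card_W (D Z : Subgroup G) (hZD : Z ≤ D) :
    ((univ.filter (fun u : G => u ∈ D ∧ u ∉ Z)).card : ℂ) = Nat.card D - Nat.card Z := by
  have e3 : (univ.filter (fun u : G => u ∈ D ∧ u ∉ Z)).card + (univ.filter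
      (fun u : G => u ∈ Z)).card = (univ.filter (fun u : G => u ∈ D)).card := by
    rw [← Finset.card_union_of_disjoint]
    · congr 1
      ext u
      simp only [mem_union, mem_filter, mem_univ, true_and]
      constructor
      · rintro (h | h)
        · exact h.1
        · exact hZD h
      · intro h
        by_cases hz : u ∈ Z
        · exact Or.inr hz
        · exact Or.inl ⟨h, hz⟩
    · rw [Finset.disjoint_left]
      intro u hu hu2
      exact (mem_filter.1 hu).2.2 (mem_filter.1 hu2).2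
  have e4 : ∀ K : Subgroup G, (univ.filter (fun u : G => u ∈ K)).card = Nat.card K := by
    intro K
    rw [Nat.card_eq_fintype_card, Fintype.card_subtype]
  rw [e4, e4] at e3
  rw [← e3]
  push_cast
  ring

include hp in
/-- **the basic set** -/
theorem exists_basic [IsAlgClosed k] (h : LocR p red D l Φ aH bH ε κ₀) (hl : BP p D l)
    (hD : IsPGroup p D) (hab : D ≤ centralizer (D : Set G)) (hZc : ∀ z ∈ Z, ∀ x, z * x = x * z)
    (hZD : Z ≤ D) (hreg : ∀ u ∈ D, u ∉ Z → RegT D l u) (hc : Coh p red D l Φ ε Z s m e χ r)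
    (hs0 : s ≠ 0) (hs : (centralizer (D : Set G)).relIndex (stabT D l) = s)
    (hT : ¬ p ∣ (centralizer (D : Set G)).relIndex (stabT D l)) {B : MonoidAlgebra k G}
    (hB : IsBlock B) (hlz : ∀ z : G → k, IsCF z → l z = centralChar B (mkF z))
    (hsl : s ≤ numSimpleIn B) :
    ∃ (ψ : Fin s → Irr G) (σ : Fin s → ℤ), (∀ i, σ i = 1 ∨ σ i = -1) ∧
      (∀ i, ψ i ∈ XZ red l Z) ∧ Function.Injective ψ ∧
      (∀ θ : Irr G, InL red l θ.1 → ∃ n : Fin s → ℤ, ∀ x, ¬ p ∣ orderOf x →
        θ.1 x = ∑ i, (n i : ℂ) * ((σ i : ℂ) * (ψ i).1 x)) ∧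
      (∀ i j, (Nat.card D : ℂ) * rsum p (fun x => ((σ i : ℂ) * (ψ i).1 x) *
        ((σ j : ℂ) * (ψ j).1 x⁻¹)) =
          Nat.card G * ((if i = j then ((s * m + 1 : ℕ) : ℂ) else 0) - m)) := by
  have hG0 : (Nat.card G : ℂ) ≠ 0 := by exact_mod_cast Nat.card_pos.ne'
  have hZ0 : (Nat.card Z : ℂ) ≠ 0 := by exact_mod_cast Nat.card_pos.ne'
  have hD0 : (Nat.card D : ℂ) ≠ 0 := by exact_mod_cast Nat.card_pos.ne'
  have hs0' : (s : ℂ) ≠ 0 := by exact_mod_cast hs0
  have hZp : IsPGroup p Z := hD.to_le hZD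
  have hsec := hsec_of (red := red) hB hlz
  have hne1 : ∀ u : G, u ∉ Z → u ≠ 1 := fun u hu hu1 => hu (hu1 ▸ Z.one_mem)
  have hXL := XZ_eq_XL red l Z hZc
  set X := XZ red l Z with hX
  set S := X.filter (fun ψ => ∀ i, ψ ≠ χ i) with hS
  set A : G → Irr G → ℂ := fun u ψ => (Ad p D Φ ε u ψ : ℂ) with hA
  have hXinl : ∀ ψ ∈ X, InL red l ψ.1 := fun ψ hψ => (mem_XZ.1 hψ).1
  -- the cardinality of `S`
  have hSle : S.card ≤ s := by
    have h1 : (S.card : ℤ) ≤ s := by
      rw [← hc.sq]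
      have h2 : ∀ ψ ∈ S, (1 : ℤ) ≤ (r ψ) ^ 2 := by
        intro ψ hψ
        have h3 := mem_filter.1 hψ
        have h4 := hc.ne ψ h3.1 h3.2
        have h5 : 0 < (r ψ) ^ 2 := by positivity
        omega
      calc (S.card : ℤ) = ∑ ψ ∈ S, (1 : ℤ) := by simp
        _ ≤ _ := Finset.sum_le_sum h2
    exact_mod_cast h1
  have hXcard : X.card = S.card + m := by
    have h1 := sum_split hc (fun _ => 1)
    simp only [Finset.sum_const, nsmul_eq_mul, mul_one, card_univ, Fintype.card_fin] at h1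
    exact_mod_cast h1
  -- the two projections
  obtain ⟨r₀, hr1, hr2⟩ := exists_rank (red := red) hB hlz hZc hZp
  rw [← hXL] at hr2
  have hC2 : ∀ u ∈ D, u ∉ Z → ∀ b ∈ D, b ∉ Z → ∑ a ∈ X, A u a * (starRingEnd ℂ) (A b a) =
      1 / (Nat.card Z : ℂ) * ∑ z : Z, (if ∃ t ∈ stabT D l, t * u * t⁻¹ = z * b then
        (Nat.card D : ℂ) else 0) := fun u hu huZ b hb hbZ =>
    P179H854.sum_XZ_gram h hl hD hab hZc hZD hreg hu huZ hb hbZ
  have hC1 : ∀ a ∈ X, ∀ z ∈ Z, ∀ u ∈ D, u ∉ Z → A (z * u) a = A u a := by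
    intro a ha z hz u hu huZ
    simp only [hA]
    rw [P179H854.ad_mul_of_mem_XZ h hZc hZD hreg ha hz hu huZ]
  have hC3 : ∀ u ∈ D, u ∉ Z → ∀ g : G, ¬ p ∣ orderOf g → ∑ a ∈ X, A u a * a.1 g = 0 :=
    fun u hu huZ g hg => P179H854.sum_XZ_reg h hl hD hZc hZD hreg hu huZ hg
  have h4 : ∀ a : Irr G, ∀ t ∈ stabT D l, ∀ u ∈ D, u ∉ Z → A (t * u * t⁻¹) a = A u a := by
    intro a t ht u hu huZ
    simp only [hA]
    rw [h.ad_conj hl (hreg u hu huZ) (hne1 u huZ) ht]
  have h5 : ∀ u ∈ D, u ∉ Z → ((univ.filter (fun b : G => b ∈ D ∧ b ∉ Z)).filter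
      (fun b => ∃ t ∈ stabT D l, t * u * t⁻¹ = b)).card = s := fun u hu huZ => by
    rw [orbit_card (hreg u hu huZ) huZ hZc, hs]
  have h6 : ∀ u ∈ D, u ∉ Z → ∀ z ∈ Z, (∃ t ∈ stabT D l, t * u * t⁻¹ = z * u) → z = 1 :=
    fun u hu _ z hz hex => z_eq_one hD hZD hZc hT hu hz hex
  have htr := rf_trace D Z (stabT D l) A hs0 hZD X hC2 h6 hc.card
  have hQR : ∀ a ∈ X, ∀ b ∈ X, ∑ c ∈ X, qf p Z a c * rf D Z s A c b = 0 := by
    intro a _ b _
    have e1 : ∀ c ∈ X, qf p Z a c * rf D Z s A c b = ((Nat.card Z : ℂ) / Nat.card G *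
        (1 / ((Nat.card D : ℂ) * s))) * ∑ t ∈ univ.filter (fun t : G => ¬ p ∣ orderOf t),
        ∑ u ∈ univ.filter (fun u : G => u ∈ D ∧ u ∉ Z),
          a.1 t * (starRingEnd ℂ) (A u b) * (A u c * c.1 t⁻¹) := by
      intro c _
      unfold qf rf
      rw [rsum_eq, mul_mul_mul_comm, Finset.sum_mul_sum]
      congr 1
      exact Finset.sum_congr rfl fun t _ => Finset.sum_congr rfl fun u _ => by ring
    rw [Finset.sum_congr rfl e1, ← Finset.mul_sum, Finset.sum_comm]
    rw [Finset.sum_eq_zero, mul_zero]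
    intro t ht
    rw [Finset.sum_comm]
    refine Finset.sum_eq_zero fun u hu => ?_
    have hu' := (mem_filter.1 hu).2
    rw [← Finset.mul_sum, hC3 u hu'.1 hu'.2 t⁻¹ (by rw [orderOf_inv]; exact (mem_filter.1 ht).2),
      mul_zero]
  have hmain := proj_compl X (qf p Z) (rf D Z s A) (fun a _ b _ => qf_star Z a b)
    (fun a _ b _ => rf_star D Z A a b)
    (fun a ha b _ => by
      rw [hXL]
      exact qf_idem red l Z hZc hZp hsec (hXinl a ha) b)
    (fun a ha b _ => rf_idem D Z (stabT D l) A hs0 hZD X hC1 hC2 h4 h5 ha b) hQR r₀ m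
    (by rw [hr2]; push_cast; rfl) (by rw [htr]; push_cast; rfl) (by
      have h7 : X.card ≤ r₀ + m := by omega
      exact_mod_cast h7)
  have hScard : S.card = s := by
    have h7 : (∑ a ∈ X, (qf p Z a a + rf D Z s A a a) : ℂ) = X.card := by
      rw [Finset.sum_congr rfl fun a ha => by rw [hmain a ha a ha, if_pos rfl]]
      simp
    rw [Finset.sum_add_distrib, hr2, htr] at h7
    have h8 : r₀ + m = X.card := by exact_mod_cast h7
    omega
  have hsq : ∀ ψ ∈ S, r ψ = 1 ∨ r ψ = -1 := by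
    have h7 : ∑ ψ ∈ S, ((r ψ) ^ 2 - 1) = 0 := by
      rw [Finset.sum_sub_distrib, hc.sq, Finset.sum_const, hScard]
      simp
    have h8 : ∀ ψ ∈ S, 0 ≤ (r ψ) ^ 2 - 1 := by
      intro ψ hψ
      have h3 := mem_filter.1 hψ
      have h4 := hc.ne ψ h3.1 h3.2
      have h5 : 0 < (r ψ) ^ 2 := by positivity
      omega
    intro ψ hψ
    have h9 := (Finset.sum_eq_zero_iff_of_nonneg h8).1 h7 ψ hψ
    have h10 : (r ψ - 1) * (r ψ + 1) = 0 := by linear_combination h9
    rcases mul_eq_zero.1 h10 with h11 | h11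
    · left; omega
    · right; omega
  -- the enumeration
  let E := S.equivFinOfCardEq hScard
  let ψ : Fin s → Irr G := fun i => (E.symm i).1
  have hψS : ∀ i, ψ i ∈ S := fun i => (E.symm i).2
  have hψX : ∀ i, ψ i ∈ X := fun i => (mem_filter.1 (hψS i)).1
  have hψχ : ∀ i j, ψ i ≠ χ j := fun i => (mem_filter.1 (hψS i)).2
  have hψinj : Function.Injective ψ := fun i j hij => E.symm.injective (Subtype.ext hij)
  have hsumS : ∀ f : Irr G → ℂ, ∑ a ∈ S, f a = ∑ i, f (ψ i) := by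
    intro f
    rw [← Finset.sum_coe_sort S f]
    exact (Equiv.sum_comp E.symm (fun a : S => f a)).symm
  let σ : Fin s → ℤ := fun i => r (ψ i)
  have hσ : ∀ i, σ i = 1 ∨ σ i = -1 := fun i => hsq _ (hψS i)
  have hσ2 : ∀ i, (σ i : ℂ) * σ i = 1 := by
    intro i
    rcases hσ i with h | h <;> rw [h] <;> norm_num
  have hval : ∀ i, ∀ u ∈ D, u ∉ Z → A u (ψ i) = (σ i : ℂ) := by
    intro i u hu huZ
    have h7 := hc.val (ψ i) (hψX i) (hψχ i) u hu huZ
    simp only [hA]
    rw [h7]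
    push_cast
    rfl
  have hsumχ : ∀ u ∈ D, u ∉ Z → (e : ℂ) * ∑ i, A u (χ i) = -1 := by
    intro u hu huZ
    have h7 := congrArg (fun x : AA => (x : ℂ)) (hc.sum u hu huZ)
    push_cast at h7
    exact h7
  have he2 : (e : ℂ) * e = 1 := by
    rcases hc.he with h | h <;> rw [h] <;> norm_num
  have hcardW := card_W D Z hZD
  have hDs : (Nat.card D : ℂ) = (s * m + 1) * Nat.card Z := by
    rw [← hc.card]
    push_cast
    ring
  have hsm0 : ((s : ℂ) * m + 1) ≠ 0 := by
    have : ((s * m + 1 : ℕ) : ℂ) ≠ 0 := by exact_mod_cast (Nat.succ_ne_zero (s * m))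
    push_cast at this
    exact this
  have hq : ∀ i j, qf p Z (ψ i) (ψ j) =
      (if i = j then 1 else 0) - (m : ℂ) / (s * m + 1) * (σ i * σ j) := by
    intro i j
    have h7 := hmain (ψ i) (hψX i) (ψ j) (hψX j)
    have h8 : rf D Z s A (ψ i) (ψ j) = (m : ℂ) / (s * m + 1) * (σ i * σ j) := by
      unfold rf
      have h9 : ∀ u ∈ univ.filter (fun u : G => u ∈ D ∧ u ∉ Z),
          A u (ψ i) * (starRingEnd ℂ) (A u (ψ j)) = (σ i : ℂ) * σ j := by
        intro u hu
        have hu' := (mem_filter.1 hu).2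
        rw [hval i u hu'.1 hu'.2, hval j u hu'.1 hu'.2, map_intCast]
      rw [Finset.sum_congr rfl h9, Finset.sum_const, nsmul_eq_mul, hcardW, hDs]
      field_simp
      ring
    rw [h8] at h7
    rw [← sub_eq_iff_eq_add.2 h7.symm]
    by_cases hij : i = j
    · rw [if_pos hij, if_pos (by rw [hij])]
    · rw [if_neg hij, if_neg (fun h => hij (hψinj h))]
  have hgram : ∀ i j, (Nat.card D : ℂ) * rsum p (fun x => ((σ i : ℂ) * (ψ i).1 x) *
        ((σ j : ℂ) * (ψ j).1 x⁻¹)) =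
          Nat.card G * ((if i = j then ((s * m + 1 : ℕ) : ℂ) else 0) - m) := by
    intro i j
    have h7 : rsum p (fun x => ((σ i : ℂ) * (ψ i).1 x) * ((σ j : ℂ) * (ψ j).1 x⁻¹)) =
        (σ i : ℂ) * σ j * rsum p (fun x => (ψ i).1 x * (ψ j).1 x⁻¹) := by
      rw [rsum_eq, rsum_eq, Finset.mul_sum]
      exact Finset.sum_congr rfl fun t _ => by ring
    have h8 : rsum p (fun x => (ψ i).1 x * (ψ j).1 x⁻¹) =
        (Nat.card G : ℂ) / Nat.card Z * qf p Z (ψ i) (ψ j) := by
      unfold qf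
      field_simp
    rw [h7, h8, hq, hDs]
    by_cases hij : i = j
    · subst hij
      rw [if_pos rfl, if_pos rfl]
      push_cast
      field_simp
      linear_combination ((s : ℂ) * m + 1 - m * (σ i * σ i + 1)) * hσ2 i
    · rw [if_neg hij, if_neg hij]
      field_simp
      linear_combination (-(m : ℂ)) * (σ j * σ j) * hσ2 i - (m : ℂ) * hσ2 j
  refine ⟨ψ, σ, hσ, hψX, hψinj, ?_, hgram⟩
  intro θ hθ
  -- `χ i` on the `p`-regular elements
  have hχreg : ∀ i, ∀ g : G, ¬ p ∣ orderOf g → (χ i).1 g = e * ∑ j, (σ j : ℂ) * (ψ j).1 g := by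
    intro i g hg
    have h7 := hc.reg i g hg
    rw [hsumS (fun a => (r a : ℂ) * a.1 g)] at h7
    have h8 : (e : ℂ) * ((e : ℂ) * (χ i).1 g) = e * ∑ j, (σ j : ℂ) * (ψ j).1 g := by rw [h7]
    rw [← mul_assoc, he2, one_mul] at h8
    exact h8
  have hqχ : ∀ i, qf p Z θ (χ i) = e * ∑ j, (σ j : ℂ) * qf p Z θ (ψ j) := by
    intro i
    unfold qf
    simp only [rsum_eq]
    have h7 : ∀ t ∈ univ.filter (fun s : G => ¬ p ∣ orderOf s), θ.1 t * (χ i).1 t⁻¹ =
        ∑ j, (e : ℂ) * ((σ j : ℂ) * (θ.1 t * (ψ j).1 t⁻¹)) := by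
      intro t ht
      rw [hχreg i t⁻¹ (by rw [orderOf_inv]; exact (mem_filter.1 ht).2), Finset.mul_sum,
        Finset.mul_sum]
      exact Finset.sum_congr rfl fun j _ => by ring
    rw [Finset.sum_congr rfl h7, Finset.sum_comm, Finset.mul_sum, Finset.mul_sum]
    refine Finset.sum_congr rfl fun j _ => ?_
    rw [← Finset.mul_sum, ← Finset.mul_sum]
    ring
  -- the coefficients
  have hint : ∀ i, ∃ n : ℤ, (σ i : ℂ) * qf p Z θ (ψ i) + m * ∑ j, (σ j : ℂ) * qf p Z θ (ψ j) = n := by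
    intro i
    -- the virtual character
    let c : Irr G → ℤ := fun a => (if a = ψ i then σ i else 0) + ∑ j, (if a = χ j then e else 0)
    let P : G → ℂ := fun x => (σ i : ℂ) * (ψ i).1 x + e * ∑ j, (χ j).1 x
    have hPc : ∀ (Y : Finset (Irr G)), ψ i ∈ Y → (∀ j, χ j ∈ Y) → ∀ f : Irr G → ℂ,
        ∑ a ∈ Y, (c a : ℂ) * f a = (σ i : ℂ) * f (ψ i) + e * ∑ j, f (χ j) := by
      intro Y hY1 hY2 f
      have h7 : ∀ a ∈ Y, (c a : ℂ) * f a = (if a = ψ i then (σ i : ℂ) * f a else 0) +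
          ∑ j, (if a = χ j then (e : ℂ) * f a else 0) := by
        intro a _
        simp only [c]
        push_cast
        rw [add_mul, Finset.sum_mul]
        congr 1
        · split_ifs
          · rfl
          · rw [zero_mul]
        · refine Finset.sum_congr rfl fun j _ => ?_
          split_ifs
          · rfl
          · rw [zero_mul]
      rw [Finset.sum_congr rfl h7, Finset.sum_add_distrib, Finset.sum_ite_eq', if_pos hY1,
        Finset.sum_comm, Finset.mul_sum]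
      congr 1
      refine Finset.sum_congr rfl fun j _ => ?_
      rw [Finset.sum_ite_eq', if_pos (hY2 j)]
    have hP : ∀ x, P x = ∑ a : Irr G, (c a : ℂ) * a.1 x := fun x =>
      (hPc univ (mem_univ _) (fun _ => mem_univ _) (fun a => a.1 x)).symm
    have hPz : ∀ z ∈ Z, ∀ x, P (z * x) = P x := by
      intro z hz x
      simp only [P]
      rw [(mem_XZ.1 (hψX i)).2 z hz x]
      congr 2
      exact Finset.sum_congr rfl fun j _ => (mem_XZ.1 (hc.mem j)).2 z hz x
    have hPv : ∀ x, P x ≠ 0 → ∃ z ∈ Z, ∃ t, ¬ p ∣ orderOf t ∧ x = z * t := by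
      intro x
      contrapose!
      intro hx
      have h7 : P x = ∑ b ∈ X, (c b : ℂ) * b.1 x := (hPc X (hψX i) hc.mem (fun a => a.1 x)).symm
      rw [h7]
      -- the projections
      have h8 : ∀ b ∈ X, (c b : ℂ) * b.1 x =
          ∑ a ∈ X, (qf p Z a b + rf D Z s A a b) * ((c b : ℂ) * a.1 x) := by
        intro b hb
        have h9 : ∀ a ∈ X, (qf p Z a b + rf D Z s A a b) * ((c b : ℂ) * a.1 x) =
            if a = b then (c b : ℂ) * a.1 x else 0 := by
          intro a ha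
          rw [hmain a ha b hb]
          split_ifs
          · rw [one_mul]
          · rw [zero_mul]
        rw [Finset.sum_congr rfl h9, Finset.sum_ite_eq', if_pos hb]
      rw [Finset.sum_congr rfl h8]
      have h10 : ∀ b ∈ X, ∑ a ∈ X, (qf p Z a b + rf D Z s A a b) * ((c b : ℂ) * a.1 x) =
          ∑ a ∈ X, rf D Z s A a b * ((c b : ℂ) * a.1 x) := by
        intro b _
        have h11 : ∑ a ∈ X, qf p Z a b * ((c b : ℂ) * a.1 x) = 0 := by
          have h12 : ∀ a ∈ X, qf p Z a b * ((c b : ℂ) * a.1 x) =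
              ∑ t ∈ univ.filter (fun t : G => ¬ p ∣ orderOf t),
                ((Nat.card Z : ℂ) / Nat.card G * b.1 t⁻¹ * c b) * (a.1 x * a.1 t⁻¹⁻¹) := by
            intro a _
            unfold qf
            rw [rsum_eq, mul_assoc, Finset.sum_mul, Finset.mul_sum]
            refine Finset.sum_congr rfl fun t _ => ?_
            rw [inv_inv]
            ring
          rw [Finset.sum_congr rfl h12, Finset.sum_comm]
          refine Finset.sum_eq_zero fun t ht => ?_
          rw [← Finset.mul_sum, hXL, XL_orth red l Z hZc 1 rfl (fun _ _ => (mul_one _).symm) hsec,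
            mul_zero]
          intro z hz hss
          have h13 : pp p t⁻¹ = 1 := (pp_eq_one_iff _).2 (by
            rw [orderOf_inv]; exact (mem_filter.1 ht).2)
          unfold P179X.SameSec at hss
          rw [h13] at hss
          have h14 : ¬ p ∣ orderOf (z * x) := (pp_eq_one_iff _).1 (isConj_one_left.1 hss)
          exact hx z⁻¹ (Z.inv_mem hz) (z * x) h14 (by group)
        have h15 : ∀ a ∈ X, (qf p Z a b + rf D Z s A a b) * ((c b : ℂ) * a.1 x) =
            qf p Z a b * ((c b : ℂ) * a.1 x) + rf D Z s A a b * ((c b : ℂ) * a.1 x) :=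
          fun a _ => add_mul _ _ _
        rw [Finset.sum_congr rfl h15, Finset.sum_add_distrib, h11, zero_add]
      rw [Finset.sum_congr rfl h10, Finset.sum_comm]
      refine Finset.sum_eq_zero fun a ha => ?_
      have h16 : ∀ b ∈ X, rf D Z s A a b * ((c b : ℂ) * a.1 x) =
          ∑ u ∈ univ.filter (fun u : G => u ∈ D ∧ u ∉ Z),
            (1 / ((Nat.card D : ℂ) * s) * A u a * a.1 x) *
              ((c b : ℂ) * (starRingEnd ℂ) (A u b)) := by
        intro b _
        unfold rf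
        rw [mul_assoc, Finset.sum_mul, Finset.mul_sum]
        exact Finset.sum_congr rfl fun u _ => by ring
      rw [Finset.sum_congr rfl h16, Finset.sum_comm]
      refine Finset.sum_eq_zero fun u hu => ?_
      have hu' := (mem_filter.1 hu).2
      rw [← Finset.mul_sum, hPc X (hψX i) hc.mem (fun b => (starRingEnd ℂ) (A u b)),
        hval i u hu'.1 hu'.2, map_intCast, hσ2 i]
      have h17 := congrArg (starRingEnd ℂ) (hsumχ u hu'.1 hu'.2)
      rw [map_mul, map_intCast, map_sum, map_neg, map_one] at h17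
      rw [h17]
      ring
    obtain ⟨a, ha⟩ := P179H46.rsum_int Z hZc hZp hP hPz hPv θ
    refine ⟨a, ?_⟩
    rw [← ha]
    have h18 : (Nat.card Z : ℂ) / Nat.card G * rsum p (fun t => θ.1 t * P t⁻¹) =
        (σ i : ℂ) * qf p Z θ (ψ i) + e * ∑ j, qf p Z θ (χ j) := by
      unfold qf
      simp only [rsum_eq, P]
      have h19 : ∀ t : G, θ.1 t * ((σ i : ℂ) * (ψ i).1 t⁻¹ + e * ∑ j, (χ j).1 t⁻¹) =
          (σ i : ℂ) * (θ.1 t * (ψ i).1 t⁻¹) + ∑ j, (e : ℂ) * (θ.1 t * (χ j).1 t⁻¹) := by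
        intro t
        rw [mul_add, Finset.mul_sum, Finset.mul_sum]
        congr 1
        · ring
        · exact Finset.sum_congr rfl fun j _ => by ring
      rw [Finset.sum_congr rfl fun t _ => h19 t, Finset.sum_add_distrib, mul_add,
        Finset.sum_comm (t := (univ : Finset (Fin m)))]
      congr 1
      · rw [← Finset.mul_sum]
        ring
      · rw [Finset.mul_sum, Finset.mul_sum]
        refine Finset.sum_congr rfl fun j _ => ?_
        rw [← Finset.mul_sum]
        ring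
    rw [h18, Finset.sum_congr rfl fun j _ => hqχ j, Finset.sum_const, card_univ, Fintype.card_fin,
      nsmul_eq_mul]
    linear_combination (-(m : ℂ) * ∑ j, (σ j : ℂ) * qf p Z θ (ψ j)) * he2
  choose n hn using hint
  refine ⟨n, fun g hg => ?_⟩
  have h7 := qf_rep red l Z hZc hZp hsec hθ hg
  rw [← hXL, sum_split hc, hsumS] at h7
  rw [h7]
  have h8 : ∀ i, qf p Z θ (χ i) * (χ i).1 g =
      (∑ j, (σ j : ℂ) * qf p Z θ (ψ j)) * ∑ j, (σ j : ℂ) * (ψ j).1 g := by
    intro i
    rw [hqχ i, hχreg i g hg]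
    linear_combination ((∑ j, (σ j : ℂ) * qf p Z θ (ψ j)) * ∑ j, (σ j : ℂ) * (ψ j).1 g) * he2
  rw [Finset.sum_congr rfl fun i _ => h8 i, Finset.sum_const, card_univ, Fintype.card_fin,
    nsmul_eq_mul, Finset.mul_sum, Finset.mul_sum, ← Finset.sum_add_distrib]
  refine Finset.sum_congr rfl fun i _ => ?_
  rw [← hn i]
  linear_combination (-(qf p Z θ (ψ i) * (ψ i).1 g)) * hσ2 i

end

end P179H666
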