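import Vale.Agent.P179.R2.H92.ClsDef

/-!
# Abelian `p`-groups with few small cyclic factors, up to a given order
-/

namespace P179B

/-- For every `i ≥ 1` the `i`-th smallest cyclic factor of the abelian `p`-group `D` has order at
least `p ^ (min (n i) (a + 1))`, where `n 1 = 1`, `n 2 = 2`, `n 3 = 7`, `n 4 = 16`, ... (see `facN`).
So there is no condition for `a = 0`; the condition for `a = 1` is that at most one cyclic factor of
`D` has order `p`; and the condition holds for every `a` if all the cyclic factors of `D` have order
at least `p ^ (a + 1)`, or if `GrowingFactors p D` holds. In terms of elements: the group of the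
`x ∈ D` with `x ^ p = 1` has at most `p ^ (i - 1)` times as many elements as its subgroup of the
`p ^ (min (n i - 1) a)`-th powers of elements of `D`. -/
def GrowingUpTo (p a : ℕ) {G : Type*} [Group G] (D : Subgroup G) : Prop :=
  ∀ i : ℕ, 1 ≤ i → Nat.card {x : G // x ∈ D ∧ x ^ p = 1} ≤
    p ^ (i - 1) * Nat.card {x : G // (∃ y ∈ D, y ^ p ^ (min (facN i - 1) a) = x) ∧ x ^ p = 1}

end P179B
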