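import Vale.Agent.P179.R2.H666.Thr4
import Vale.Agent.P179.R2.H666.ClsUpto

/-!
# Abelian `p`-groups with growing cyclic factors up to a given order: closure properties
-/

namespace P179H666

open Subgroup P179H292 P179H92 P179H351

open P179B (facJ facN GrowingFactors GrowingUpTo)

variable {G X : Type*} [Group G] [Group X]

/-- isomorphic groups -/
theorem growingUpTo_equiv {K : Subgroup G} {D : Subgroup X} (e : K ≃* D) {p a : ℕ}
    (h : GrowingUpTo p a K) : GrowingUpTo p a D := by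
  intro i hi
  rw [← card_equiv e p, ← card_omP_equiv e p]
  exact h i hi

/-- direct factors -/
theorem growingUpTo_dec [Finite G] {D C K : Subgroup G} (h : Dec D C K)
    (hab : ∀ a ∈ D, ∀ b ∈ D, a * b = b * a) {p a : ℕ} (hD : GrowingUpTo p a D) :
    GrowingUpTo p a K := by
  intro i hi
  have h1 := hD i hi
  rw [card_omP_swap] at h1 ⊢
  exact h.small hab h1

theorem growingUpTo_factor [Finite G] {D K : Subgroup G} (hab : ∀ a ∈ D, ∀ b ∈ D, a * b = b * a)
    {p a : ℕ} (hD : GrowingUpTo p a D) (h : IsFactor D K) : GrowingUpTo p a K := by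
  obtain ⟨C, hC⟩ := dec_of_isFactor h
  exact growingUpTo_dec hC hab hD

theorem omP_pos [Finite G] (D : Subgroup G) (p q : ℕ) :
    1 ≤ Nat.card {x : G // (∃ y ∈ D, y ^ q = x) ∧ x ^ p = 1} := by
  have : Nonempty {x : G // (∃ y ∈ D, y ^ q = x) ∧ x ^ p = 1} :=
    ⟨⟨1, ⟨1, D.one_mem, one_pow _⟩, one_pow _⟩⟩
  exact Nat.card_pos

theorem omP_eq_one {D : Subgroup G} {p q : ℕ} (h : ∀ x ∈ D, x ^ q = 1) :
    Nat.card {x : G // (∃ y ∈ D, y ^ q = x) ∧ x ^ p = 1} = 1 := by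
  refine Nat.card_eq_one_iff_unique.2 ⟨⟨?_⟩, ⟨⟨1, ⟨1, D.one_mem, one_pow _⟩, one_pow _⟩⟩⟩
  rintro ⟨x, ⟨y, hy, rfl⟩, -⟩ ⟨x', ⟨y', hy', rfl⟩, -⟩
  exact Subtype.ext ((h y hy).trans (h y' hy').symm)

/-- small exponent -/
theorem growing_of_exp [Finite G] {D : Subgroup G} {p a : ℕ} (hD : GrowingUpTo p a D)
    (h : ∀ x ∈ D, x ^ p ^ a = 1) : GrowingFactors p D := by
  intro i hi
  have h1 := hD i hi
  rcases Nat.le_total (facN i - 1) a with h2 | h2
  · rwa [min_eq_left h2] at h1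
  · rw [min_eq_right h2, omP_eq_one h] at h1
    exact h1.trans (Nat.mul_le_mul_left _ (omP_pos _ _ _))

/-- the direct factors of small exponent -/
theorem growing_of_upto [Finite G] {D K : Subgroup G} (hab : ∀ a ∈ D, ∀ b ∈ D, a * b = b * a)
    {p a : ℕ} (hD : GrowingUpTo p a D) (hK : IsFactor D K) (h : ∀ x ∈ K, x ^ p ^ a = 1) :
    GrowingFactors p K :=
  growing_of_exp (growingUpTo_factor hab hD hK) h

/-- powers of smaller exponent -/
theorem omP_mono [Finite G] (D : Subgroup G) (p : ℕ) {m n : ℕ} (h : m ≤ n) :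
    Nat.card {x : G // (∃ y ∈ D, y ^ p ^ n = x) ∧ x ^ p = 1} ≤
      Nat.card {x : G // (∃ y ∈ D, y ^ p ^ m = x) ∧ x ^ p = 1} := by
  refine Nat.card_le_card_of_injective (fun x => ⟨x.1, ?_, x.2.2⟩) fun x y e => Subtype.ext
    (congrArg (fun z => z.1) e)
  obtain ⟨y, hy, hyx⟩ := x.2.1
  refine ⟨y ^ p ^ (n - m), pow_mem hy _, ?_⟩
  rw [← pow_mul, ← pow_add, Nat.sub_add_cancel h, hyx]

theorem upto_of_growing [Finite G] {D : Subgroup G} {p : ℕ} (a : ℕ) (h : GrowingFactors p D) :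
    GrowingUpTo p a D := fun i hi =>
  (h i hi).trans (Nat.mul_le_mul_left _ (omP_mono D p (min_le_left _ _)))

/-- all the cyclic factors have order at least `p ^ (a + 1)` -/
theorem upto_of_large [Finite G] {D : Subgroup G} {p a : ℕ} (hp : 0 < p)
    (h : ∀ x ∈ D, x ^ p = 1 → ∃ y ∈ D, y ^ p ^ a = x) : GrowingUpTo p a D := by
  intro i _
  have h1 : Nat.card {x : G // x ∈ D ∧ x ^ p = 1} ≤
      Nat.card {x : G // (∃ y ∈ D, y ^ p ^ a = x) ∧ x ^ p = 1} :=
    Nat.card_le_card_of_injective (fun x => ⟨x.1, h x.1 x.2.1 x.2.2, x.2.2⟩) fun x y e =>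
      Subtype.ext (congrArg (fun z => z.1) e)
  calc _ ≤ 1 * Nat.card {x : G // (∃ y ∈ D, y ^ p ^ (min (facN i - 1) a) = x) ∧ x ^ p = 1} := by
        rw [one_mul]
        exact h1.trans (omP_mono D p (min_le_right _ _))
    _ ≤ _ := Nat.mul_le_mul_right _ (Nat.one_le_pow _ _ hp)

/-- no condition for `a = 0` -/
theorem upto_zero (D : Subgroup G) {p : ℕ} (hp : 0 < p) : GrowingUpTo p 0 D := by
  intro i _
  have h1 : Nat.card {x : G // x ∈ D ∧ x ^ p = 1} =
      Nat.card {x : G // (∃ y ∈ D, y ^ p ^ (min (facN i - 1) 0) = x) ∧ x ^ p = 1} := by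
    refine Nat.card_congr (Equiv.subtypeEquivRight fun x => ?_)
    rw [Nat.min_zero, pow_zero]
    constructor
    · rintro ⟨h1, h2⟩
      exact ⟨⟨x, h1, pow_one x⟩, h2⟩
    · rintro ⟨⟨y, hy, hyx⟩, h2⟩
      rw [pow_one] at hyx
      subst hyx
      exact ⟨hy, h2⟩
  rw [h1]
  exact Nat.le_mul_of_pos_left _ (Nat.pow_pos hp)

end P179H666
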