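import Vale.Agent.P179.H143.TranspT

/-!
# The permutation lemma for blocks with inertial index one

`K` finite, `(D, l)` a Brauer pair with `D` abelian and inertial index `1`, `s` an automorphism of
`K` which fixes `D` and `l`.  The number of irreducible characters in `l` fixed by `s` equals the
number of elements of `D` fixed by `s`.
-/

namespace P179H666

open P179H524 P179C P179A Finset P179P Subgroup P179Y

open P179X (pp)

open scoped Classical

section Lin

/-- a square matrix with orthogonal rows, equivariant for two permutations -/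
theorem card_fix_eq {ι κ : Type*} [Fintype ι] [Fintype κ]
    (hc : Fintype.card κ = Fintype.card ι) (A : ι → κ → ℂ) {q : ℂ} (hq : q ≠ 0)
    (hA : ∀ u, ∑ χ, A u χ * (starRingEnd ℂ) (A u χ) = q)
    (hA' : ∀ u v, u ≠ v → ∑ χ, A u χ * (starRingEnd ℂ) (A v χ) = 0)
    (s : ι → ι) (t : κ → κ) (hst : ∀ u χ, A (s u) χ = A u (t χ)) :
    Nat.card {u // s u = u} = Nat.card {χ // t χ = χ} := by
  let M : Matrix ι κ ℂ := fun u χ => A u χ
  let M' : Matrix κ ι ℂ := fun χ v => q⁻¹ * (starRingEnd ℂ) (A v χ)
  have h1 : M * M' = 1 := by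
    ext u v
    rw [Matrix.mul_apply, Matrix.one_apply]
    have h2 : ∀ χ, M u χ * M' χ v = q⁻¹ * (A u χ * (starRingEnd ℂ) (A v χ)) := by
      intro χ
      change A u χ * (q⁻¹ * (starRingEnd ℂ) (A v χ)) = _
      ring
    rw [Finset.sum_congr rfl fun χ _ => h2 χ, ← Finset.mul_sum]
    split_ifs with h
    · rw [h, hA]
      exact inv_mul_cancel₀ hq
    · rw [hA' u v h]
      exact mul_zero _
  have h3 : M' * M = 1 := (Matrix.mul_eq_one_comm_of_equiv (Fintype.equivOfCardEq hc.symm)).1 h1
  have e1 : (Nat.card {u // s u = u} : ℂ) = ∑ u, ∑ χ, A (s u) χ * (q⁻¹ * (starRingEnd ℂ) (A u χ)) := by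
    rw [Nat.card_eq_fintype_card, Fintype.card_subtype, Finset.card_filter]
    push_cast
    refine Finset.sum_congr rfl fun u _ => ?_
    have h4 := congrFun (congrFun h1 (s u)) u
    rw [Matrix.mul_apply, Matrix.one_apply] at h4
    exact h4.symm
  have e2 : (Nat.card {χ // t χ = χ} : ℂ) = ∑ χ, ∑ u, (q⁻¹ * (starRingEnd ℂ) (A u χ)) * A u (t χ) := by
    rw [Nat.card_eq_fintype_card, Fintype.card_subtype, Finset.card_filter]
    push_cast
    refine Finset.sum_congr rfl fun χ _ => ?_
    have h4 := congrFun (congrFun h3 χ) (t χ)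
    rw [Matrix.mul_apply, Matrix.one_apply] at h4
    rw [eq_comm (a := t χ)]
    exact h4.symm
  have h5 : (Nat.card {u // s u = u} : ℂ) = (Nat.card {χ // t χ = χ} : ℂ) := by
    rw [e1, e2, Finset.sum_comm]
    refine Finset.sum_congr rfl fun χ _ => Finset.sum_congr rfl fun u _ => ?_
    rw [hst, mul_comm]
  exact_mod_cast h5

end Lin

section

variable {k : Type*} [Field k] {p : ℕ} [hp : Fact p.Prime] [CharP k p]
  {red : integralClosure ℤ ℂ →+* k} {K : Type} [Group K] [Fintype K]
  {D : Subgroup K} {l : (K → k) → k} {s : K ≃* K}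

omit [Fintype K] in
theorem mem_cent_map (hs : D.map s.toMonoidHom = D) (x : K) :
    s x ∈ centralizer (D : Set K) ↔ x ∈ centralizer (D : Set K) := by
  rw [mem_centralizer_iff, mem_centralizer_iff]
  constructor
  · intro h d hd
    have h1 : s d ∈ D := by
      rw [← hs]
      exact ⟨d, hd, rfl⟩
    apply s.injective
    rw [map_mul, map_mul]
    exact h _ h1
  · intro h d hd
    rw [← hs] at hd
    obtain ⟨d', hd', rfl⟩ := hd
    have := h d' hd'
    change s d' * s x = s x * s d'
    rw [← map_mul, ← map_mul, this]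

omit hp [CharP k p] in
/-- invariance under `s` on all functions invariant under `C(D)` -/
theorem l_comp (hl : BP p D l) (hs : D.map s.toMonoidHom = D)
    (hls : ∀ a : K → k, InvOn (centralizer (D : Set K)) a → l (fun x => a (s x)) = l a)
    {a : K → k} (ha : ∀ c ∈ centralizer (D : Set K), ∀ x, a (c * x * c⁻¹) = a x) :
    l (fun x => a (s x)) = l a := by
  rw [← hl.cut a, ← hls _ (invOn_cutC D ha)]
  refine hl.congr fun x hx => ?_
  simp only [cutC, if_pos ((mem_cent_map hs x).2 hx)]

omit hp [CharP k p] in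
theorem inL_comp (hl : BP p D l) (hs : D.map s.toMonoidHom = D)
    (hls : ∀ a : K → k, InvOn (centralizer (D : Set K)) a → l (fun x => a (s x)) = l a)
    {χ : K → ℂ} (hχ : IsIrrChar χ) (h : InL red l χ) : InL red l (fun x => χ (s x)) := by
  intro z hz
  have hz' : IsCF fun x => z (s.symm x) := by
    intro t x
    simp only [map_mul, map_inv]
    exact hz (s.symm t) (s.symm x)
  have h1 := lam_comp red s hχ hz'
  have e : (fun x => z (s.symm (s x))) = z := by
    funext x
    rw [MulEquiv.symm_apply_apply]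
  rw [e] at h1
  rw [h1, h _ hz']
  have h2 := l_comp hl hs hls (a := fun x => z (s.symm x)) fun c _ x => hz' c x
  rw [← h2, e]

/-- the isomorphism of the centralisers -/
def centEquiv (s : K ≃* K) (u : K) :
    (centralizer {u} : Subgroup K) ≃* (centralizer {s u} : Subgroup K) where
  toFun t := ⟨s t, by
    rw [mem_centralizer_singleton_iff, ← map_mul, ← map_mul, mem_centralizer_singleton_iff.1 t.2]⟩
  invFun t := ⟨s.symm t, by
    rw [mem_centralizer_singleton_iff]
    apply s.injective
    rw [map_mul, map_mul, s.apply_symm_apply, mem_centralizer_singleton_iff.1 t.2]⟩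
  left_inv t := Subtype.ext (s.symm_apply_apply _)
  right_inv t := Subtype.ext (s.apply_symm_apply _)
  map_mul' a b := Subtype.ext (map_mul s (a : K) (b : K))

omit [Fintype K] in
theorem centEquiv_coe (s : K ≃* K) (u : K) (t : (centralizer {u} : Subgroup K)) :
    ((centEquiv s u t : (centralizer {s u} : Subgroup K)) : K) = s t := rfl

omit hp [CharP k p] in
/-- equivariance of the generalised decomposition numbers -/
theorem dn_comp (hl : BP p D l) (hs : D.map s.toMonoidHom = D)
    (hls : ∀ a : K → k, InvOn (centralizer (D : Set K)) a → l (fun x => a (s x)) = l a)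
    {u : K} (hu : u ∈ D) {q : ℕ} {φ : (centralizer {u} : Subgroup K) → ℂ}
    {φ' : (centralizer {s u} : Subgroup K) → ℂ}
    (hφ : ND red p (lres (centralizer {u}) l) q φ)
    (hφ' : ND red p (lres (centralizer {s u}) l) q φ') (χ : K → ℂ) :
    dn p (centralizer {s u}) q φ' (s u) χ = dn p (centralizer {u}) q φ u (fun x => χ (s x)) := by
  have hsu : s u ∈ D := by
    rw [← hs]
    exact ⟨u, hu, rfl⟩
  -- the transported character
  have hirr : IsIrrChar (fun x => φ' (centEquiv s u x)) :=
    hφ'.irr.comp (centEquiv s u).toMonoidHom (centEquiv s u).surjective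
  have hin : InL red (lres (centralizer {u}) l) (fun x => φ' (centEquiv s u x)) := by
    intro z hz
    have hz' : IsCF fun x => z ((centEquiv s u).symm x) := by
      intro t x
      simp only [map_mul, map_inv]
      exact hz ((centEquiv s u).symm t) ((centEquiv s u).symm x)
    have h1 := lam_comp red (centEquiv s u) hφ'.irr hz'
    have e : (fun x => z ((centEquiv s u).symm (centEquiv s u x))) = z := by
      funext x
      rw [MulEquiv.symm_apply_apply]
    rw [e] at h1
    rw [h1, hφ'.mem _ hz']
    unfold lres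
    have h2 := l_comp hl hs hls
      (a := ext (centralizer {s u}) fun x => z ((centEquiv s u).symm x)) (by
        intro c hc x
        have hc' : c ∈ centralizer {s u} := cent_le_of_mem hsu hc
        by_cases hx : x ∈ centralizer {s u}
        · rw [ext_of_mem _ _ hx, ext_of_mem _ _ (mul_mem (mul_mem hc' hx) (inv_mem hc'))]
          exact hz' ⟨c, hc'⟩ ⟨x, hx⟩
        · rw [ext_of_not_mem _ _ hx, ext_of_not_mem]
          intro h3
          apply hx
          have h4 := mul_mem (mul_mem (inv_mem hc') h3) hc'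
          have e1 : c⁻¹ * (c * x * c⁻¹) * c = x := by group
          rwa [e1] at h4)
    rw [← h2]
    congr 1
    funext x
    by_cases hx : x ∈ centralizer {u}
    · have hx' : s x ∈ centralizer {s u} := (centEquiv s u ⟨x, hx⟩).2
      rw [ext_of_mem _ _ hx, ext_of_mem _ _ hx']
      congr 1
      exact (centEquiv s u).symm_apply_apply ⟨x, hx⟩
    · rw [ext_of_not_mem _ _ hx, ext_of_not_mem]
      intro h3
      apply hx
      rw [mem_centralizer_singleton_iff] at h3 ⊢
      apply s.injective
      rw [map_mul, map_mul, h3]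
  have heq : ∀ t : (centralizer {u} : Subgroup K), ¬ p ∣ orderOf t →
      φ' (centEquiv s u t) = φ t := fun t ht => hφ.eq ⟨_, hirr⟩ hin t ht
  unfold dn
  rw [Nat.card_congr (centEquiv s u).toEquiv]
  congr 1
  rw [rsum_eq, rsum_eq]
  symm
  refine Finset.sum_bij' (i := fun t _ => centEquiv s u t) (j := fun t _ => (centEquiv s u).symm t)
    ?_ ?_ ?_ ?_ ?_
  · intro t ht
    rw [mem_filter] at ht ⊢
    refine ⟨mem_univ _, ?_⟩
    rw [MulEquiv.orderOf_eq]
    exact ht.2
  · intro t ht
    rw [mem_filter] at ht ⊢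
    refine ⟨mem_univ _, ?_⟩
    rw [MulEquiv.orderOf_eq]
    exact ht.2
  · intro t _
    exact (centEquiv s u).symm_apply_apply t
  · intro t _
    exact (centEquiv s u).apply_symm_apply t
  · intro t ht
    have ht' : ¬ p ∣ orderOf t⁻¹ := by
      rw [orderOf_inv]
      exact (mem_filter.1 ht).2
    rw [← heq _ ht', map_inv, centEquiv_coe, ← map_mul]

variable [IsAlgClosed k] (p red)

/-- **(3c)** -/
theorem card_fixed (hl : BP p D l) (hD : IsPGroup p D) (hab : D ≤ centralizer (D : Set K))
    (hT : stabT D l ≤ centralizer (D : Set K)) (s : K ≃* K) (hs : D.map s.toMonoidHom = D)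
    (hls : ∀ a : K → k, InvOn (centralizer (D : Set K)) a → l (fun x => a (s x)) = l a) :
    Nat.card {χ : Irr K // InL red l χ.1 ∧ ∀ x, χ.1 (s x) = χ.1 x} =
      Nat.card {u : D // s u = u} := by
  have hreg : ∀ u ∈ D, RegT D l u := fun u hu => ⟨hu, fun n hn _ => hT hn⟩
  have h1 : ∀ u : D, ∃ φ : (centralizer {(u : K)} : Subgroup K) → ℂ,
      ND red p (lres (centralizer {(u : K)}) l) (Nat.card D) φ := fun u =>
    exists_NDT p red hl hD hab (hreg u u.2)
  choose φ hφ using h1
  obtain ⟨φ₀, hφ₀⟩ := thmNT p red K D l hl hD hab hT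
  have hsD : ∀ u : D, s u ∈ D := by
    intro u
    have h2 : s u ∈ D.map s.toMonoidHom := ⟨u, u.2, rfl⟩
    rwa [hs] at h2
  let sD : D → D := fun u => ⟨s u, hsD u⟩
  let sL : {χ : Irr K // InL red l χ.1} → {χ : Irr K // InL red l χ.1} := fun χ =>
    ⟨⟨fun x => χ.1.1 (s x), χ.1.2.comp s.toMonoidHom s.surjective⟩,
      inL_comp hl hs hls χ.1.2 χ.2⟩
  have hpel : ∀ u : D, ∃ a : ℕ, (u : K) ^ p ^ a = 1 := by
    intro u
    obtain ⟨a, ha⟩ := hD u
    exact ⟨a, by simpa using congrArg Subtype.val ha⟩
  have hq : Nat.card D ≠ 0 := Nat.card_pos.ne'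
  let A : D → {χ : Irr K // InL red l χ.1} → ℂ := fun u χ =>
    dn p (centralizer {(u : K)}) (Nat.card D) (φ u) u χ.1.1
  have hsum : ∀ u v : D, ∑ χ, A u χ * (starRingEnd ℂ) (A v χ) =
      ∑ χ : Irr K, dn p (centralizer {(u : K)}) (Nat.card D) (φ u) u χ.1 *
        (starRingEnd ℂ) (dn p (centralizer {(v : K)}) (Nat.card D) (φ v) v χ.1) := by
    intro u v
    rw [← Finset.sum_subset (Finset.subset_univ (univ.filter fun χ : Irr K => InL red l χ.1))]
    · rw [Finset.sum_subtype (p := fun χ : Irr K => InL red l χ.1)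
        (univ.filter fun χ : Irr K => InL red l χ.1) (fun x => by simp)]
    · intro χ _ hχ
      have h2 : ¬ InL red l χ.1 := by simpa using hχ
      rw [dn_eq_zero p red _ (hl.lres_coe (cent_le_of_mem u.2)) (hφ u) (u : K) (hpel u)
        (fun x => mem_centralizer_singleton_iff) χ h2, zero_mul]
  have hA : ∀ u : D, ∑ χ, A u χ * (starRingEnd ℂ) (A u χ) = (Nat.card D : ℂ) := by
    intro u
    rw [hsum]
    exact gram_self p red _ hq (hφ u) u (hpel u) fun x => mem_centralizer_singleton_iff
  have hA' : ∀ u v : D, u ≠ v → ∑ χ, A u χ * (starRingEnd ℂ) (A v χ) = 0 := by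
    intro u v huv
    rw [hsum]
    · rcases gram p red _ _ hq (hφ u) (hφ v) (u : K) (v : K) (hpel u) (hpel v)
        (fun x => mem_centralizer_singleton_iff) (fun x => mem_centralizer_singleton_iff)
        with h2 | ⟨-, g, hg, hgl⟩
      · exact h2
      · exfalso
        apply huv
        have h3 : RegT D l (g * (u : K) * g⁻¹) := by
          rw [hg]
          exact hreg v v.2
        obtain ⟨n, hn, hnu⟩ := fusionT hl hD hab u.2 h3 (by
          intro z hz
          rw [hg] at hz
          have h4 := hgl z hz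
          have h5 : cj g⁻¹ z = fun x => z (g * x * g⁻¹) := by
            funext x
            unfold cj
            rw [inv_inv]
          rw [h5]
          exact h4)
        have h6 := mem_centralizer_iff.1 (hT hn) u u.2
        apply Subtype.ext
        rw [← hg, ← hnu]
        calc (u : K) = (u : K) * n * n⁻¹ := by group
          _ = n * u * n⁻¹ := by rw [h6]
  have hfix := card_fix_eq (ι := D) (κ := {χ : Irr K // InL red l χ.1}) (by
    rw [← Nat.card_eq_fintype_card, ← Nat.card_eq_fintype_card]
    exact hφ₀.card) A (q := (Nat.card D : ℂ)) (by exact_mod_cast hq) hA hA' sD sL (by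
      intro u χ
      exact dn_comp hl hs hls u.2 (hφ u) (hφ (sD u)) χ.1.1)
  refine Eq.trans ?_ (hfix.symm.trans ?_)
  · refine Nat.card_congr
      { toFun := fun χ => ⟨⟨χ.1, χ.2.1⟩, Subtype.ext (Subtype.ext (funext χ.2.2))⟩
        invFun := fun χ => ⟨χ.1.1, χ.1.2, fun x =>
          congrFun (congrArg (fun y => y.1.1) χ.2) x⟩
        left_inv := fun _ => rfl
        right_inv := fun _ => rfl }
  · refine Nat.card_congr
      { toFun := fun u => ⟨u.1, congrArg Subtype.val u.2⟩
        invFun := fun u => ⟨u.1, Subtype.ext u.2⟩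
        left_inv := fun _ => rfl
        right_inv := fun _ => rfl }

end

end P179H666
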