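import Vale.Agent.P179.R2.H666.Col

/-!
# Orthogonality of the columns: integral combinations
-/

namespace P179H666

open Finset P179P P179C P179Y Subgroup P179H524 P179I P179A

open P179X (pp SameSec)

open scoped Classical

universe v

set_option linter.unusedSectionVars false

/-- the column attached to the class function `P` of `H`, at the element `u` -/
noncomputable def colP (p : ℕ) {G : Type*} [Group G] (H : Subgroup G) (P : H → ℂ) (u : G)
    (χ : G → ℂ) : ℂ :=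
  1 / (Nat.card H : ℂ) * rsum p (fun x : H => χ (u * x) * P x⁻¹)

section

variable (p : ℕ) {G : Type*} [Group G] [Fintype G]

theorem dn_eq_colP (H : Subgroup G) (q : ℕ) (φ : H → ℂ) (u : G) (χ : G → ℂ) :
    dn p H q φ u χ = q * colP p H φ u χ := by
  unfold dn colP
  ring

theorem colP_sum (H : Subgroup G) {ι : Type*} [Fintype ι] (a : ι → ℂ) (ψ : ι → H → ℂ) (u : G)
    (χ : G → ℂ) : colP p H (fun x => ∑ k, a k * ψ k x) u χ = ∑ k, a k * colP p H (ψ k) u χ := by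
  unfold colP
  simp only [rsum_eq]
  have h1 : ∀ t : H, χ (u * t) * ∑ k, a k * ψ k t⁻¹ = ∑ k, a k * (χ (u * t) * ψ k t⁻¹) := by
    intro t
    rw [Finset.mul_sum]
    exact Finset.sum_congr rfl fun k _ => by ring
  rw [Finset.sum_congr rfl fun t _ => h1 t, Finset.sum_comm, Finset.mul_sum]
  refine Finset.sum_congr rfl fun k _ => ?_
  rw [← Finset.mul_sum]
  ring

theorem dn_one_eq (H : Subgroup G) (φ : H → ℂ) (u : G) (χ : G → ℂ) :
    dn p H 1 φ u χ = colP p H φ u χ := by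
  rw [dn_eq_colP]
  push_cast
  ring

theorem rsum_sum_left {H : Type*} [Group H] [Fintype H] {ι : Type*} [Fintype ι] (f : ι → H → ℂ) :
    rsum p (fun x => ∑ k, f k x) = ∑ k, rsum p (f k) := by
  simp only [rsum_eq]
  rw [Finset.sum_comm]

theorem rsum_mul_left {H : Type*} [Group H] [Fintype H] (c : ℂ) (f : H → ℂ) :
    rsum p (fun x => c * f x) = c * rsum p f := by
  simp only [rsum_eq]
  rw [Finset.mul_sum]

/-- **the Gram matrix of the columns at one element** -/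
theorem colP_same [hp : Fact p.Prime] (H : Subgroup G) {ι ι' : Type*} [Fintype ι] [Fintype ι']
    (a : ι → ℝ) (a' : ι' → ℝ) (ψ : ι → Irr H) (ψ' : ι' → Irr H) (u : G)
    (hu : ∃ a : ℕ, u ^ p ^ a = 1) (hH : ∀ x, x ∈ H ↔ x * u = u * x) :
    ∑ χ : Irr G, colP p H (fun x => ∑ k, (a k : ℂ) * (ψ k).1 x) u χ.1 *
      (starRingEnd ℂ) (colP p H (fun x => ∑ k, (a' k : ℂ) * (ψ' k).1 x) u χ.1) =
      1 / (Nat.card H : ℂ) * rsum p (fun t : H => (∑ k, (a' k : ℂ) * (ψ' k).1 t) *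
        (∑ k, (a k : ℂ) * (ψ k).1 t⁻¹)) := by
  simp only [colP_sum, map_sum, map_mul, Complex.conj_ofReal]
  have h1 : ∀ χ : Irr G, (∑ k, (a k : ℂ) * colP p H (ψ k).1 u χ.1) *
      (∑ k, (a' k : ℂ) * (starRingEnd ℂ) (colP p H (ψ' k).1 u χ.1)) =
      ∑ k, ∑ k', (a k : ℂ) * (a' k' : ℂ) * (dn p H 1 (ψ k).1 u χ.1 *
        (starRingEnd ℂ) (dn p H 1 (ψ' k').1 u χ.1)) := by
    intro χ
    rw [Finset.sum_mul_sum]
    refine Finset.sum_congr rfl fun k _ => Finset.sum_congr rfl fun k' _ => ?_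
    rw [dn_one_eq, dn_one_eq]
    ring
  rw [Finset.sum_congr rfl fun χ _ => h1 χ, Finset.sum_comm]
  have h2 : ∀ k : ι, ∑ χ : Irr G, ∑ k', (a k : ℂ) * (a' k' : ℂ) * (dn p H 1 (ψ k).1 u χ.1 *
        (starRingEnd ℂ) (dn p H 1 (ψ' k').1 u χ.1)) =
      ∑ k', (a k : ℂ) * (a' k' : ℂ) * (1 / (Nat.card H : ℂ) *
        rsum p (fun t : H => (ψ' k').1 t * (ψ k).1 t⁻¹)) := by
    intro k
    rw [Finset.sum_comm]
    refine Finset.sum_congr rfl fun k' _ => ?_
    rw [← Finset.mul_sum, col_same p H (ψ k) (ψ' k') u hu hH]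
    push_cast
    ring
  rw [Finset.sum_congr rfl fun k _ => h2 k]
  have h3 : (fun t : H => (∑ k, (a' k : ℂ) * (ψ' k).1 t) * (∑ k, (a k : ℂ) * (ψ k).1 t⁻¹)) =
      fun t : H => ∑ k, ∑ k', (a k : ℂ) * (a' k' : ℂ) * ((ψ' k').1 t * (ψ k).1 t⁻¹) := by
    ext t
    rw [mul_comm, Finset.sum_mul_sum]
    exact Finset.sum_congr rfl fun k _ => Finset.sum_congr rfl fun k' _ => by ring
  rw [h3, rsum_sum_left, Finset.mul_sum]
  refine Finset.sum_congr rfl fun k _ => ?_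
  rw [rsum_sum_left, Finset.mul_sum]
  refine Finset.sum_congr rfl fun k' _ => ?_
  rw [rsum_mul_left]
  ring

/-- orthogonality with the `p`-regular elements -/
theorem colP_reg [hp : Fact p.Prime] {G : Type} [Group G] [Fintype G] (H : Subgroup G)
    (P : H → ℂ) {u : G}
    (hu : ∃ a : ℕ, u ^ p ^ a = 1) (hu1 : u ≠ 1) (hH : ∀ x, x ∈ H ↔ x * u = u * x) {g : G}
    (hg : ¬ p ∣ orderOf g) : ∑ χ : Irr G, colP p H P u χ.1 * χ.1 g = 0 := by
  have h1 := dn_reg (p := p) H 1 P hu hu1 hH hg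
  rw [← h1]
  exact Finset.sum_congr rfl fun χ _ => by rw [dn_one_eq]

end

section

variable {p : ℕ} [hp : Fact p.Prime] {k : Type v} [Field k] [CharP k p] {red : AA →+* k}
  {G : Type} [Group G] [Fintype G] {D : Subgroup G} {l : (G → k) → k}

/-- **orthogonality of the columns at elements of `D` which are not conjugate under `T`** -/
theorem colP_orth [IsAlgClosed k] (hl : BP p D l) (hD : IsPGroup p D)
    (hab : D ≤ centralizer (D : Set G))
    (hT : ¬ p ∣ (centralizer (D : Set G)).relIndex (stabT D l)) {u u' : G} (hu : u ∈ D)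
    (hu' : u' ∈ D) {ι ι' : Type*} [Fintype ι] [Fintype ι'] (a : ι → ℝ) (a' : ι' → ℝ)
    (ψ : ι → Irr (centralizer {u} : Subgroup G)) (ψ' : ι' → Irr (centralizer {u'} : Subgroup G))
    (hψ : ∀ i, InL red (lres (centralizer {u}) l) (ψ i).1)
    (hψ' : ∀ i, InL red (lres (centralizer {u'}) l) (ψ' i).1)
    (hne : ¬ ∃ t ∈ stabT D l, t * u * t⁻¹ = u') :
    ∑ χ : Irr G, colP p (centralizer {u}) (fun x => ∑ i, (a i : ℂ) * (ψ i).1 x) u χ.1 *
      (starRingEnd ℂ) (colP p (centralizer {u'}) (fun x => ∑ i, (a' i : ℂ) * (ψ' i).1 x) u' χ.1) =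
      0 := by
  simp only [colP_sum, map_sum, map_mul, Complex.conj_ofReal]
  have h1 : ∀ χ : Irr G, (∑ i, (a i : ℂ) * colP p (centralizer {u}) (ψ i).1 u χ.1) *
      (∑ i, (a' i : ℂ) * (starRingEnd ℂ) (colP p (centralizer {u'}) (ψ' i).1 u' χ.1)) =
      ∑ i, ∑ i', (a i : ℂ) * (a' i' : ℂ) * (dn p (centralizer {u}) 1 (ψ i).1 u χ.1 *
        (starRingEnd ℂ) (dn p (centralizer {u'}) 1 (ψ' i').1 u' χ.1)) := by
    intro χ
    rw [Finset.sum_mul_sum]
    refine Finset.sum_congr rfl fun i _ => Finset.sum_congr rfl fun i' _ => ?_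
    rw [dn_one_eq, dn_one_eq]
    ring
  rw [Finset.sum_congr rfl fun χ _ => h1 χ, Finset.sum_comm]
  refine Finset.sum_eq_zero fun i _ => ?_
  rw [Finset.sum_comm]
  refine Finset.sum_eq_zero fun i' _ => ?_
  rw [← Finset.mul_sum, col_orth hl hD hab hT hu hu' (ψ i) (ψ' i') (hψ i) (hψ' i') hne, mul_zero]

end

end P179H666
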