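import Vale.Agent.P179.R2.H452.MDef

/-!
# Sums over cosets: Gram matrix and count
-/

namespace P179H666

open Finset P179P P179C P179Y Subgroup P179H524 P179I P179H452

open P179X (pp SameSec)

open scoped Classical IsMulCommutative

universe v

set_option linter.unusedSectionVars false

section

variable {p : ℕ} [hp : Fact p.Prime] {k : Type v} [Field k] [CharP k p] {red : AA →+* k}
  {G : Type} [Group G] [Fintype G] {D : Subgroup G} {l : (G → k) → k}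
  {Φ : ∀ H : Subgroup G, Irr H} {aH bH : Subgroup G → ℕ} {ε : Subgroup G → ℤ} {κ₀ : k}

/-- the Gram matrix, complex form -/
theorem gramC (h : LocR p red D l Φ aH bH ε κ₀) (hl : BP p D l) (hD : IsPGroup p D)
    (hab : D ≤ centralizer (D : Set G)) {u b : G} (hu : RegT D l u)
    (hu1 : u ≠ 1) (hb : RegT D l b) (hb1 : b ≠ 1) :
    ∑ χ : Irr G, (Ad p D Φ ε u χ : ℂ) * (starRingEnd ℂ) (Ad p D Φ ε b χ : ℂ) =
      if ∃ t ∈ stabT D l, t * u * t⁻¹ = b then (Nat.card D : ℂ) else 0 := by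
  have hbi := RegT.inv' hb
  have hbi1 : b⁻¹ ≠ 1 := by simpa using hb1
  have h1 := congrArg (fun x : AA => (x : ℂ)) (h.gram hl hD hab hu hu1 hbi hbi1)
  simp only [inv_inv] at h1
  have h2 : ∀ χ : Irr G, (starRingEnd ℂ) (Ad p D Φ ε b χ : ℂ) = (Ad p D Φ ε b⁻¹ χ : ℂ) := fun χ =>
    h.ad_star hb hb1 χ
  simp only [h2]
  push_cast at h1
  refine h1.trans ?_
  split_ifs
  · push_cast; rfl
  · push_cast; rfl

/-- the norm of a sum over pairwise not conjugate regular elements -/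
theorem gram_sum (h : LocR p red D l Φ aH bH ε κ₀) (hl : BP p D l) (hD : IsPGroup p D)
    (hab : D ≤ centralizer (D : Set G)) {ι : Type*} [Fintype ι] (v : ι → G)
    (hv : ∀ i, RegT D l (v i)) (hv1 : ∀ i, v i ≠ 1)
    (hinj : ∀ i i', (∃ t ∈ stabT D l, t * v i * t⁻¹ = v i') → i = i') :
    ∑ χ : Irr G, ‖∑ i, (Ad p D Φ ε (v i) χ : ℂ)‖ ^ 2 = (Fintype.card ι : ℝ) * Nat.card D := by
  have h1 := sum_norm_expand (fun i (χ : Irr G) => (Ad p D Φ ε (v i) χ : ℂ)) (fun _ => 1)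
  have h2 : ∀ i i', (1 : ℂ) * (starRingEnd ℂ) 1 * ∑ χ : Irr G, (Ad p D Φ ε (v i) χ : ℂ) *
      (starRingEnd ℂ) (Ad p D Φ ε (v i') χ : ℂ) = if i = i' then (Nat.card D : ℂ) else 0 := by
    intro i i'
    rw [gramC h hl hD hab (hv i) (hv1 i) (hv i') (hv1 i'), map_one, one_mul, one_mul]
    by_cases hi : i = i'
    · rw [if_pos hi, if_pos ⟨1, one_mem _, by rw [hi]; group⟩]
    · rw [if_neg hi, if_neg fun h' => hi (hinj i i' h')]
  rw [Finset.sum_congr rfl fun i _ => Finset.sum_congr rfl fun i' _ => h2 i i'] at h1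
  have h3 : ∑ i : ι, ∑ i' : ι, (if i = i' then (Nat.card D : ℂ) else 0) =
      (((Fintype.card ι : ℝ) * Nat.card D : ℝ) : ℂ) := by
    simp
  rw [h3] at h1
  have h4 : ∀ χ : Irr G, ∑ i, (1 : ℂ) * (Ad p D Φ ε (v i) χ : ℂ) =
      ∑ i, (Ad p D Φ ε (v i) χ : ℂ) := fun χ => Finset.sum_congr rfl fun i _ => one_mul _
  simp only [h4] at h1
  exact Complex.ofReal_injective h1

/-- the values of the `m`-rational characters are constant on the powers `1` modulo `p` -/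
theorem Ad_pow1 (h : LocR p red D l Φ aH bH ε κ₀) (hD : IsPGroup p D) {m : ℕ}
    (hm : m.Coprime (Nat.card G)) (hm1 : m ≡ 1 [MOD ordCompl[p] (Nat.card G)])
    (hgen : ∀ i : ℕ, i ≡ 1 [MOD p] → ∃ t : ℕ, m ^ t ≡ i [MOD ordProj[p] (Nat.card G)])
    {χ : Irr G} (hχm : ∀ g, χ.1 (g ^ m) = χ.1 g) {u : G} (hu : RegT D l u) (hu1 : u ≠ 1) {j : ℕ}
    (hj : j ≡ 1 [MOD p]) : Ad p D Φ ε (u ^ j) χ = Ad p D Φ ε u χ := by
  have hmo : ∀ v : G, (orderOf v).Coprime m := fun v =>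
    Nat.Coprime.coprime_dvd_left (orderOf_dvd_natCard v) (Nat.Coprime.symm hm)
  have hne : ∀ v : G, v ≠ 1 → v ^ m ≠ 1 := by
    intro v hv h1
    apply hv
    obtain ⟨e, he⟩ := exists_pow_eq_self_of_coprime (hmo v).symm
    rw [← he, h1, one_pow]
  have key : ∀ v : G, RegT D l v → v ≠ 1 → Ad p D Φ ε (v ^ m) χ = Ad p D Φ ε v χ := by
    intro v hv hv1
    have hvm := RegT.pow' hv (hmo v)
    have hvm1 := hne v hv1
    apply Subtype.ext
    unfold Ad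
    push_cast
    rw [h.dn_coe hv hv1, h.dn_coe hvm hvm1, cz_pow (hmo v)]
    rw [dn_pow_m (centralizer {v}) _ _ v (fun x hx => (mem_cz v x).1 hx) χ hm1 hχm]
  have hpow : ∀ i : ℕ, RegT D l (u ^ m ^ i) ∧ u ^ m ^ i ≠ 1 ∧
      Ad p D Φ ε (u ^ m ^ i) χ = Ad p D Φ ε u χ := by
    intro i
    induction i with
    | zero => rw [pow_zero, pow_one]; exact ⟨hu, hu1, rfl⟩
    | succ i ih =>
      rw [pow_succ, pow_mul]
      exact ⟨RegT.pow' ih.1 (hmo _), hne _ ih.2.1, (key _ ih.1 ih.2.1).trans ih.2.2⟩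
  obtain ⟨i, hi⟩ := hgen j hj
  have huN : u ^ ordProj[p] (Nat.card G) = 1 := pow_ordProj_eq_one hD hu.1
  have h1 : u ^ j = u ^ m ^ i := by
    rw [pow_eq_pow_iff_modEq]
    exact (hi.symm).of_dvd (orderOf_dvd_of_pow_eq_one huN)
  rw [h1]
  exact (hpow i).2.2

/-- the sums over the coset of a power -/
theorem sY_pow1 [IsMulCommutative D] (h : LocR p red D l Φ aH bH ε κ₀) (hD : IsPGroup p D) {m : ℕ}
    (hm : m.Coprime (Nat.card G)) (hm1 : m ≡ 1 [MOD ordCompl[p] (Nat.card G)])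
    (hgen : ∀ i : ℕ, i ≡ 1 [MOD p] → ∃ t : ℕ, m ^ t ≡ i [MOD ordProj[p] (Nat.card G)])
    {χ : Irr G} (hχm : ∀ g, χ.1 (g ^ m) = χ.1 g) (Y : Subgroup D) (w : D)
    (hW : ∀ y ∈ Y, RegT D l ((w * y : D) : G) ∧ ((w * y : D) : G) ≠ 1) {j : ℕ}
    (hj : j ≡ 1 [MOD p]) : sY p D Φ ε Y (w ^ j) χ = sY p D Φ ε Y w χ := by
  unfold sY
  have hcop : (Nat.card Y).Coprime j := by
    obtain ⟨n, hn⟩ := (IsPGroup.iff_card (p := p)).1 (hD.to_subgroup Y)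
    rw [hn]
    exact Nat.Coprime.pow_left n (coprime_of_modEq_one hj)
  symm
  refine Fintype.sum_equiv (powCoprime hcop) _ _ fun y => ?_
  have h1 := Ad_pow1 h hD hm hm1 hgen hχm (hW y y.2).1 (hW y y.2).2 hj
  rw [← h1]
  congr 1
  rw [powCoprime_apply, Subgroup.coe_pow]
  have h2 : (w ^ j * (y : D) ^ j : D) = (w * y) ^ j := (mul_pow _ _ _).symm
  rw [h2]
  push_cast
  rfl

/-- **the count** -/
theorem count_core [IsMulCommutative D] (h : LocR p red D l Φ aH bH ε κ₀) (hl : BP p D l)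
    (hD : IsPGroup p D) (hab : D ≤ centralizer (D : Set G)) {m : ℕ}
    (hm : m.Coprime (Nat.card G)) (hm1 : m ≡ 1 [MOD ordCompl[p] (Nat.card G)])
    (hgen : ∀ i : ℕ, i ≡ 1 [MOD p] → ∃ t : ℕ, m ^ t ≡ i [MOD ordProj[p] (Nat.card G)])
    (X : Finset (Irr G)) (hX : ∀ χ ∈ X, ∀ g, χ.1 (g ^ m) = χ.1 g)
    (Y : Subgroup D) (w : D) {s : ℕ}
    (hW : ∀ y ∈ Y, RegT D l ((w * y : D) : G) ∧ ((w * y : D) : G) ≠ 1)
    (hinj : ∀ i < s, ∀ i' < s, ∀ y ∈ Y, ∀ y' ∈ Y, ∀ t ∈ stabT D l,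
      t * ((w ^ (1 + p * i) * y : D) : G) * t⁻¹ = ((w ^ (1 + p * i') * y' : D) : G) →
        i = i' ∧ y = y') :
    (s : ℝ) * ∑ χ ∈ X, ‖(sY p D Φ ε Y w χ : ℂ)‖ ^ 2 ≤ (Nat.card Y : ℝ) * Nat.card D := by
  rcases Nat.eq_zero_or_pos s with rfl | hs
  · push_cast
    rw [zero_mul]
    positivity
  have hmod : ∀ i : ℕ, 1 + p * i ≡ 1 [MOD p] := fun i =>
    (Nat.ModEq.refl 1).add (Nat.modEq_zero_iff_dvd.2 (dvd_mul_right p i))
  have hcopD : ∀ {j : ℕ} (x : D), j ≡ 1 [MOD p] → (orderOf (x : G)).Coprime j := fun x hj =>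
    coprime_orderOf hD x.2 (coprime_of_modEq_one hj)
  have hcopY : ∀ {j : ℕ}, j ≡ 1 [MOD p] → (Nat.card Y).Coprime j := by
    intro j hj
    obtain ⟨n, hn⟩ := (IsPGroup.iff_card (p := p)).1 (hD.to_subgroup Y)
    rw [hn]
    exact Nat.Coprime.pow_left n (coprime_of_modEq_one hj)
  -- the powers
  have hWp : ∀ i : ℕ, ∀ y : Y, RegT D l ((w ^ (1 + p * i) * (y : D) : D) : G) ∧
      ((w ^ (1 + p * i) * (y : D) : D) : G) ≠ 1 := by
    intro i y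
    obtain ⟨y₀, hy₀⟩ := (powCoprime (hcopY (hmod i))).surjective y
    have h1 : ((w ^ (1 + p * i) * (y : D) : D) : G) = ((w * (y₀ : D) : D) : G) ^ (1 + p * i) := by
      rw [← hy₀, powCoprime_apply, Subgroup.coe_pow]
      have h2 : (w ^ (1 + p * i) * (y₀ : D) ^ (1 + p * i) : D) = (w * y₀) ^ (1 + p * i) :=
        (mul_pow _ _ _).symm
      rw [h2]
      push_cast
      rfl
    rw [h1]
    have h3 := hW y₀ y₀.2
    exact ⟨RegT.pow' h3.1 (hcopD _ (hmod i)), ne_one_of_coprime (hcopD _ (hmod i)) h3.2⟩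
  have hg := gram_sum h hl hD hab (ι := Fin s × Y)
    (fun x => ((w ^ (1 + p * (x.1 : ℕ)) * (x.2 : D) : D) : G)) (fun x => (hWp _ x.2).1)
    (fun x => (hWp _ x.2).2) (by
      rintro ⟨i, y⟩ ⟨i', y'⟩ ⟨t, ht, heq⟩
      obtain ⟨h1, h2⟩ := hinj i i.2 i' i'.2 y y.2 y' y'.2 t ht heq
      exact Prod.ext (Fin.ext h1) (Subtype.ext h2))
  have hsum : ∀ χ : Irr G, ∑ x : Fin s × Y,
      (Ad p D Φ ε ((w ^ (1 + p * (x.1 : ℕ)) * (x.2 : D) : D) : G) χ : ℂ) =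
      ∑ i : Fin s, (sY p D Φ ε Y (w ^ (1 + p * (i : ℕ))) χ : ℂ) := by
    intro χ
    rw [Fintype.sum_prod_type]
    refine Finset.sum_congr rfl fun i _ => ?_
    unfold sY
    push_cast
    rfl
  have hle : ∑ χ ∈ X, ‖∑ x : Fin s × Y,
      (Ad p D Φ ε ((w ^ (1 + p * (x.1 : ℕ)) * (x.2 : D) : D) : G) χ : ℂ)‖ ^ 2 ≤
      (Fintype.card (Fin s × Y) : ℝ) * Nat.card D := by
    rw [← hg]
    exact Finset.sum_le_sum_of_subset_of_nonneg (Finset.subset_univ _) fun χ _ _ => by positivity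
  have heq : ∀ χ ∈ X, ‖∑ x : Fin s × Y,
      (Ad p D Φ ε ((w ^ (1 + p * (x.1 : ℕ)) * (x.2 : D) : D) : G) χ : ℂ)‖ ^ 2 =
      (s : ℝ) ^ 2 * ‖(sY p D Φ ε Y w χ : ℂ)‖ ^ 2 := by
    intro χ hχ
    rw [hsum]
    have h1 : ∀ i : Fin s, (sY p D Φ ε Y (w ^ (1 + p * (i : ℕ))) χ : ℂ) =
        (sY p D Φ ε Y w χ : ℂ) := by
      intro i
      rw [sY_pow1 h hD hm hm1 hgen (hX χ hχ) Y w hW (hmod i)]
    rw [Finset.sum_congr rfl fun i _ => h1 i, Finset.sum_const, card_univ, Fintype.card_fin,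
      nsmul_eq_mul, norm_mul, mul_pow]
    simp
  rw [Finset.sum_congr rfl heq, ← Finset.mul_sum, Fintype.card_prod, Fintype.card_fin,
    ← Nat.card_eq_fintype_card (α := Y)] at hle
  push_cast at hle
  have hs0 : (0 : ℝ) < s := by exact_mod_cast hs
  refine le_of_mul_le_mul_left ?_ hs0
  calc (s : ℝ) * (s * ∑ χ ∈ X, ‖(sY p D Φ ε Y w χ : ℂ)‖ ^ 2) =
      (s : ℝ) ^ 2 * ∑ χ ∈ X, ‖(sY p D Φ ε Y w χ : ℂ)‖ ^ 2 := by ring
    _ ≤ _ := hle
    _ = _ := by ring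

end

end P179H666
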