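import Vale.Agent.P179.R2.H666.Cnt
import Vale.Agent.P179.R2.H46.Sa

/-!
# Sums over cosets: the number of `m`-rational characters
-/

namespace P179H666

open Finset P179P P179C P179Y Subgroup P179H524 P179I P179H452 P179H46

open P179X (pp SameSec)

open scoped Classical IsMulCommutative

universe v

set_option linter.unusedSectionVars false

section

variable {p : ℕ} [hp : Fact p.Prime] {k : Type v} [Field k] [CharP k p] {red : AA →+* k}
  {G : Type} [Group G] [Fintype G] {D : Subgroup G} {l : (G → k) → k}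
  {Φ : ∀ H : Subgroup G, Irr H} {aH bH : Subgroup G → ℕ} {ε : Subgroup G → ℤ} {κ₀ : k}

theorem modEq_of_mem {Y : Subgroup D} {w : D} {o : ℕ} (ho : ∀ i : ℕ, w ^ i ∈ Y → o ∣ i) {a b : ℕ}
    (h : w ^ a * (w ^ b)⁻¹ ∈ Y) : a ≡ b [MOD o] := by
  rcases le_total b a with hab | hab
  · have h1 : w ^ (a - b) ∈ Y := by
      have h2 : w ^ a * (w ^ b)⁻¹ = w ^ (a - b) := by
        rw [mul_inv_eq_iff_eq_mul, ← pow_add, Nat.sub_add_cancel hab]
      rwa [h2] at h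
    exact ((Nat.modEq_iff_dvd' hab).2 (ho _ h1)).symm
  · have h1 : w ^ (b - a) ∈ Y := by
      have h2 : (w ^ a * (w ^ b)⁻¹)⁻¹ = w ^ (b - a) := by
        rw [mul_inv_rev, inv_inv, mul_inv_eq_iff_eq_mul, ← pow_add, Nat.sub_add_cancel hab]
      rw [← h2]
      exact inv_mem h
    exact (Nat.modEq_iff_dvd' hab).2 (ho _ h1)

include hp in
/-- **the number of `m`-rational characters** -/
theorem count [IsAlgClosed k] [IsMulCommutative D] (h : LocR p red D l Φ aH bH ε κ₀)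
    (hl : BP p D l) (hD : IsPGroup p D) (hab : D ≤ centralizer (D : Set G)) (hp2 : p ≠ 2)
    (he : ((centralizer (D : Set G)).relIndex (stabT D l) : k) ≠ 0) {m : ℕ}
    (hm : m.Coprime (Nat.card G)) (hm1 : m ≡ 1 [MOD ordCompl[p] (Nat.card G)])
    (hgen : ∀ i : ℕ, i ≡ 1 [MOD p] → ∃ t : ℕ, m ^ t ≡ i [MOD ordProj[p] (Nat.card G)])
    (X : Finset (Irr G)) (hX : ∀ χ ∈ X, ∀ g, χ.1 (g ^ m) = χ.1 g)
    (Y : Subgroup D) (w : D) {o : ℕ}
    (hW : ∀ y ∈ Y, RegT D l ((w * y : D) : G) ∧ ((w * y : D) : G) ≠ 1)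
    (hYT : ∀ t ∈ stabT D l, ∀ y ∈ Y, ∃ y' ∈ Y, t * (y : G) * t⁻¹ = (y' : G))
    (hcos : ∀ t ∈ stabT D l, ∀ a b : ℕ, ¬ p ∣ a → a ≡ b [MOD p] →
      (∃ y ∈ Y, t * (w : G) ^ a * t⁻¹ * ((w : G) ^ b)⁻¹ = (y : G)) →
        t ∈ centralizer (D : Set G) ∧ w ^ a * (w ^ b)⁻¹ ∈ Y)
    (ho : ∀ i : ℕ, w ^ i ∈ Y → o ∣ i)
    (hne : ∀ χ ∈ X, sY p D Φ ε Y w χ ≠ 0) :
    X.card * Nat.card Y * o ≤ Nat.card D * p := by
  obtain ⟨a, ha⟩ := IsPGroup.iff_card.1 hD
  have hpos := hp.out.pos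
  -- the number `s`
  have hopow : o ∣ p ^ a := by
    refine ho _ ?_
    have h1 : w ^ p ^ a = 1 := by rw [← ha]; exact pow_card_eq_one'
    rw [h1]
    exact one_mem Y
  obtain ⟨t₀, -, ht₀⟩ := (Nat.dvd_prime_pow hp.out).1 hopow
  obtain ⟨s, hs1, hso, hos⟩ : ∃ s : ℕ, 1 ≤ s ∧ (s = 1 ∨ o = p * s) ∧ o ≤ p * s := by
    rcases Nat.eq_zero_or_pos t₀ with h0 | h0
    · refine ⟨1, le_rfl, Or.inl rfl, ?_⟩
      rw [ht₀, h0, pow_zero]
      omega
    · refine ⟨p ^ (t₀ - 1), Nat.one_le_pow _ _ hpos, Or.inr ?_, le_of_eq ?_⟩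
      · rw [ht₀, ← pow_succ', Nat.sub_add_cancel h0]
      · rw [ht₀, ← pow_succ', Nat.sub_add_cancel h0]
  obtain ⟨n, hn⟩ := IsPGroup.iff_card.1 (hD.to_subgroup Y)
  -- `p` divides `N`
  have hD1 : Nat.card D ≠ 1 := by
    intro h1
    have h2 := (hW 1 (one_mem _)).2
    apply h2
    have h3 : Subsingleton D := (Nat.card_eq_one_iff_unique.1 h1).1
    have h4 : (w * 1 : D) = 1 := Subsingleton.elim _ _
    rw [h4]
    rfl
  have hpG : p ∣ ordProj[p] (Nat.card G) := by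
    have h1 : p ∣ Nat.card G := by
      have h2 : p ∣ Nat.card D := by
        rw [ha]
        refine dvd_pow_self p ?_
        rintro rfl
        exact hD1 (by rw [ha, pow_zero])
      exact h2.trans (Subgroup.card_subgroup_dvd_card D)
    have h3 : (Nat.card G).factorization p ≠ 0 :=
      (hp.out.factorization_pos_of_dvd Nat.card_pos.ne' h1).ne'
    exact dvd_pow_self p h3
  set N := ordProj[p] (Nat.card G) with hN
  have hN0 : N ≠ 0 := pow_ne_zero _ hp.out.ne_zero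
  have hNe : NeZero N := ⟨hN0⟩
  have hδp : ∀ δ : (ZMod N)ˣ, p.Coprime (δ : ZMod N).val := fun δ =>
    Nat.Coprime.coprime_dvd_left hpG (ZMod.val_coe_unit_coprime δ).symm
  have hδD : ∀ δ : (ZMod N)ˣ, (Nat.card D).Coprime (δ : ZMod N).val := by
    intro δ
    rw [ha]
    exact Nat.Coprime.pow_left a (hδp δ)
  -- the bound for one `δ`
  have key : ∀ δ : (ZMod N)ˣ, (s : ℝ) * ∑ χ ∈ X,
      ‖(sY p D Φ ε Y (w ^ (δ : ZMod N).val) χ : ℂ)‖ ^ 2 ≤ (Nat.card Y : ℝ) * Nat.card D := by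
    intro δ
    set d := (δ : ZMod N).val with hd
    refine count_core h hl hD hab hm hm1 hgen X hX Y (w ^ d) (coset_reg hW (hδD δ)) ?_
    intro i hi i' hi' y hy y' hy' t ht heq
    obtain ⟨y₂, hy₂, hty⟩ := hYT t ht y hy
    set A := d * (1 + p * i) with hA
    set B := d * (1 + p * i') with hB
    have hpowA : (w ^ d) ^ (1 + p * i) = w ^ A := (pow_mul w _ _).symm
    have hpowB : (w ^ d) ^ (1 + p * i') = w ^ B := (pow_mul w _ _).symm
    rw [hpowA, hpowB] at heq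
    have hpA : ¬ p ∣ A := by
      rw [hA]
      refine (Nat.Prime.coprime_iff_not_dvd hp.out).1 (Nat.Coprime.mul_right (hδp δ) ?_)
      exact coprime_of_modEq_one ((Nat.ModEq.refl 1).add
        (Nat.modEq_zero_iff_dvd.2 (dvd_mul_right p i)))
    have hAB : A ≡ B [MOD p] := by
      refine Nat.ModEq.mul_left d ?_
      refine (Nat.ModEq.refl 1).add ?_
      exact ((Nat.modEq_zero_iff_dvd.2 (dvd_mul_right p i))).trans
        ((Nat.modEq_zero_iff_dvd.2 (dvd_mul_right p i'))).symm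
    have hmem : ∃ y ∈ Y, t * (w : G) ^ A * t⁻¹ * ((w : G) ^ B)⁻¹ = (y : G) := by
      refine ⟨y' * y₂⁻¹, mul_mem hy' (inv_mem hy₂), ?_⟩
      have h1 : t * (w : G) ^ A * t⁻¹ = (w : G) ^ B * (y' : G) * (y₂ : G)⁻¹ := by
        have h2 : t * (w : G) ^ A * t⁻¹ = (t * ((w : G) ^ A * (y : G)) * t⁻¹) *
            (t * (y : G) * t⁻¹)⁻¹ := by group
        have h3 : t * ((w : G) ^ A * (y : G)) * t⁻¹ = (w : G) ^ B * (y' : G) := heq
        rw [h2, hty, h3]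
      have h4 : w ^ B * y' * y₂⁻¹ * (w ^ B)⁻¹ = y' * y₂⁻¹ := by
        rw [mul_assoc (w ^ B), mul_comm (w ^ B) (y' * y₂⁻¹), mul_inv_cancel_right]
      rw [h1]
      have h5 := congrArg (fun x : D => (x : G)) h4
      push_cast at h5 ⊢
      exact h5
    obtain ⟨htC, hww⟩ := hcos t ht A B hpA hAB hmem
    -- `i = i'`
    have hii : i = i' := by
      rcases hso with h1 | h1
      · omega
      · have h2 := modEq_of_mem ho hww
        have hcop : Nat.gcd o d = 1 := by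
          rw [ht₀]
          exact Nat.Coprime.pow_left t₀ (hδp δ)
        have h3 : 1 + p * i ≡ 1 + p * i' [MOD o] := Nat.ModEq.cancel_left_of_coprime hcop h2
        have h4 : p * i ≡ p * i' [MOD p * s] := by
          rw [← h1]
          exact Nat.ModEq.add_left_cancel' 1 h3
        have h5 : i ≡ i' [MOD s] := Nat.ModEq.mul_left_cancel' hpos.ne' h4
        exact h5.eq_of_lt_of_lt hi hi'
    refine ⟨hii, ?_⟩
    have h6 : t * ((w ^ A * y : D) : G) * t⁻¹ = ((w ^ A * y : D) : G) := by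
      have h7 := mem_centralizer_iff.1 htC _ (w ^ A * y).2
      rw [← h7, mul_inv_cancel_right]
    rw [h6] at heq
    have h8 : w ^ A * y = w ^ B * y' := Subtype.ext heq
    have h9 : A = B := by rw [hA, hB, hii]
    rw [h9] at h8
    exact mul_left_cancel h8
  -- the sum over all `δ`
  have hlow : ∀ χ ∈ X, (Fintype.card (ZMod N)ˣ : ℝ) * (p : ℝ) ^ (2 * n) ≤
      ∑ δ : (ZMod N)ˣ, ‖(sY p D Φ ε Y (w ^ (δ : ZMod N).val) χ : ℂ)‖ ^ 2 := fun χ hχ =>
    sY_norm h hl hD hab hp2 he Y hn w hW χ (hne χ hχ)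
  have hφ0 : (0 : ℝ) < Fintype.card (ZMod N)ˣ := by exact_mod_cast Fintype.card_pos
  have h1 : (X.card : ℝ) * ((Fintype.card (ZMod N)ˣ : ℝ) * (p : ℝ) ^ (2 * n)) ≤
      ∑ χ ∈ X, ∑ δ : (ZMod N)ˣ, ‖(sY p D Φ ε Y (w ^ (δ : ZMod N).val) χ : ℂ)‖ ^ 2 := by
    rw [← nsmul_eq_mul, ← Finset.sum_const]
    exact Finset.sum_le_sum hlow
  have h2 : (s : ℝ) * ∑ χ ∈ X, ∑ δ : (ZMod N)ˣ,
      ‖(sY p D Φ ε Y (w ^ (δ : ZMod N).val) χ : ℂ)‖ ^ 2 ≤
      (Fintype.card (ZMod N)ˣ : ℝ) * ((Nat.card Y : ℝ) * Nat.card D) := by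
    rw [Finset.sum_comm, Finset.mul_sum, ← nsmul_eq_mul, ← card_univ, ← Finset.sum_const]
    exact Finset.sum_le_sum fun δ _ => key δ
  have hs0 : (0 : ℝ) < s := by exact_mod_cast hs1
  have h3 : (s : ℝ) * ((X.card : ℝ) * ((Fintype.card (ZMod N)ˣ : ℝ) * (p : ℝ) ^ (2 * n))) ≤
      (Fintype.card (ZMod N)ˣ : ℝ) * ((Nat.card Y : ℝ) * Nat.card D) :=
    (mul_le_mul_of_nonneg_left h1 hs0.le).trans h2
  have hpn : (0 : ℝ) < (p : ℝ) ^ n := by
    have : (0 : ℝ) < p := by exact_mod_cast hpos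
    positivity
  have h4 : (s : ℝ) * X.card * (p : ℝ) ^ n ≤ Nat.card D := by
    rw [hn] at h3
    push_cast at h3
    have h5 : ((Fintype.card (ZMod N)ˣ : ℝ) * (p : ℝ) ^ n) * ((s : ℝ) * X.card * (p : ℝ) ^ n) ≤
        ((Fintype.card (ZMod N)ˣ : ℝ) * (p : ℝ) ^ n) * Nat.card D := by
      refine le_trans (le_of_eq ?_) (h3.trans (le_of_eq ?_))
      · rw [two_mul, pow_add]; ring
      · ring
    exact le_of_mul_le_mul_left h5 (mul_pos hφ0 hpn)
  have h5 : s * X.card * p ^ n ≤ Nat.card D := by exact_mod_cast h4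
  calc X.card * Nat.card Y * o ≤ X.card * Nat.card Y * (p * s) := Nat.mul_le_mul_left _ hos
    _ = (s * X.card * p ^ n) * p := by rw [hn]; ring
    _ ≤ Nat.card D * p := Nat.mul_le_mul_right p h5

end

end P179H666
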