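import Vale.Agent.P179.R2.H666.Cnt3

/-!
# Sums over cosets: the count for an arbitrary set of exponents
-/

namespace P179H666

open Finset P179P P179C P179Y Subgroup P179H524 P179I P179H452 P179H46

open scoped Classical IsMulCommutative

universe v

set_option linter.unusedSectionVars false

section

variable {p : ℕ} [hp : Fact p.Prime] {k : Type v} [Field k] [CharP k p] {red : AA →+* k}
  {G : Type} [Group G] [Fintype G] {D : Subgroup G} {l : (G → k) → k}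
  {Φ : ∀ H : Subgroup G, Irr H} {aH bH : Subgroup G → ℕ} {ε : Subgroup G → ℤ} {κ₀ : k}

/-- the Bessel inequality for the cosets `w ^ i Y`, `i ∈ I`, disjoint modulo `T` -/
theorem coset_bessel [IsMulCommutative D] (h : LocR p red D l Φ aH bH ε κ₀) (hl : BP p D l)
    (hD : IsPGroup p D) (hab : D ≤ centralizer (D : Set G)) (X : Finset (Irr G))
    (Y : Subgroup D) (w : D) (I : Finset ℕ)
    (hW : ∀ i ∈ I, ∀ y ∈ Y, RegT D l ((w ^ i * y : D) : G) ∧ ((w ^ i * y : D) : G) ≠ 1)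
    (hinj : ∀ i ∈ I, ∀ i' ∈ I, ∀ y ∈ Y, ∀ y' ∈ Y, ∀ t ∈ stabT D l,
      t * ((w ^ i * y : D) : G) * t⁻¹ = ((w ^ i' * y' : D) : G) → i = i' ∧ y = y')
    (hs : ∀ χ ∈ X, ∀ i ∈ I, sY p D Φ ε Y (w ^ i) χ = sY p D Φ ε Y w χ) :
    (I.card : ℝ) * ∑ χ ∈ X, ‖(sY p D Φ ε Y w χ : ℂ)‖ ^ 2 ≤ (Nat.card Y : ℝ) * Nat.card D := by
  rcases I.eq_empty_or_nonempty with rfl | hI
  · rw [card_empty]
    push_cast
    rw [zero_mul]
    positivity
  have hg := gram_sum h hl hD hab (ι := I × Y)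
    (fun x => ((w ^ (x.1 : ℕ) * (x.2 : D) : D) : G)) (fun x => (hW _ x.1.2 _ x.2.2).1)
    (fun x => (hW _ x.1.2 _ x.2.2).2) (by
      rintro ⟨i, y⟩ ⟨i', y'⟩ ⟨t, ht, heq⟩
      obtain ⟨h1, h2⟩ := hinj i i.2 i' i'.2 y y.2 y' y'.2 t ht heq
      exact Prod.ext (Subtype.ext h1) (Subtype.ext h2))
  have hsum : ∀ χ : Irr G, ∑ x : I × Y,
      (Ad p D Φ ε ((w ^ (x.1 : ℕ) * (x.2 : D) : D) : G) χ : ℂ) =
      ∑ i : I, (sY p D Φ ε Y (w ^ (i : ℕ)) χ : ℂ) := by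
    intro χ
    rw [Fintype.sum_prod_type]
    refine Finset.sum_congr rfl fun i _ => ?_
    unfold sY
    push_cast
    rfl
  have hle : ∑ χ ∈ X, ‖∑ x : I × Y,
      (Ad p D Φ ε ((w ^ (x.1 : ℕ) * (x.2 : D) : D) : G) χ : ℂ)‖ ^ 2 ≤
      (Fintype.card (I × Y) : ℝ) * Nat.card D := by
    rw [← hg]
    exact Finset.sum_le_sum_of_subset_of_nonneg (Finset.subset_univ _) fun χ _ _ => by positivity
  have heq : ∀ χ ∈ X, ‖∑ x : I × Y,
      (Ad p D Φ ε ((w ^ (x.1 : ℕ) * (x.2 : D) : D) : G) χ : ℂ)‖ ^ 2 =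
      (I.card : ℝ) ^ 2 * ‖(sY p D Φ ε Y w χ : ℂ)‖ ^ 2 := by
    intro χ hχ
    rw [hsum]
    have h1 : ∀ i : I, (sY p D Φ ε Y (w ^ (i : ℕ)) χ : ℂ) = (sY p D Φ ε Y w χ : ℂ) := by
      intro i
      rw [hs χ hχ i i.2]
    rw [Finset.sum_congr rfl fun i _ => h1 i, Finset.sum_const, card_univ, Fintype.card_coe,
      nsmul_eq_mul, norm_mul, mul_pow]
    simp
  rw [Finset.sum_congr rfl heq, ← Finset.mul_sum, Fintype.card_prod, Fintype.card_coe,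
    ← Nat.card_eq_fintype_card (α := Y)] at hle
  push_cast at hle
  have hs0 : (0 : ℝ) < I.card := by exact_mod_cast hI.card_pos
  refine le_of_mul_le_mul_left ?_ hs0
  calc (I.card : ℝ) * (I.card * ∑ χ ∈ X, ‖(sY p D Φ ε Y w χ : ℂ)‖ ^ 2) =
      (I.card : ℝ) ^ 2 * ∑ χ ∈ X, ‖(sY p D Φ ε Y w χ : ℂ)‖ ^ 2 := by ring
    _ ≤ _ := hle
    _ = _ := by ring

include hp in
/-- **the count for an arbitrary set of exponents**: the hypotheses are stable under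
`w ↦ w ^ δ`, `δ` prime to `p` -/
theorem count_fin [IsAlgClosed k] [IsMulCommutative D] (h : LocR p red D l Φ aH bH ε κ₀)
    (hl : BP p D l) (hD : IsPGroup p D) (hab : D ≤ centralizer (D : Set G)) (hp2 : p ≠ 2)
    (he : ¬ p ∣ (centralizer (D : Set G)).relIndex (stabT D l)) (X : Finset (Irr G))
    (Y : Subgroup D) (w : D) (I : Finset ℕ)
    (hW : ∀ y ∈ Y, RegT D l ((w * y : D) : G) ∧ ((w * y : D) : G) ≠ 1)
    (hI : ∀ i ∈ I, ¬ p ∣ i)
    (hinj : ∀ δ : ℕ, ¬ p ∣ δ → ∀ i ∈ I, ∀ i' ∈ I, ∀ y ∈ Y, ∀ y' ∈ Y, ∀ t ∈ stabT D l,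
      t * ((w ^ (δ * i) * y : D) : G) * t⁻¹ = ((w ^ (δ * i') * y' : D) : G) → i = i' ∧ y = y')
    (hs : ∀ δ : ℕ, ¬ p ∣ δ → ∀ χ ∈ X, ∀ i ∈ I,
      sY p D Φ ε Y (w ^ (δ * i)) χ = sY p D Φ ε Y (w ^ δ) χ)
    (hne : ∀ χ ∈ X, sY p D Φ ε Y w χ ≠ 0) :
    X.card * Nat.card Y * I.card ≤ Nat.card D := by
  have he' : ((centralizer (D : Set G)).relIndex (stabT D l) : k) ≠ 0 := by
    rw [Ne, CharP.cast_eq_zero_iff k p]
    exact he
  obtain ⟨a, ha⟩ := IsPGroup.iff_card.1 hD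
  have hpos := hp.out.pos
  obtain ⟨n, hn⟩ := IsPGroup.iff_card.1 (hD.to_subgroup Y)
  -- `p` divides `N`
  have hD1 : Nat.card D ≠ 1 := by
    intro h1
    have h2 := (hW 1 (one_mem _)).2
    apply h2
    have h3 : Subsingleton D := (Nat.card_eq_one_iff_unique.1 h1).1
    have h4 : (w * 1 : D) = 1 := Subsingleton.elim _ _
    rw [h4]
    rfl
  have hpG : p ∣ ordProj[p] (Nat.card G) := by
    have h1 : p ∣ Nat.card G := by
      have h2 : p ∣ Nat.card D := by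
        rw [ha]
        refine dvd_pow_self p ?_
        rintro rfl
        exact hD1 (by rw [ha, pow_zero])
      exact h2.trans (Subgroup.card_subgroup_dvd_card D)
    have h3 : (Nat.card G).factorization p ≠ 0 :=
      (hp.out.factorization_pos_of_dvd Nat.card_pos.ne' h1).ne'
    exact dvd_pow_self p h3
  set N := ordProj[p] (Nat.card G) with hN
  have hN0 : N ≠ 0 := pow_ne_zero _ hp.out.ne_zero
  have hNe : NeZero N := ⟨hN0⟩
  have hδp : ∀ δ : (ZMod N)ˣ, p.Coprime (δ : ZMod N).val := fun δ =>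
    Nat.Coprime.coprime_dvd_left hpG (ZMod.val_coe_unit_coprime δ).symm
  have hcopD : ∀ {i : ℕ}, ¬ p ∣ i → (Nat.card D).Coprime i := by
    intro i hi
    rw [ha]
    exact Nat.Coprime.pow_left a ((Nat.Prime.coprime_iff_not_dvd hp.out).2 hi)
  have key : ∀ δ : (ZMod N)ˣ, (I.card : ℝ) * ∑ χ ∈ X,
      ‖(sY p D Φ ε Y (w ^ (δ : ZMod N).val) χ : ℂ)‖ ^ 2 ≤ (Nat.card Y : ℝ) * Nat.card D := by
    intro δ
    set d := (δ : ZMod N).val with hd
    have hdp : ¬ p ∣ d := (Nat.Prime.coprime_iff_not_dvd hp.out).1 (hδp δ)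
    refine coset_bessel h hl hD hab X Y (w ^ d) I ?_ ?_ ?_
    · intro i hi
      have hdi : ¬ p ∣ d * i := fun h' => by
        rcases (Nat.Prime.dvd_mul hp.out).1 h' with h1 | h1
        · exact hdp h1
        · exact hI i hi h1
      rw [← pow_mul]
      exact coset_reg hW (hcopD hdi)
    · intro i hi i' hi' y hy y' hy' t ht heq
      rw [← pow_mul, ← pow_mul] at heq
      exact hinj d hdp i hi i' hi' y hy y' hy' t ht heq
    · intro χ hχ i hi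
      rw [← pow_mul]
      exact hs d hdp χ hχ i hi
  -- the sum over all `δ`
  have hlow : ∀ χ ∈ X, (Fintype.card (ZMod N)ˣ : ℝ) * (p : ℝ) ^ (2 * n) ≤
      ∑ δ : (ZMod N)ˣ, ‖(sY p D Φ ε Y (w ^ (δ : ZMod N).val) χ : ℂ)‖ ^ 2 := fun χ hχ =>
    sY_norm h hl hD hab hp2 he' Y hn w hW χ (hne χ hχ)
  have hφ0 : (0 : ℝ) < Fintype.card (ZMod N)ˣ := by exact_mod_cast Fintype.card_pos
  have h1 : (X.card : ℝ) * ((Fintype.card (ZMod N)ˣ : ℝ) * (p : ℝ) ^ (2 * n)) ≤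
      ∑ χ ∈ X, ∑ δ : (ZMod N)ˣ, ‖(sY p D Φ ε Y (w ^ (δ : ZMod N).val) χ : ℂ)‖ ^ 2 := by
    rw [← nsmul_eq_mul, ← Finset.sum_const]
    exact Finset.sum_le_sum hlow
  have h2 : (I.card : ℝ) * ∑ χ ∈ X, ∑ δ : (ZMod N)ˣ,
      ‖(sY p D Φ ε Y (w ^ (δ : ZMod N).val) χ : ℂ)‖ ^ 2 ≤
      (Fintype.card (ZMod N)ˣ : ℝ) * ((Nat.card Y : ℝ) * Nat.card D) := by
    rw [Finset.sum_comm, Finset.mul_sum, ← nsmul_eq_mul, ← card_univ, ← Finset.sum_const]
    exact Finset.sum_le_sum fun δ _ => key δ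
  have h3 : (I.card : ℝ) * ((X.card : ℝ) * ((Fintype.card (ZMod N)ˣ : ℝ) * (p : ℝ) ^ (2 * n))) ≤
      (Fintype.card (ZMod N)ˣ : ℝ) * ((Nat.card Y : ℝ) * Nat.card D) :=
    (mul_le_mul_of_nonneg_left h1 (Nat.cast_nonneg _)).trans h2
  have hpn : (0 : ℝ) < (p : ℝ) ^ n := by
    have : (0 : ℝ) < p := by exact_mod_cast hpos
    positivity
  have h4 : (I.card : ℝ) * X.card * (p : ℝ) ^ n ≤ Nat.card D := by
    rw [hn] at h3
    push_cast at h3
    have h5 : ((Fintype.card (ZMod N)ˣ : ℝ) * (p : ℝ) ^ n) *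
        ((I.card : ℝ) * X.card * (p : ℝ) ^ n) ≤
        ((Fintype.card (ZMod N)ˣ : ℝ) * (p : ℝ) ^ n) * Nat.card D := by
      refine le_trans (le_of_eq ?_) (h3.trans (le_of_eq ?_))
      · rw [two_mul, pow_add]; ring
      · ring
    exact le_of_mul_le_mul_left h5 (mul_pos hφ0 hpn)
  have h5 : I.card * X.card * p ^ n ≤ Nat.card D := by exact_mod_cast h4
  calc X.card * Nat.card Y * I.card = I.card * X.card * p ^ n := by rw [hn]; ring
    _ ≤ Nat.card D := h5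

end

end P179H666
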