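import Vale.Agent.P179.R2.H452.MDef

/-!
# Orthogonality of the columns at arbitrary elements of the defect group
-/

namespace P179H666

open Finset P179P P179C P179Y Subgroup P179H524 P179I P179A

open P179X (pp SameSec)

open scoped Classical

universe v

set_option linter.unusedSectionVars false

section

variable {k : Type*} [Field k] (p : ℕ) [hp : Fact p.Prime] [CharP k p]
  (red : integralClosure ℤ ℂ →+* k) {G : Type*} [Group G] [Fintype G]

/-- the Gram matrix of the columns, general form -/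
theorem gram_gen (H H' : Subgroup G) {l : (G → k) → k} {q : ℕ} (φ : Irr H) (φ' : Irr H')
    (hφ : InL red (lres H l) φ.1) (hφ' : InL red (lres H' l) φ'.1) (u u' : G)
    (hu : ∃ a : ℕ, u ^ p ^ a = 1) (hu' : ∃ a : ℕ, u' ^ p ^ a = 1)
    (hH : ∀ x, x ∈ H ↔ x * u = u * x) (hH' : ∀ x, x ∈ H' ↔ x * u' = u' * x) :
    ∑ χ : Irr G, dn p H q φ.1 u χ.1 * (starRingEnd ℂ) (dn p H' q φ'.1 u' χ.1) = 0 ∨
      ∃ g : G, g * u * g⁻¹ = u' ∧
          ∀ z : G → k, InvOn H' z → l (fun x => z (g * x * g⁻¹)) = l z := by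
  rw [gram_eq p H H' φ'.2 u u' hu hu' hH hH']
  by_cases hex : ∃ g₀ : G, g₀ * u * g₀⁻¹ = u'
  swap
  · left
    rw [Finset.sum_eq_zero, mul_zero]
    intro g _
    rw [if_neg fun h => hex ⟨g, h⟩]
  obtain ⟨g₀, hg₀⟩ := hex
  have hmem : ∀ t : G, t ∈ H ↔ g₀ * t * g₀⁻¹ ∈ H' := by
    intro t
    rw [hH, hH', ← hg₀]
    constructor
    · intro h
      calc g₀ * t * g₀⁻¹ * (g₀ * u * g₀⁻¹) = g₀ * (t * u) * g₀⁻¹ := by group
        _ = g₀ * (u * t) * g₀⁻¹ := by rw [h]
        _ = _ := by group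
    · intro h
      calc t * u = g₀⁻¹ * (g₀ * t * g₀⁻¹ * (g₀ * u * g₀⁻¹)) * g₀ := by group
        _ = g₀⁻¹ * (g₀ * u * g₀⁻¹ * (g₀ * t * g₀⁻¹)) * g₀ := by rw [h]
        _ = u * t := by group
  -- the isomorphism
  let e : H ≃* H' :=
    { toFun := fun t => ⟨g₀ * t * g₀⁻¹, (hmem t).1 t.2⟩
      invFun := fun t => ⟨g₀⁻¹ * t * g₀, (hmem _).2 (by
        have : g₀ * (g₀⁻¹ * (t : G) * g₀) * g₀⁻¹ = t := by group
        rw [this]; exact t.2)⟩
      left_inv := fun t => by apply Subtype.ext; simp [mul_assoc]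
      right_inv := fun t => by apply Subtype.ext; simp [mul_assoc]
      map_mul' := fun s t => by apply Subtype.ext; simp [mul_assoc] }
  have he : ∀ t : H, ((e t : H') : G) = g₀ * t * g₀⁻¹ := fun _ => rfl
  let ψ' : Irr H := ⟨fun t => φ'.1 (e t), φ'.2.comp e.toMonoidHom e.surjective⟩
  have hR : ∀ g : G, g * u * g⁻¹ = u' →
      rsum p (fun t : H => φ.1 t⁻¹ * P179Y.ext H' φ'.1 (g * t * g⁻¹)) =
        rsum p (fun t : H => ψ'.1 t * φ.1 t⁻¹) := by
    intro g hg
    rw [rsum_eq, rsum_eq]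
    refine Finset.sum_congr rfl fun t _ => ?_
    have h1 : g₀⁻¹ * g ∈ H := by
      rw [hH]
      have h2 : g * u * g⁻¹ = g₀ * u * g₀⁻¹ := hg.trans hg₀.symm
      calc g₀⁻¹ * g * u = g₀⁻¹ * (g * u * g⁻¹) * g := by group
        _ = g₀⁻¹ * (g₀ * u * g₀⁻¹) * g := by rw [h2]
        _ = _ := by group
    have h3 : g * (t : G) * g⁻¹ = ((e (⟨_, h1⟩ * t * ⟨_, h1⟩⁻¹) : H') : G) := by
      rw [he]
      push_cast
      group
    rw [h3, P179Y.ext, dif_pos (e _).2, mul_comm]
    congr 1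
    have h4 := φ'.2.conj (e ⟨_, h1⟩) (e t)
    rw [← map_inv, ← map_mul, ← map_mul] at h4
    exact h4
  by_cases hψ : InL red (lres H l) ψ'.1
  · right
    refine ⟨g₀, hg₀, ?_⟩
    intro z hz
    have hz' : IsCF fun h : H' => z h := fun t x => hz.1 t t.2 x
    have hzcomp : IsCF fun h : H => z ((e h : H') : G) := by
      intro t x
      simp only [map_mul, map_inv]
      exact hz' (e t) (e x)
    have h1 : l z = lres H' l (fun h : H' => z h) := by
      unfold lres
      congr 1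
      ext x
      unfold P179Y.ext
      split_ifs with h
      · rfl
      · exact hz.2 x h
    have h2 : l (fun x => z (g₀ * x * g₀⁻¹)) = lres H l (fun h : H => z ((e h : H') : G)) := by
      unfold lres
      congr 1
      ext x
      unfold P179Y.ext
      split_ifs with h
      · rfl
      · exact hz.2 _ fun h' => h ((hmem x).2 h')
    rw [h1, h2, ← hφ' _ hz', ← hψ _ hzcomp]
    exact lam_comp red e φ'.2 hz'
  · left
    rw [Finset.sum_eq_zero, mul_zero]
    intro g _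
    by_cases hg : g * u * g⁻¹ = u'
    · rw [if_pos hg, hR g hg, rsum_orth_of_inL p red ψ' φ hφ hψ]
    · rw [if_neg hg]

omit [CharP k p] [Field k] red in
/-- the Gram matrix of the columns at one element -/
theorem col_same (H : Subgroup G) {q : ℕ} (φ φ' : Irr H) (u : G)
    (hu : ∃ a : ℕ, u ^ p ^ a = 1) (hH : ∀ x, x ∈ H ↔ x * u = u * x) :
    ∑ χ : Irr G, dn p H q φ.1 u χ.1 * (starRingEnd ℂ) (dn p H q φ'.1 u χ.1) =
      (q : ℂ) ^ 2 / Nat.card H * rsum p (fun t : H => φ'.1 t * φ.1 t⁻¹) := by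
  rw [gram_eq p H H φ'.2 u u hu hu hH hH]
  have hH0 : (Nat.card H : ℂ) ≠ 0 := by exact_mod_cast Nat.card_pos.ne'
  have h1 : ∀ g : G, (if g * u * g⁻¹ = u then
      rsum p (fun t : H => φ.1 t⁻¹ * P179Y.ext H φ'.1 (g * t * g⁻¹)) else 0) =
      if g ∈ H then rsum p (fun t : H => φ'.1 t * φ.1 t⁻¹) else 0 := by
    intro g
    have hg : g * u * g⁻¹ = u ↔ g ∈ H := by
      rw [hH, mul_inv_eq_iff_eq_mul]
    simp only [hg]
    split_ifs with h
    · rw [rsum_eq, rsum_eq]
      refine Finset.sum_congr rfl fun t _ => ?_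
      have h3 : g * (t : G) * g⁻¹ = ((⟨g, h⟩ * t * ⟨g, h⟩⁻¹ : H) : G) := rfl
      rw [h3, P179Y.ext, dif_pos (⟨g, h⟩ * t * ⟨g, h⟩⁻¹ : H).2, mul_comm]
      congr 1
      exact φ'.2.conj ⟨g, h⟩ t
    · rfl
  rw [Finset.sum_congr rfl fun g _ => h1 g, ← Finset.sum_filter, Finset.sum_const, nsmul_eq_mul]
  have h2 : ((univ.filter fun g : G => g ∈ H).card : ℂ) = Nat.card H := by
    rw [Nat.card_eq_fintype_card, Fintype.card_subtype]
  rw [h2]
  field_simp

end

section

variable {p : ℕ} [hp : Fact p.Prime] {k : Type v} [Field k] [CharP k p] {red : AA →+* k}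
  {G : Type} [Group G] [Fintype G] {D : Subgroup G} {l : (G → k) → k}

/-- **orthogonality of the columns at elements of `D` which are not conjugate under `T`** -/
theorem col_orth [IsAlgClosed k] (hl : BP p D l) (hD : IsPGroup p D)
    (hab : D ≤ centralizer (D : Set G))
    (hT : ¬ p ∣ (centralizer (D : Set G)).relIndex (stabT D l)) {q : ℕ} {u u' : G} (hu : u ∈ D)
    (hu' : u' ∈ D) (φ : Irr (centralizer {u} : Subgroup G)) (φ' : Irr (centralizer {u'} : Subgroup G))
    (hφ : InL red (lres (centralizer {u}) l) φ.1)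
    (hφ' : InL red (lres (centralizer {u'}) l) φ'.1)
    (hne : ¬ ∃ t ∈ stabT D l, t * u * t⁻¹ = u') :
    ∑ χ : Irr G, dn p (centralizer {u}) q φ.1 u χ.1 *
      (starRingEnd ℂ) (dn p (centralizer {u'}) q φ'.1 u' χ.1) = 0 := by
  have hpel : ∀ w ∈ D, ∃ a : ℕ, w ^ p ^ a = 1 := by
    intro w hw
    obtain ⟨n, hn⟩ := hD ⟨w, hw⟩
    exact ⟨n, by simpa using congrArg Subtype.val hn⟩
  rcases gram_gen p red (centralizer {u}) (centralizer {u'}) (l := l) (q := q) φ φ' hφ hφ' u u'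
    (hpel u hu) (hpel u' hu') (mem_cz u) (mem_cz u') with h | ⟨g, hg, hz⟩
  · exact h
  · exfalso
    have hDH : D ≤ centralizer {u'} := le_cent_of_mem hu' hab
    have hCH : centralizer (D : Set G) ≤ centralizer {u'} := cent_le_of_mem hu'
    obtain ⟨c, hc, hn⟩ := fusionH hl hD hab hDH hCH
      (fun h => hT (h.trans (relIndex_stabT_lres_dvd hDH hCH))) (g := g) (by
        intro d hd
        rw [mem_centralizer_singleton_iff, ← hg]
        have h2 := mem_centralizer_iff.1 (hab hu) d hd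
        calc g * d * g⁻¹ * (g * u * g⁻¹) = g * (d * u) * g⁻¹ := by group
          _ = g * u * g⁻¹ * (g * d * g⁻¹) := by rw [h2]; group) (by
        intro z hzI
        have := hz z hzI
        unfold cj
        rw [inv_inv]
        exact this)
    apply hne
    refine ⟨_, hn, ?_⟩
    have h5 := mem_centralizer_singleton_iff.1 hc
    calc c⁻¹ * g * u * (c⁻¹ * g)⁻¹ = c⁻¹ * (g * u * g⁻¹) * c := by group
      _ = c⁻¹ * (u' * c) := by rw [hg]; group
      _ = c⁻¹ * (c * u') := by rw [h5]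
      _ = u' := by group

end

end P179H666
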