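import Vale.Agent.P179.R2.H450.CohDef

/-!
# Characters with given scalars on a central `p`-subgroup
-/

namespace P179H666

open Finset P179P P179C P179Y Subgroup P179H524 P179I P179H452 P179H450

open P179X (pp SameSec IrrB)

open scoped Classical

universe v

set_option linter.unusedSectionVars false

section

variable {G : Type} [Group G] [Fintype G] (Z : Subgroup G)

/-- the scalar by which the central element `z` acts -/
noncomputable def om {G : Type} [Group G] [Fintype G] (θ : Irr G) (z : G) : ℂ := θ.1 z / θ.1 1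

theorem om_mul {z : G} (hz : ∀ x, z * x = x * z) (θ : Irr G) (x : G) :
    θ.1 (z * x) = om θ z * θ.1 x := by
  obtain ⟨c, -, hc⟩ := central_scalar θ z (fun x => (hz x).symm) (N := orderOf z)
    (pow_orderOf_eq_one z)
  have h1 := hc 1 1
  have h2 := hc 1 x
  rw [pow_one, pow_one, mul_one] at h1
  rw [pow_one, pow_one] at h2
  have h3 : om θ z = c := by
    unfold om
    rw [h1, mul_div_assoc, div_self θ.one_ne_zero, mul_one]
  rw [h2, h3]

theorem om_one (θ : Irr G) : om θ 1 = 1 := div_self θ.one_ne_zero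

theorem om_hom {z z' : G} (hz : ∀ x, z * x = x * z) (θ : Irr G) :
    om θ (z * z') = om θ z * om θ z' := by
  unfold om
  have := om_mul hz θ z'
  rw [this]
  unfold om
  ring

/-- orthogonality of the scalars -/
theorem sum_scalars (hZ : ∀ z ∈ Z, ∀ x, z * x = x * z) (lam : Z → ℂ) (h1 : lam 1 = 1)
    (hm : ∀ z z', lam (z * z') = lam z * lam z') (θ : Irr G) :
    ∑ z : Z, lam z⁻¹ * om θ z = if ∀ z : Z, om θ z = lam z then (Nat.card Z : ℂ) else 0 := by
  split_ifs with h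
  · have h2 : ∀ z : Z, lam z⁻¹ * om θ z = 1 := by
      intro z
      rw [h z, ← hm, inv_mul_cancel, h1]
    rw [Finset.sum_congr rfl fun z _ => h2 z, Finset.sum_const, card_univ, nsmul_eq_mul, mul_one,
      Nat.card_eq_fintype_card]
  · push Not at h
    obtain ⟨z₀, hz₀⟩ := h
    have h2 : ∑ z : Z, lam z⁻¹ * om θ z = (lam z₀⁻¹ * om θ z₀) * ∑ z : Z, lam z⁻¹ * om θ z := by
      conv_lhs => rw [← Equiv.sum_comp (Equiv.mulLeft z₀)]
      rw [Finset.mul_sum]
      refine Finset.sum_congr rfl fun z _ => ?_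
      rw [Equiv.coe_mulLeft, mul_inv_rev, hm]
      have h3 : om θ ((z₀ * z : Z) : G) = om θ z₀ * om θ z := om_hom (hZ z₀ z₀.2) θ
      rw [h3]
      ring
    have h3 : lam z₀⁻¹ * om θ z₀ ≠ 1 := by
      intro h4
      apply hz₀
      have h5 : lam z₀ * (lam z₀⁻¹ * om θ z₀) = om θ z₀ := by
        rw [← mul_assoc, ← hm, mul_inv_cancel, h1, one_mul]
      rw [← h5, h4, mul_one]
    have h4 : (1 - lam z₀⁻¹ * om θ z₀) * ∑ z : Z, lam z⁻¹ * om θ z = 0 := by
      rw [sub_mul, one_mul, ← h2, sub_self]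
    rcases mul_eq_zero.1 h4 with h5 | h5
    · exact absurd (sub_eq_zero.1 h5).symm h3
    · exact h5

end

section

variable {p : ℕ} [hp : Fact p.Prime] {k : Type v} [Field k] (red : AA →+* k)
  {G : Type} [Group G] [Fintype G] (l : (G → k) → k) (Z : Subgroup G)

/-- the characters of the block with the scalars `lam` on `Z` -/
noncomputable def XL (lam : Z → ℂ) : Finset (Irr G) :=
  univ.filter fun ψ => InL red l ψ.1 ∧ ∀ z : Z, om ψ z = lam z

theorem mem_XL {lam : Z → ℂ} {ψ : Irr G} :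
    ψ ∈ XL red l Z lam ↔ InL red l ψ.1 ∧ ∀ z : Z, om ψ z = lam z := by
  unfold XL
  rw [mem_filter]
  exact and_iff_right (mem_univ _)

theorem XZ_eq_XL (hZ : ∀ z ∈ Z, ∀ x, z * x = x * z) : XZ red l Z = XL red l Z 1 := by
  ext ψ
  rw [mem_XZ, mem_XL]
  refine and_congr_right fun _ => ⟨fun h z => ?_, fun h z hz x => ?_⟩
  · unfold om
    have h1 := h z z.2 1
    rw [mul_one] at h1
    rw [h1, div_self ψ.one_ne_zero]
    rfl
  · rw [om_mul (hZ z hz), h ⟨z, hz⟩]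
    exact one_mul _

/-- averaging over `Z` -/
theorem avg (hZ : ∀ z ∈ Z, ∀ x, z * x = x * z) (lam : Z → ℂ) (h1 : lam 1 = 1)
    (hm : ∀ z z', lam (z * z') = lam z * lam z') (f : Irr G → ℂ) (x : G) :
    (Nat.card Z : ℂ) * ∑ ψ ∈ XL red l Z lam, ψ.1 x * f ψ =
      ∑ z : Z, lam z⁻¹ * ∑ ψ : Irr G, (if InL red l ψ.1 then ψ.1 (z * x) * f ψ else 0) := by
  have h2 : ∀ z : Z, lam z⁻¹ * ∑ ψ : Irr G, (if InL red l ψ.1 then ψ.1 (z * x) * f ψ else 0) =
      ∑ ψ : Irr G, (lam z⁻¹ * om ψ z) * (if InL red l ψ.1 then ψ.1 x * f ψ else 0) := by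
    intro z
    rw [Finset.mul_sum]
    refine Finset.sum_congr rfl fun ψ _ => ?_
    split_ifs
    · rw [om_mul (hZ z z.2)]; ring
    · ring
  rw [Finset.sum_congr rfl fun z _ => h2 z, Finset.sum_comm]
  have h3 : ∀ ψ : Irr G, ∑ z : Z, (lam z⁻¹ * om ψ z) * (if InL red l ψ.1 then ψ.1 x * f ψ else 0) =
      if InL red l ψ.1 ∧ ∀ z : Z, om ψ z = lam z then (Nat.card Z : ℂ) * (ψ.1 x * f ψ) else 0 := by
    intro ψ
    rw [← Finset.sum_mul, sum_scalars Z hZ lam h1 hm ψ]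
    by_cases ha : InL red l ψ.1
    · by_cases hb : ∀ z : Z, om ψ z = lam z
      · rw [if_pos hb, if_pos ha, if_pos ⟨ha, hb⟩]
      · rw [if_neg hb, zero_mul,
          if_neg (show ¬ (InL red l ψ.1 ∧ ∀ z : Z, om ψ z = lam z) from fun h => hb h.2)]
    · rw [if_neg ha, mul_zero,
        if_neg (show ¬ (InL red l ψ.1 ∧ ∀ z : Z, om ψ z = lam z) from fun h => ha h.1)]
  rw [Finset.sum_congr rfl fun ψ _ => h3 ψ, Finset.mul_sum, ← Finset.sum_filter]
  rfl

/-- orthogonality, elements in different sections modulo `Z` -/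
theorem XL_orth (hZ : ∀ z ∈ Z, ∀ x, z * x = x * z) (lam : Z → ℂ) (h1 : lam 1 = 1)
    (hm : ∀ z z', lam (z * z') = lam z * lam z')
    (hsec : ∀ x y : G, ¬ SameSec p x y →
      ∑ χ : Irr G, (if InL red l χ.1 then χ.1 x * χ.1 y⁻¹ else 0) = 0) {x y : G}
    (hxy : ∀ z ∈ Z, ¬ SameSec p (z * x) y) :
    ∑ ψ ∈ XL red l Z lam, ψ.1 x * ψ.1 y⁻¹ = 0 := by
  have h2 := avg red l Z hZ lam h1 hm (fun ψ => ψ.1 y⁻¹) x
  have h4 : ∑ z : Z, lam z⁻¹ * ∑ ψ : Irr G,
      (if InL red l ψ.1 then ψ.1 (z * x) * ψ.1 y⁻¹ else 0) = 0 :=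
    Finset.sum_eq_zero fun z _ => by rw [hsec _ _ (hxy z z.2), mul_zero]
  rw [h4] at h2
  rcases mul_eq_zero.1 h2 with h3 | h3
  · exact absurd h3 (by exact_mod_cast Nat.card_pos.ne')
  · exact h3

/-- the kernel on the `p`-regular elements does not depend on the scalars -/
theorem XL_ker (hZ : ∀ z ∈ Z, ∀ x, z * x = x * z) (hZp : IsPGroup p Z) (lam : Z → ℂ)
    (h1 : lam 1 = 1) (hm : ∀ z z', lam (z * z') = lam z * lam z')
    (hsec : ∀ x y : G, ¬ SameSec p x y →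
      ∑ χ : Irr G, (if InL red l χ.1 then χ.1 x * χ.1 y⁻¹ else 0) = 0) {x y : G}
    (hx : ¬ p ∣ orderOf x) (hy : ¬ p ∣ orderOf y) :
    (Nat.card Z : ℂ) * ∑ ψ ∈ XL red l Z lam, ψ.1 x * ψ.1 y⁻¹ =
      ∑ χ : Irr G, (if InL red l χ.1 then χ.1 x * χ.1 y⁻¹ else 0) := by
  rw [avg red l Z hZ lam h1 hm (fun ψ => ψ.1 y⁻¹) x, Finset.sum_eq_single (1 : Z)]
  · rw [inv_one, h1, one_mul, Subgroup.coe_one, one_mul]
  · intro z _ hz
    rw [hsec, mul_zero]
    intro hs
    apply hz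
    obtain ⟨n, hn⟩ := hZp z
    have h2 : pp p ((z : G) * x) = z := by
      refine pp_eq (hZ z z.2 x) ⟨n, by simpa using congrArg Subtype.val hn⟩ hx
    have h3 : pp p y = 1 := (pp_eq_one_iff y).2 hy
    unfold P179X.SameSec at hs
    rw [h2, h3] at hs
    exact Subtype.ext (isConj_one_left.1 hs)
  · intro h
    exact absurd (mem_univ _) h

end

end P179H666
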