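import Vale.Agent.P179.R2.H666.Kb1
import Vale.Agent.P179.R2.H843.P7m

/-!
# The characters of a block on the `p`-regular elements, modulo a central `p`-subgroup
-/

namespace P179H666

open Finset P179P P179C P179Y Subgroup P179H524 P179I P179H452 P179H450 P179A

open P179X (pp SameSec IrrB)

open scoped Classical

universe v

set_option linter.unusedSectionVars false

section

variable {p : ℕ} [hp : Fact p.Prime] {G : Type} [Group G] [Fintype G] (Z : Subgroup G)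

omit [Fintype G] in
theorem pp_zmul [Finite G] (hZ : ∀ z ∈ Z, ∀ x, z * x = x * z) (hZp : IsPGroup p Z) {z t : G}
    (hz : z ∈ Z) (ht : ¬ p ∣ orderOf t) : pp p (z * t) = z := by
  have := Fintype.ofFinite G
  obtain ⟨n, hn⟩ := hZp ⟨z, hz⟩
  exact pp_eq (hZ z hz t) ⟨n, by simpa using congrArg Subtype.val hn⟩ ht

/-- summation over the group and over the `p`-regular elements -/
theorem sum_eq_rsum (hZ : ∀ z ∈ Z, ∀ x, z * x = x * z) (hZp : IsPGroup p Z) (F : G → ℂ)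
    (hFz : ∀ z ∈ Z, ∀ x, F (z * x) = F x)
    (hFv : ∀ x, F x ≠ 0 → ∃ z ∈ Z, ∃ t, ¬ p ∣ orderOf t ∧ x = z * t) :
    ∑ x : G, F x = (Nat.card Z : ℂ) * rsum p F := by
  rw [rsum_eq]
  have h2 : (Nat.card Z : ℂ) * ∑ t ∈ univ.filter (fun s : G => ¬ p ∣ orderOf s), F t =
      ∑ y ∈ (univ : Finset Z) ×ˢ univ.filter (fun s : G => ¬ p ∣ orderOf s), F y.2 := by
    rw [Finset.sum_product]
    simp only []
    rw [Finset.sum_const, nsmul_eq_mul, card_univ, Nat.card_eq_fintype_card]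
  rw [h2]
  symm
  refine Finset.sum_bij_ne_zero (fun y _ _ => (y.1 : G) * y.2) (fun _ _ _ => mem_univ _) ?_ ?_ ?_
  · intro y hy _ y' hy' _ hyy
    have hy2 := (mem_filter.1 (mem_product.1 hy).2).2
    have hy2' := (mem_filter.1 (mem_product.1 hy').2).2
    have e1 := pp_zmul Z hZ hZp y.1.2 hy2
    have e2 := pp_zmul Z hZ hZp y'.1.2 hy2'
    rw [hyy, e2] at e1
    have e3 : y.1 = y'.1 := Subtype.ext e1.symm
    refine Prod.ext e3 ?_
    rw [e3] at hyy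
    exact mul_left_cancel hyy
  · intro x _ hx
    obtain ⟨z, hz, t, ht, rfl⟩ := hFv x hx
    rw [hFz z hz] at hx
    exact ⟨(⟨z, hz⟩, t), mem_product.2 ⟨mem_univ _, mem_filter.2 ⟨mem_univ _, ht⟩⟩, hx, rfl⟩
  · intro y _ _
    exact (hFz y.1 y.1.2 y.2).symm

/-- the scalar product on the `p`-regular elements -/
noncomputable def qf (p : ℕ) {G : Type} [Group G] [Fintype G] (Z : Subgroup G) (ψ ψ' : Irr G) : ℂ :=
  (Nat.card Z : ℂ) / Nat.card G * rsum p (fun t => ψ.1 t * ψ'.1 t⁻¹)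

theorem qf_star (ψ ψ' : Irr G) : (starRingEnd ℂ) (qf p Z ψ ψ') = qf p Z ψ' ψ := by
  unfold qf
  simp only [rsum_eq, map_mul, map_div₀, map_natCast, map_sum]
  congr 1
  refine Finset.sum_congr rfl fun t _ => ?_
  have h1 : (starRingEnd ℂ) (ψ.1 t) = ψ.1 t⁻¹ := (Irr.inv_eq_conj ψ t).symm
  have h2 : (starRingEnd ℂ) (ψ'.1 t⁻¹) = ψ'.1 t := by
    have := Irr.inv_eq_conj ψ' t⁻¹
    rw [inv_inv] at this
    exact this.symm
  rw [h1, h2, mul_comm]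

theorem om_unit {z : G} (hz : ∀ x, z * x = x * z) (θ : Irr G) :
    om θ z * (starRingEnd ℂ) (om θ z) = 1 := by
  obtain ⟨c, hcN, hc⟩ := central_scalar θ z (fun x => (hz x).symm) (N := orderOf z)
    (pow_orderOf_eq_one z)
  have h1 := hc 1 1
  rw [pow_one, pow_one, mul_one] at h1
  have h3 : om θ z = c := by
    unfold om
    rw [h1, mul_div_assoc, div_self θ.one_ne_zero, mul_one]
  rw [h3, Complex.mul_conj, Complex.normSq_eq_norm_sq,
    Complex.norm_eq_one_of_pow_eq_one hcN (orderOf_pos z).ne']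
  simp

end

section

variable {p : ℕ} [hp : Fact p.Prime] {k : Type v} [Field k] (red : AA →+* k)
  {G : Type} [Group G] [Fintype G] (l : (G → k) → k) (Z : Subgroup G)

/-- reproducing property, first form -/
theorem rep_aux (hZ : ∀ z ∈ Z, ∀ x, z * x = x * z) (hZp : IsPGroup p Z) (lam : Z → ℂ)
    (h1 : lam 1 = 1) (hm : ∀ z z', lam (z * z') = lam z * lam z')
    (hsec : ∀ x y : G, ¬ SameSec p x y →
      ∑ χ : Irr G, (if InL red l χ.1 then χ.1 x * χ.1 y⁻¹ else 0) = 0) {θ : Irr G}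
    (hθ : θ ∈ XL red l Z lam) {g : G} (hg : ¬ p ∣ orderOf g) :
    (Nat.card Z : ℂ) * rsum p (fun t => θ.1 t * ∑ ψ ∈ XL red l Z lam, ψ.1 g * ψ.1 t⁻¹) =
      Nat.card G * θ.1 g := by
  have hθ' := (mem_XL red l Z).1 hθ
  rw [← sum_eq_rsum Z hZ hZp]
  · have h2 : ∀ x : G, θ.1 x * ∑ ψ ∈ XL red l Z lam, ψ.1 g * ψ.1 x⁻¹ =
        ∑ ψ ∈ XL red l Z lam, ψ.1 g * (θ.1 x * ψ.1 x⁻¹) := by
      intro x
      rw [Finset.mul_sum]
      exact Finset.sum_congr rfl fun ψ _ => by ring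
    rw [Finset.sum_congr rfl fun x _ => h2 x, Finset.sum_comm, Finset.sum_eq_single θ]
    · rw [← Finset.mul_sum, row_orth, if_pos rfl, Nat.card_eq_fintype_card, mul_comm]
    · intro ψ _ hψ
      rw [← Finset.mul_sum, row_orth, if_neg hψ.symm, mul_zero]
    · intro h
      exact absurd hθ h
  · intro z hz x
    rw [Finset.mul_sum, Finset.mul_sum]
    refine Finset.sum_congr rfl fun ψ hψ => ?_
    have hψ' := (mem_XL red l Z).1 hψ
    have e1 : ψ.1 (z * x)⁻¹ = (starRingEnd ℂ) (om ψ z) * ψ.1 x⁻¹ := by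
      have e2 := Irr.inv_eq_conj ψ (z * x)
      rw [e2, om_mul (hZ z hz), map_mul]
      congr 1
      exact (Irr.inv_eq_conj ψ x).symm
    rw [e1, om_mul (hZ z hz) θ]
    have e3 : om θ z = om ψ z := (hθ'.2 ⟨z, hz⟩).trans (hψ'.2 ⟨z, hz⟩).symm
    rw [e3]
    have e4 := om_unit (hZ z hz) ψ
    linear_combination (θ.1 x * ψ.1 g * ψ.1 x⁻¹) * e4
  · intro x hx
    have h2 : ∑ ψ ∈ XL red l Z lam, ψ.1 g * ψ.1 x⁻¹ ≠ 0 := right_ne_zero_of_mul hx
    have h3 : ¬ ∀ z ∈ Z, ¬ SameSec p (z * g) x := fun h =>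
      h2 (XL_orth red l Z hZ lam h1 hm hsec h)
    push Not at h3
    obtain ⟨z, hz, hs⟩ := h3
    have h4 : pp p (z * g) = z := pp_zmul Z hZ hZp hz hg
    unfold P179X.SameSec at hs
    rw [h4] at hs
    obtain ⟨c, hc⟩ := isConj_iff.1 hs
    have h5 : c * z * c⁻¹ = z := by
      rw [← hZ z hz c]; group
    rw [h5] at hc
    refine ⟨z, hz, pr p x, pr_regular' x, ?_⟩
    rw [hc, pp_mul_pr]

/-- reproducing property -/
theorem qf_rep (hZ : ∀ z ∈ Z, ∀ x, z * x = x * z) (hZp : IsPGroup p Z)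
    (hsec : ∀ x y : G, ¬ SameSec p x y →
      ∑ χ : Irr G, (if InL red l χ.1 then χ.1 x * χ.1 y⁻¹ else 0) = 0) {θ : Irr G}
    (hθ : InL red l θ.1) {g : G} (hg : ¬ p ∣ orderOf g) :
    θ.1 g = ∑ ψ ∈ XL red l Z 1, qf p Z θ ψ * ψ.1 g := by
  have hG0 : (Nat.card G : ℂ) ≠ 0 := by exact_mod_cast Nat.card_pos.ne'
  have hZ0 : (Nat.card Z : ℂ) ≠ 0 := by exact_mod_cast Nat.card_pos.ne'
  set lam : Z → ℂ := fun z => om θ z with hlam
  have h1 : lam 1 = 1 := om_one θ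
  have hm : ∀ z z', lam (z * z') = lam z * lam z' := fun z z' => om_hom (hZ z z.2) θ
  have hθ' : θ ∈ XL red l Z lam := (mem_XL red l Z).2 ⟨hθ, fun _ => rfl⟩
  have h2 := rep_aux red l Z hZ hZp lam h1 hm hsec hθ' hg
  have h3 : rsum p (fun t => θ.1 t * ∑ ψ ∈ XL red l Z lam, ψ.1 g * ψ.1 t⁻¹) =
      rsum p (fun t => θ.1 t * ∑ ψ ∈ XL red l Z 1, ψ.1 g * ψ.1 t⁻¹) := by
    rw [rsum_eq, rsum_eq]
    refine Finset.sum_congr rfl fun t ht => ?_
    congr 1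
    apply mul_left_cancel₀ hZ0
    rw [XL_ker red l Z hZ hZp lam h1 hm hsec hg (mem_filter.1 ht).2,
      XL_ker red l Z hZ hZp 1 rfl (fun _ _ => (mul_one _).symm) hsec hg (mem_filter.1 ht).2]
  rw [h3] at h2
  have h4 : rsum p (fun t => θ.1 t * ∑ ψ ∈ XL red l Z 1, ψ.1 g * ψ.1 t⁻¹) =
      ∑ ψ ∈ XL red l Z 1, rsum p (fun t => θ.1 t * ψ.1 t⁻¹) * ψ.1 g := by
    simp only [rsum_eq]
    have h5 : ∀ t : G, θ.1 t * ∑ ψ ∈ XL red l Z 1, ψ.1 g * ψ.1 t⁻¹ =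
        ∑ ψ ∈ XL red l Z 1, (θ.1 t * ψ.1 t⁻¹) * ψ.1 g := by
      intro t
      rw [Finset.mul_sum]
      exact Finset.sum_congr rfl fun ψ _ => by ring
    rw [Finset.sum_congr rfl fun t _ => h5 t, Finset.sum_comm]
    exact Finset.sum_congr rfl fun ψ _ => by rw [Finset.sum_mul]
  rw [h4] at h2
  apply mul_left_cancel₀ hG0
  rw [← h2, Finset.mul_sum, Finset.mul_sum]
  refine Finset.sum_congr rfl fun ψ _ => ?_
  unfold qf
  field_simp

/-- `Q² = Q` -/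
theorem qf_idem (hZ : ∀ z ∈ Z, ∀ x, z * x = x * z) (hZp : IsPGroup p Z)
    (hsec : ∀ x y : G, ¬ SameSec p x y →
      ∑ χ : Irr G, (if InL red l χ.1 then χ.1 x * χ.1 y⁻¹ else 0) = 0) {θ : Irr G}
    (hθ : InL red l θ.1) (θ' : Irr G) :
    ∑ ψ ∈ XL red l Z 1, qf p Z θ ψ * qf p Z ψ θ' = qf p Z θ θ' := by
  have h1 : qf p Z θ θ' = (Nat.card Z : ℂ) / Nat.card G *
      rsum p (fun t => (∑ ψ ∈ XL red l Z 1, qf p Z θ ψ * ψ.1 t) * θ'.1 t⁻¹) := by
    conv_lhs => unfold qf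
    congr 1
    rw [rsum_eq, rsum_eq]
    exact Finset.sum_congr rfl fun t ht => by
      rw [← qf_rep red l Z hZ hZp hsec hθ (mem_filter.1 ht).2]
  rw [h1, rsum_eq]
  have h2 : ∀ t : G, (∑ ψ ∈ XL red l Z 1, qf p Z θ ψ * ψ.1 t) * θ'.1 t⁻¹ =
      ∑ ψ ∈ XL red l Z 1, qf p Z θ ψ * (ψ.1 t * θ'.1 t⁻¹) := by
    intro t
    rw [Finset.sum_mul]
    exact Finset.sum_congr rfl fun ψ _ => by ring
  rw [Finset.sum_congr rfl fun t _ => h2 t, Finset.sum_comm, Finset.mul_sum]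
  refine Finset.sum_congr rfl fun ψ _ => ?_
  rw [← Finset.mul_sum]
  have h3 : qf p Z ψ θ' = (Nat.card Z : ℂ) / Nat.card G *
      ∑ t ∈ univ.filter (fun s : G => ¬ p ∣ orderOf s), ψ.1 t * θ'.1 t⁻¹ := by
    conv_lhs => unfold qf
    rw [rsum_eq]
  rw [h3]
  ring

/-- the trace of `Q` -/
theorem qf_trace (hZ : ∀ z ∈ Z, ∀ x, z * x = x * z) (hZp : IsPGroup p Z)
    (hsec : ∀ x y : G, ¬ SameSec p x y →
      ∑ χ : Irr G, (if InL red l χ.1 then χ.1 x * χ.1 y⁻¹ else 0) = 0) :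
    (Nat.card G : ℂ) * ∑ ψ ∈ XL red l Z 1, qf p Z ψ ψ =
      rsum p (fun t => ∑ χ : Irr G, (if InL red l χ.1 then χ.1 t * χ.1 t⁻¹ else 0)) := by
  have hG0 : (Nat.card G : ℂ) ≠ 0 := by exact_mod_cast Nat.card_pos.ne'
  rw [rsum_eq]
  have h1 : ∑ t ∈ univ.filter (fun s : G => ¬ p ∣ orderOf s),
      ∑ χ : Irr G, (if InL red l χ.1 then χ.1 t * χ.1 t⁻¹ else 0) =
      ∑ t ∈ univ.filter (fun s : G => ¬ p ∣ orderOf s),
        (Nat.card Z : ℂ) * ∑ ψ ∈ XL red l Z 1, ψ.1 t * ψ.1 t⁻¹ :=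
    Finset.sum_congr rfl fun t ht => (XL_ker red l Z hZ hZp 1 rfl
      (fun _ _ => (mul_one _).symm) hsec (mem_filter.1 ht).2 (mem_filter.1 ht).2).symm
  rw [h1, ← Finset.mul_sum, Finset.sum_comm, Finset.mul_sum, Finset.mul_sum]
  refine Finset.sum_congr rfl fun ψ _ => ?_
  unfold qf
  rw [rsum_eq]
  field_simp

end

end P179H666
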