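import Vale.Agent.P179.R2.H666.Kb2

/-!
# Complementary projections
-/

namespace P179H666

open Finset

open scoped Classical

set_option linter.unusedSectionVars false

section

variable {ι : Type*}

/-- two orthogonal projections whose traces add up to the dimension -/
theorem proj_compl (X : Finset ι) (Q R : ι → ι → ℂ)
    (hQs : ∀ a ∈ X, ∀ b ∈ X, (starRingEnd ℂ) (Q a b) = Q b a)
    (hRs : ∀ a ∈ X, ∀ b ∈ X, (starRingEnd ℂ) (R a b) = R b a)
    (hQQ : ∀ a ∈ X, ∀ b ∈ X, ∑ c ∈ X, Q a c * Q c b = Q a b)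
    (hRR : ∀ a ∈ X, ∀ b ∈ X, ∑ c ∈ X, R a c * R c b = R a b)
    (hQR : ∀ a ∈ X, ∀ b ∈ X, ∑ c ∈ X, Q a c * R c b = 0)
    (r t : ℝ) (hr : ∑ a ∈ X, Q a a = r) (ht : ∑ a ∈ X, R a a = t) (hle : (X.card : ℝ) ≤ r + t) :
    ∀ a ∈ X, ∀ b ∈ X, Q a b + R a b = if a = b then 1 else 0 := by
  set M : ι → ι → ℂ := fun a b => (if a = b then 1 else 0) - Q a b - R a b with hM
  have hRQ : ∀ a ∈ X, ∀ b ∈ X, ∑ c ∈ X, R a c * Q c b = 0 := by
    intro a ha b hb
    have h1 := congrArg (starRingEnd ℂ) (hQR b hb a ha)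
    rw [map_sum, map_zero] at h1
    rw [← h1]
    refine Finset.sum_congr rfl fun c hc => ?_
    rw [map_mul, hQs b hb c hc, hRs c hc a ha, mul_comm]
  have hMs : ∀ a ∈ X, ∀ b ∈ X, (starRingEnd ℂ) (M a b) = M b a := by
    intro a ha b hb
    simp only [hM, map_sub, hQs a ha b hb, hRs a ha b hb]
    congr 2
    by_cases hab : a = b
    · rw [if_pos hab, if_pos hab.symm, map_one]
    · rw [if_neg hab, if_neg (fun h => hab h.symm), map_zero]
  have hMM : ∀ a ∈ X, ∑ c ∈ X, M a c * M c a = M a a := by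
    intro a ha
    have h1 : ∀ c ∈ X, M a c * M c a = (if a = c then M c a else 0) -
        (if a = c then Q a c + R a c else 0) + (Q a c * Q c a + Q a c * R c a + R a c * Q c a +
          R a c * R c a) := by
      intro c _
      simp only [hM]
      by_cases hac : a = c
      · subst hac
        simp only [if_true]
        ring
      · have hca : ¬ c = a := fun h => hac h.symm
        simp only [hac, hca, if_false]
        ring
    rw [Finset.sum_congr rfl h1]
    simp only [Finset.sum_add_distrib, Finset.sum_sub_distrib]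
    rw [hQQ a ha a ha, hRR a ha a ha, hQR a ha a ha, hRQ a ha a ha, Finset.sum_ite_eq,
      Finset.sum_ite_eq, if_pos ha, if_pos ha]
    ring
  have h1 : ∑ a ∈ X, ∑ c ∈ X, ‖M a c‖ ^ 2 ≤ 0 := by
    have h2 : ((∑ a ∈ X, ∑ c ∈ X, ‖M a c‖ ^ 2 : ℝ) : ℂ) = ((X.card - r - t : ℝ) : ℂ) := by
      push_cast
      rw [← hr, ← ht]
      have h3 : ∀ a ∈ X, ∑ c ∈ X, ((‖M a c‖ : ℂ) ^ 2) = 1 - Q a a - R a a := by
        intro a ha
        have h4 : ∀ c ∈ X, ((‖M a c‖ : ℂ) ^ 2) = M a c * M c a := by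
          intro c hc
          rw [← hMs a ha c hc, Complex.mul_conj, Complex.normSq_eq_norm_sq]
          push_cast
          rfl
        rw [Finset.sum_congr rfl h4, hMM a ha]
        simp only [hM, if_true]
      rw [Finset.sum_congr rfl h3]
      simp only [Finset.sum_sub_distrib, Finset.sum_const, nsmul_eq_mul, mul_one]
    have h3 : (∑ a ∈ X, ∑ c ∈ X, ‖M a c‖ ^ 2 : ℝ) = X.card - r - t := by exact_mod_cast h2
    rw [h3]
    linarith
  have h2 : ∀ a ∈ X, ∀ c ∈ X, M a c = 0 := by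
    intro a ha c hc
    have h3 : ‖M a c‖ ^ 2 ≤ 0 := by
      refine le_trans ?_ h1
      refine le_trans ?_ (Finset.single_le_sum (f := fun a => ∑ c ∈ X, ‖M a c‖ ^ 2)
        (fun a _ => Finset.sum_nonneg fun c _ => by positivity) ha)
      exact Finset.single_le_sum (f := fun c => ‖M a c‖ ^ 2) (fun c _ => by positivity) hc
    have h4 : ‖M a c‖ ^ 2 = 0 := le_antisymm h3 (by positivity)
    exact norm_eq_zero.1 (pow_eq_zero_iff (two_ne_zero) |>.1 h4)
  intro a ha b hb
  have h3 := h2 a ha b hb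
  simp only [hM] at h3
  linear_combination -h3

end

section

variable {G : Type} [Group G] [Fintype G] {ι : Type*}

/-- the projection on the span of the columns `A u`, `u ∈ D \ Z` -/
noncomputable def rf (D Z : Subgroup G) (s : ℕ) (A : G → ι → ℂ) (a b : ι) : ℂ :=
  1 / ((Nat.card D : ℂ) * s) * ∑ u ∈ univ.filter (fun u : G => u ∈ D ∧ u ∉ Z),
    A u a * (starRingEnd ℂ) (A u b)

variable (D Z T : Subgroup G) {s : ℕ} (A : G → ι → ℂ)

theorem rf_star (a b : ι) : (starRingEnd ℂ) (rf D Z s A a b) = rf D Z s A b a := by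
  unfold rf
  simp only [map_mul, map_div₀, map_one, map_natCast, map_sum, Complex.conj_conj]
  congr 1
  exact Finset.sum_congr rfl fun u _ => mul_comm _ _

/-- `R² = R` -/
theorem rf_idem (hs : s ≠ 0) (hZD : Z ≤ D) (X : Finset ι)
    (h1 : ∀ a ∈ X, ∀ z ∈ Z, ∀ u ∈ D, u ∉ Z → A (z * u) a = A u a)
    (h2 : ∀ u ∈ D, u ∉ Z → ∀ b ∈ D, b ∉ Z → ∑ a ∈ X, A u a * (starRingEnd ℂ) (A b a) =
      1 / (Nat.card Z : ℂ) * ∑ z : Z, (if ∃ t ∈ T, t * u * t⁻¹ = z * b then (Nat.card D : ℂ) else 0))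
    (h4 : ∀ a, ∀ t ∈ T, ∀ u ∈ D, u ∉ Z → A (t * u * t⁻¹) a = A u a)
    (h5 : ∀ u ∈ D, u ∉ Z → ((univ.filter (fun b : G => b ∈ D ∧ b ∉ Z)).filter
      (fun b => ∃ t ∈ T, t * u * t⁻¹ = b)).card = s) {a : ι} (ha : a ∈ X) (b : ι) :
    ∑ c ∈ X, rf D Z s A a c * rf D Z s A c b = rf D Z s A a b := by
  have hZ0 : (Nat.card Z : ℂ) ≠ 0 := by exact_mod_cast Nat.card_pos.ne'
  have hD0 : (Nat.card D : ℂ) ≠ 0 := by exact_mod_cast Nat.card_pos.ne'
  have hs0 : (s : ℂ) ≠ 0 := by exact_mod_cast hs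
  set W := univ.filter (fun u : G => u ∈ D ∧ u ∉ Z) with hW
  -- the inner sum
  have key : ∀ v ∈ W, ∑ u ∈ W, A u a * ∑ c ∈ X, A v c * (starRingEnd ℂ) (A u c) =
      (Nat.card D : ℂ) * s * A v a := by
    intro v hv
    have hv' := (mem_filter.1 hv).2
    have e1 : ∀ u ∈ W, A u a * ∑ c ∈ X, A v c * (starRingEnd ℂ) (A u c) =
        ∑ z : Z, (Nat.card D : ℂ) / Nat.card Z *
          (if ∃ t ∈ T, t * v * t⁻¹ = z * u then A (z * u) a else 0) := by
      intro u hu
      have hu' := (mem_filter.1 hu).2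
      rw [h2 v hv'.1 hv'.2 u hu'.1 hu'.2, ← mul_assoc, Finset.mul_sum]
      refine Finset.sum_congr rfl fun z _ => ?_
      rw [h1 a ha z z.2 u hu'.1 hu'.2]
      split_ifs
      · ring
      · ring
    rw [Finset.sum_congr rfl e1, Finset.sum_comm]
    have e2 : ∀ z : Z, ∑ u ∈ W, (Nat.card D : ℂ) / Nat.card Z *
          (if ∃ t ∈ T, t * v * t⁻¹ = z * u then A (z * u) a else 0) =
        (Nat.card D : ℂ) / Nat.card Z * (s * A v a) := by
      intro z
      rw [← Finset.mul_sum]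
      congr 1
      have e3 : ∑ u ∈ W, (if ∃ t ∈ T, t * v * t⁻¹ = z * u then A (z * u) a else 0) =
          ∑ u ∈ W, (if ∃ t ∈ T, t * v * t⁻¹ = u then A u a else 0) := by
        refine Finset.sum_bij' (fun u _ => (z : G) * u) (fun u _ => (z : G)⁻¹ * u) ?_ ?_ ?_ ?_ ?_
        · intro u hu
          have hu' := (mem_filter.1 hu).2
          refine mem_filter.2 ⟨mem_univ _, D.mul_mem (hZD z.2) hu'.1, fun h => hu'.2 ?_⟩
          have := Z.mul_mem (Z.inv_mem z.2) h
          rwa [inv_mul_cancel_left] at this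
        · intro u hu
          have hu' := (mem_filter.1 hu).2
          refine mem_filter.2 ⟨mem_univ _, D.mul_mem (D.inv_mem (hZD z.2)) hu'.1, fun h => hu'.2 ?_⟩
          have := Z.mul_mem z.2 h
          rwa [mul_inv_cancel_left] at this
        · intro u _
          exact inv_mul_cancel_left _ _
        · intro u _
          exact mul_inv_cancel_left _ _
        · intro u _
          rfl
      rw [e3, ← Finset.sum_filter]
      have e4 : ∀ u ∈ W.filter (fun u => ∃ t ∈ T, t * v * t⁻¹ = u), A u a = A v a := by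
        intro u hu
        obtain ⟨t, ht, e⟩ := (mem_filter.1 hu).2
        rw [← e, h4 a t ht v hv'.1 hv'.2]
      rw [Finset.sum_congr rfl e4, Finset.sum_const, h5 v hv'.1 hv'.2, nsmul_eq_mul]
    rw [Finset.sum_congr rfl fun z _ => e2 z, Finset.sum_const, card_univ, nsmul_eq_mul,
      ← Nat.card_eq_fintype_card]
    field_simp
  have e5 : ∑ c ∈ X, rf D Z s A a c * rf D Z s A c b =
      (1 / ((Nat.card D : ℂ) * s)) ^ 2 * ∑ v ∈ W, (∑ u ∈ W, A u a *
        ∑ c ∈ X, A v c * (starRingEnd ℂ) (A u c)) * (starRingEnd ℂ) (A v b) := by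
    have e6 : ∀ c ∈ X, rf D Z s A a c * rf D Z s A c b =
        (1 / ((Nat.card D : ℂ) * s)) ^ 2 * ∑ v ∈ W, ∑ u ∈ W,
          A u a * (A v c * (starRingEnd ℂ) (A u c)) * (starRingEnd ℂ) (A v b) := by
      intro c _
      rw [Finset.sum_comm]
      unfold rf
      rw [show ∀ x y z w : ℂ, x * y * (z * w) = (x * z) * (y * w) from fun x y z w => by ring,
        Finset.sum_mul_sum, sq]
      congr 1
      exact Finset.sum_congr rfl fun u _ => Finset.sum_congr rfl fun v _ => by ring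
    rw [Finset.sum_congr rfl e6, ← Finset.mul_sum]
    congr 1
    rw [Finset.sum_comm]
    refine Finset.sum_congr rfl fun v _ => ?_
    rw [Finset.sum_comm, Finset.sum_mul]
    refine Finset.sum_congr rfl fun u _ => ?_
    rw [Finset.mul_sum, Finset.sum_mul]
  have e8 : rf D Z s A a b = 1 / ((Nat.card D : ℂ) * s) * ∑ u ∈ W,
      A u a * (starRingEnd ℂ) (A u b) := rfl
  rw [e5, Finset.sum_congr rfl fun v hv => by rw [key v hv], e8]
  have e7 : ∀ v ∈ W, (Nat.card D : ℂ) * s * A v a * (starRingEnd ℂ) (A v b) =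
      ((Nat.card D : ℂ) * s) * (A v a * (starRingEnd ℂ) (A v b)) := fun v _ => by ring
  rw [Finset.sum_congr rfl e7, ← Finset.mul_sum]
  field_simp

/-- the trace of `R` -/
theorem rf_trace (hs : s ≠ 0) (hZD : Z ≤ D) (X : Finset ι)
    (h2 : ∀ u ∈ D, u ∉ Z → ∀ b ∈ D, b ∉ Z → ∑ a ∈ X, A u a * (starRingEnd ℂ) (A b a) =
      1 / (Nat.card Z : ℂ) * ∑ z : Z, (if ∃ t ∈ T, t * u * t⁻¹ = z * b then (Nat.card D : ℂ) else 0))
    (h6 : ∀ u ∈ D, u ∉ Z → ∀ z ∈ Z, (∃ t ∈ T, t * u * t⁻¹ = z * u) → z = 1) {m : ℕ}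
    (hm : (s * m + 1) * Nat.card Z = Nat.card D) :
    ∑ a ∈ X, rf D Z s A a a = m := by
  have hZ0 : (Nat.card Z : ℂ) ≠ 0 := by exact_mod_cast Nat.card_pos.ne'
  have hD0 : (Nat.card D : ℂ) ≠ 0 := by exact_mod_cast Nat.card_pos.ne'
  have hs0 : (s : ℂ) ≠ 0 := by exact_mod_cast hs
  unfold rf
  rw [← Finset.mul_sum, Finset.sum_comm]
  have e1 : ∀ u ∈ univ.filter (fun u : G => u ∈ D ∧ u ∉ Z),
      ∑ a ∈ X, A u a * (starRingEnd ℂ) (A u a) = (Nat.card D : ℂ) / Nat.card Z := by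
    intro u hu
    have hu' := (mem_filter.1 hu).2
    rw [h2 u hu'.1 hu'.2 u hu'.1 hu'.2, Finset.sum_eq_single (1 : Z)]
    · rw [if_pos ⟨1, T.one_mem, by simp⟩]
      ring
    · intro z _ hz
      rw [if_neg]
      intro h
      exact hz (Subtype.ext (h6 u hu'.1 hu'.2 z z.2 h))
    · intro h
      exact absurd (mem_univ _) h
  rw [Finset.sum_congr rfl e1, Finset.sum_const, nsmul_eq_mul]
  have e2 : ((univ.filter (fun u : G => u ∈ D ∧ u ∉ Z)).card : ℂ) = Nat.card D - Nat.card Z := by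
    have e3 : (univ.filter (fun u : G => u ∈ D ∧ u ∉ Z)).card + (univ.filter
        (fun u : G => u ∈ Z)).card = (univ.filter (fun u : G => u ∈ D)).card := by
      rw [← Finset.card_union_of_disjoint]
      · congr 1
        ext u
        simp only [mem_union, mem_filter, mem_univ, true_and]
        constructor
        · rintro (h | h)
          · exact h.1
          · exact hZD h
        · intro h
          by_cases hz : u ∈ Z
          · exact Or.inr hz
          · exact Or.inl ⟨h, hz⟩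
      · rw [Finset.disjoint_left]
        intro u hu hu2
        exact (mem_filter.1 hu).2.2 (mem_filter.1 hu2).2
    have e4 : ∀ K : Subgroup G, (univ.filter (fun u : G => u ∈ K)).card = Nat.card K := by
      intro K
      rw [Nat.card_eq_fintype_card, Fintype.card_subtype]
    rw [e4, e4] at e3
    rw [← e3]
    push_cast
    ring
  rw [e2]
  have e5 : (Nat.card D : ℂ) = (s * m + 1) * Nat.card Z := by
    rw [← hm]
    push_cast
    ring
  field_simp
  rw [e5]
  ring

end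

end P179H666
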