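import Vale.Agent.P179.R2.H666.Kb3
import Vale.Agent.P179.R2.H854.Cen
import Vale.Agent.P179.R2.H46.ColInt
import Vale.Agent.P179.R2.H12.We

/-!
# The characters of a block with a central subgroup: the complementary projections
-/

namespace P179H666

open Finset P179P P179C P179Y Subgroup P179H524 P179I P179H452 P179H450 P179A

open P179X (pp SameSec IrrB)

open scoped Classical

universe v

set_option linter.unusedSectionVars false

section

variable {p : ℕ} [hp : Fact p.Prime] {k : Type v} [Field k] [CharP k p] {red : AA →+* k}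
  {G : Type} [Group G] [Fintype G] {D : Subgroup G} {l : (G → k) → k}
  {Φ : ∀ H : Subgroup G, Irr H} {aH bH : Subgroup G → ℕ} {ε : Subgroup G → ℤ} {κ₀ : k}
  {Z : Subgroup G} {s m : ℕ} {e : ℤ} {χ : Fin m → Irr G} {r : Irr G → ℤ}

omit hp [CharP k p] in
/-- the orbit of a regular element -/
theorem orbit_card {u : G} (hu : RegT D l u) (huZ : u ∉ Z) (hZc : ∀ z ∈ Z, ∀ x, z * x = x * z) :
    ((univ.filter (fun b : G => b ∈ D ∧ b ∉ Z)).filter
      (fun b => ∃ t ∈ stabT D l, t * u * t⁻¹ = b)).card =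
      (centralizer (D : Set G)).relIndex (stabT D l) := by
  have hCT : centralizer (D : Set G) ≤ stabT D l := cent_le_stabT D l
  rw [← card_cosets (centralizer (D : Set G)) (stabT D l) hCT]
  symm
  have hTN := stabT_le_norm D l
  have hout : ∀ t : G, t ∈ stabT D l → ((t : G ⧸ centralizer (D : Set G)).out ∈ stabT D l ∧
      (t : G ⧸ centralizer (D : Set G)).out * u * (t : G ⧸ centralizer (D : Set G)).out⁻¹ =
        t * u * t⁻¹) := by
    intro t ht
    obtain ⟨c, hc⟩ := QuotientGroup.mk_out_eq_mul (centralizer (D : Set G)) t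
    rw [hc]
    refine ⟨mul_mem ht (hCT c.2), ?_⟩
    have h1 : u * (c : G) = c * u := mem_centralizer_iff.1 c.2 u hu.1
    calc t * c * u * (t * c)⁻¹ = t * (c * u) * (c : G)⁻¹ * t⁻¹ := by group
      _ = t * (u * c) * (c : G)⁻¹ * t⁻¹ := by rw [h1]
      _ = t * u * t⁻¹ := by group
  refine Finset.card_bij (fun c _ => c.out * u * c.out⁻¹) ?_ ?_ ?_
  · intro c hc
    have hc' := (mem_filter.1 hc).2
    refine mem_filter.2 ⟨mem_filter.2 ⟨mem_univ _, (mem_normalizer_iff.1 (hTN hc') u).1 hu.1,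
      fun h => huZ ?_⟩, c.out, hc', rfl⟩
    have h1 := hZc _ h c.out
    have h2 : u = c.out⁻¹ * (c.out * u * c.out⁻¹ * c.out) := by group
    rw [h1] at h2
    rw [h2]
    have h3 : c.out⁻¹ * (c.out * (c.out * u * c.out⁻¹)) = c.out * u * c.out⁻¹ := by group
    rw [h3]
    exact h
  · intro c hc c' hc' heq
    have h1 := (mem_filter.1 hc).2
    have h2 := (mem_filter.1 hc').2
    have heq' : c.out * u * c.out⁻¹ = c'.out * u * c'.out⁻¹ := heq
    have h3 : c'.out⁻¹ * c.out ∈ centralizer (D : Set G) := by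
      refine hu.2 _ (mul_mem (inv_mem h2) h1) ?_
      calc c'.out⁻¹ * c.out * u * (c'.out⁻¹ * c.out)⁻¹ =
          c'.out⁻¹ * (c.out * u * c.out⁻¹) * c'.out := by group
        _ = c'.out⁻¹ * (c'.out * u * c'.out⁻¹) * c'.out := by rw [heq']
        _ = u := by group
    have h4 : (QuotientGroup.mk c'.out : G ⧸ centralizer (D : Set G)) = QuotientGroup.mk c.out :=
      QuotientGroup.eq.2 h3
    rw [QuotientGroup.out_eq', QuotientGroup.out_eq'] at h4
    exact h4.symm
  · intro b hb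
    obtain ⟨t, ht, rfl⟩ := (mem_filter.1 hb).2
    have h1 := hout t ht
    exact ⟨(t : G ⧸ centralizer (D : Set G)), mem_filter.2 ⟨mem_univ _, h1.1⟩, h1.2⟩

/-- an element is not conjugate to a different element of its coset modulo `Z` -/
theorem z_eq_one (hD : IsPGroup p D) (hZD : Z ≤ D) (hZc : ∀ z ∈ Z, ∀ x, z * x = x * z)
    (hT : ¬ p ∣ (centralizer (D : Set G)).relIndex (stabT D l)) {u : G} (hu : u ∈ D) {z : G}
    (hz : z ∈ Z) (h : ∃ t ∈ stabT D l, t * u * t⁻¹ = z * u) : z = 1 := by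
  obtain ⟨t, ht, htu⟩ := h
  set n := (centralizer (D : Set G)).relIndex (stabT D l) with hn
  have h1 : t ^ n ∈ centralizer (D : Set G) := by
    have hnorm : ((centralizer (D : Set G)).subgroupOf (stabT D l)).Normal :=
      P179H12.cent_normal_stabT
    have h2 := Subgroup.pow_index_mem ((centralizer (D : Set G)).subgroupOf (stabT D l)) ⟨t, ht⟩
    exact h2
  have h2 : ∀ i : ℕ, t ^ i * u * (t ^ i)⁻¹ = z ^ i * u := by
    intro i
    induction i with
    | zero => simp
    | succ i ih =>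
      have e1 : t ^ (i + 1) * u * (t ^ (i + 1))⁻¹ = t * (t ^ i * u * (t ^ i)⁻¹) * t⁻¹ := by
        rw [pow_succ']
        group
      have e2 : z ^ i ∈ Z := pow_mem hz i
      rw [e1, ih]
      calc t * (z ^ i * u) * t⁻¹ = t * z ^ i * u * t⁻¹ := by group
        _ = z ^ i * t * u * t⁻¹ := by rw [hZc _ e2 t]
        _ = z ^ i * (t * u * t⁻¹) := by group
        _ = z ^ i * (z * u) := by rw [htu]
        _ = z ^ (i + 1) * u := by rw [pow_succ]; group
  have h3 : z ^ n = 1 := by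
    have h4 := h2 n
    have h5 : u * t ^ n = t ^ n * u := mem_centralizer_iff.1 h1 u hu
    rw [← h5] at h4
    have h6 : u * t ^ n * (t ^ n)⁻¹ = u := by group
    rw [h6] at h4
    exact (mul_eq_right.1 h4.symm)
  obtain ⟨a, ha⟩ := hD ⟨z, hZD hz⟩
  have h4 : z ^ p ^ a = 1 := by simpa using congrArg Subtype.val ha
  have h5 : orderOf z ∣ Nat.gcd n (p ^ a) :=
    Nat.dvd_gcd (orderOf_dvd_of_pow_eq_one h3) (orderOf_dvd_of_pow_eq_one h4)
  have h6 : Nat.gcd n (p ^ a) = 1 :=
    Nat.Coprime.pow_right a ((Nat.Prime.coprime_iff_not_dvd hp.out).2 hT).symm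
  rw [h6, Nat.dvd_one, orderOf_eq_one_iff] at h5
  exact h5

/-- the second orthogonality relation of the block -/
theorem hsec_of [IsAlgClosed k] {B : MonoidAlgebra k G} (hB : IsBlock B)
    (hlz : ∀ z : G → k, IsCF z → l z = centralChar B (mkF z)) (x y : G)
    (hxy : ¬ SameSec p x y) :
    ∑ χ : Irr G, (if InL red l χ.1 then χ.1 x * χ.1 y⁻¹ else 0) = 0 := by
  have h1 := sec_orth p red B x y hxy
  rw [sum_IrrB red B (fun χ => χ x * χ y⁻¹)] at h1
  refine Eq.trans ?_ h1
  exact Finset.sum_congr rfl fun χ _ => if_congr (inL_iff red hB hlz χ) rfl rfl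

/-- the rank -/
theorem exists_rank [IsAlgClosed k] {B : MonoidAlgebra k G} (hB : IsBlock B)
    (hlz : ∀ z : G → k, IsCF z → l z = centralChar B (mkF z))
    (hZ : ∀ z ∈ Z, ∀ x, z * x = x * z) (hZp : IsPGroup p Z) :
    ∃ r₀ : ℕ, numSimpleIn B ≤ r₀ ∧ ∑ ψ ∈ XL red l Z 1, qf p Z ψ ψ = r₀ := by
  have hG0 : (Nat.card G : ℂ) ≠ 0 := by exact_mod_cast Nat.card_pos.ne'
  obtain ⟨r₀, h1, h2⟩ := P179P.N3 p red hB (fun x y hxy => sec_orth p red B x y hxy)
  refine ⟨r₀, h1, ?_⟩
  apply mul_left_cancel₀ hG0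
  rw [qf_trace red l Z hZ hZp (hsec_of hB hlz), mul_comm, h2, rsum_eq]
  refine Finset.sum_congr rfl fun t _ => ?_
  rw [sum_IrrB red B (fun χ => χ t * χ t⁻¹)]
  exact Finset.sum_congr rfl fun χ _ => if_congr (inL_iff red hB hlz χ) rfl rfl

end

end P179H666
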