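import Vale.Agent.P179.R2.H92.RegFth
import Vale.Agent.P179.R2.H351.Foc

/-!
# Direct factors of abelian `p`-groups and the number of small cyclic factors
-/

namespace P179H666

open Subgroup P179H292 P179H92 P179H351

section Dec

variable {G : Type*} [Group G]

/-- `D` is the direct product of `C` and `K` -/
structure Dec (D C K : Subgroup G) : Prop where
  leC : C ≤ D
  leK : K ≤ D
  bot : ∀ x ∈ C, x ∈ K → x = 1
  mul : ∀ d ∈ D, ∃ c ∈ C, ∃ k ∈ K, d = c * k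

variable {D C K : Subgroup G}

theorem Dec.uniq (h : Dec D C K) {c c' k k' : G} (hc : c ∈ C) (hc' : c' ∈ C) (hk : k ∈ K)
    (hk' : k' ∈ K) (e : c * k = c' * k') : c = c' ∧ k = k' := by
  have h1 : c'⁻¹ * c = k' * k⁻¹ := by
    rw [inv_mul_eq_iff_eq_mul, ← mul_assoc, ← e, mul_inv_cancel_right]
  have h2 : c'⁻¹ * c = 1 := h.bot _ (mul_mem (inv_mem hc') hc) (by
    rw [h1]; exact mul_mem hk' (inv_mem hk))
  have h3 : c = c' := (inv_mul_eq_one.1 h2).symm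
  refine ⟨h3, ?_⟩
  rw [h3] at e
  exact mul_left_cancel e

/-- the number of the elements whose components satisfy given conditions -/
theorem Dec.card_eq (h : Dec D C K) {P PC PK : G → Prop} (h1 : ∀ x, PC x → x ∈ C)
    (h2 : ∀ x, PK x → x ∈ K) (h3 : ∀ c k, PC c → PK k → P (c * k))
    (h4 : ∀ x, P x → ∃ c k, PC c ∧ PK k ∧ x = c * k) :
    Nat.card {x // P x} = Nat.card {x // PC x} * Nat.card {x // PK x} := by
  rw [← Nat.card_prod]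
  symm
  refine Nat.card_congr (Equiv.ofBijective
    (fun y : {x // PC x} × {x // PK x} => (⟨y.1.1 * y.2.1, h3 _ _ y.1.2 y.2.2⟩ : {x // P x}))
    ⟨?_, ?_⟩)
  · intro y y' e
    have e1 : y.1.1 * y.2.1 = y'.1.1 * y'.2.1 := congrArg Subtype.val e
    obtain ⟨e2, e3⟩ := h.uniq (h1 _ y.1.2) (h1 _ y'.1.2) (h2 _ y.2.2) (h2 _ y'.2.2) e1
    exact Prod.ext (Subtype.ext e2) (Subtype.ext e3)
  · rintro ⟨x, hx⟩
    obtain ⟨c, k, hc, hk, rfl⟩ := h4 x hx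
    exact ⟨(⟨c, hc⟩, ⟨k, hk⟩), rfl⟩

theorem Dec.card_le [Finite G] (h : Dec D C K) {P PC PK : G → Prop} (h1 : ∀ x, PC x → x ∈ C)
    (h2 : ∀ x, PK x → x ∈ K) (h3 : ∀ c k, PC c → PK k → P (c * k)) :
    Nat.card {x // PC x} * Nat.card {x // PK x} ≤ Nat.card {x // P x} := by
  rw [← Nat.card_prod]
  refine Nat.card_le_card_of_injective
    (fun y : {x // PC x} × {x // PK x} => (⟨y.1.1 * y.2.1, h3 _ _ y.1.2 y.2.2⟩ : {x // P x})) ?_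
  intro y y' e
  have e1 : y.1.1 * y.2.1 = y'.1.1 * y'.2.1 := congrArg Subtype.val e
  obtain ⟨e2, e3⟩ := h.uniq (h1 _ y.1.2) (h1 _ y'.1.2) (h2 _ y.2.2) (h2 _ y'.2.2) e1
  exact Prod.ext (Subtype.ext e2) (Subtype.ext e3)

theorem Dec.card (h : Dec D C K) : Nat.card D = Nat.card C * Nat.card K :=
  h.card_eq (P := fun x => x ∈ D) (PC := fun x => x ∈ C) (PK := fun x => x ∈ K) (fun _ hx => hx)
    (fun _ hx => hx) (fun _ _ hc hk => mul_mem (h.leC hc) (h.leK hk))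
    (fun x hx => by
      obtain ⟨c, hc, k, hk, e⟩ := h.mul x hx
      exact ⟨c, k, hc, hk, e⟩)

theorem Dec.pow (h : Dec D C K) (hab : ∀ a ∈ D, ∀ b ∈ D, a * b = b * a) {c k : G} (hc : c ∈ C)
    (hk : k ∈ K) (q : ℕ) : (c * k) ^ q = c ^ q * k ^ q :=
  Commute.mul_pow (hab c (h.leC hc) k (h.leK hk)) q

theorem Dec.card_om (h : Dec D C K) (hab : ∀ a ∈ D, ∀ b ∈ D, a * b = b * a) (q : ℕ) :
    Nat.card {x : G // x ∈ D ∧ x ^ q = 1} =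
      Nat.card {x : G // x ∈ C ∧ x ^ q = 1} * Nat.card {x : G // x ∈ K ∧ x ^ q = 1} := by
  refine h.card_eq (fun _ hx => hx.1) (fun _ hx => hx.1) (fun c k hc hk => ⟨mul_mem (h.leC hc.1)
    (h.leK hk.1), ?_⟩) ?_
  · rw [h.pow hab hc.1 hk.1, hc.2, hk.2, one_mul]
  · rintro x ⟨hx, hxq⟩
    obtain ⟨c, hc, k, hk, rfl⟩ := h.mul x hx
    rw [h.pow hab hc hk] at hxq
    obtain ⟨e1, e2⟩ := h.uniq (pow_mem hc q) (one_mem _) (pow_mem hk q) (one_mem _)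
      (hxq.trans (one_mul 1).symm)
    exact ⟨c, k, ⟨hc, e1⟩, ⟨hk, e2⟩, rfl⟩

theorem Dec.card_omP (h : Dec D C K) (hab : ∀ a ∈ D, ∀ b ∈ D, a * b = b * a) (q q' : ℕ) :
    Nat.card {x : G // (x ∈ D ∧ x ^ q = 1) ∧ ∃ y ∈ D, y ^ q' = x} =
      Nat.card {x : G // (x ∈ C ∧ x ^ q = 1) ∧ ∃ y ∈ C, y ^ q' = x} *
        Nat.card {x : G // (x ∈ K ∧ x ^ q = 1) ∧ ∃ y ∈ K, y ^ q' = x} := by
  refine h.card_eq (fun _ hx => hx.1.1) (fun _ hx => hx.1.1) ?_ ?_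
  · rintro c k ⟨⟨hc, hcq⟩, y, hy, hyc⟩ ⟨⟨hk, hkq⟩, z, hz, hzk⟩
    refine ⟨⟨mul_mem (h.leC hc) (h.leK hk), ?_⟩, y * z, mul_mem (h.leC hy) (h.leK hz), ?_⟩
    · rw [h.pow hab hc hk, hcq, hkq, one_mul]
    · rw [h.pow hab hy hz, hyc, hzk]
  · rintro x ⟨⟨hx, hxq⟩, y, hy, rfl⟩
    obtain ⟨c, hc, k, hk, rfl⟩ := h.mul y hy
    rw [h.pow hab hc hk, h.pow hab (pow_mem hc _) (pow_mem hk _)] at hxq
    obtain ⟨e1, e2⟩ := h.uniq (pow_mem (pow_mem hc _) q) (one_mem _) (pow_mem (pow_mem hk _) q)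
      (one_mem _) (hxq.trans (one_mul 1).symm)
    exact ⟨c ^ q', k ^ q', ⟨⟨pow_mem hc _, e1⟩, c, hc, rfl⟩, ⟨⟨pow_mem hk _, e2⟩, k, hk, rfl⟩,
      h.pow hab hc hk q'⟩

/-- The abelian `p`-group `D` is a direct product of at most `r` cyclic groups `≠ 1`, of which at
most two have order less than `p ^ n` and at most one has order `p`. -/
def TwoSmall (p r n : ℕ) (D : Subgroup G) : Prop :=
  Nat.card {x : G // x ∈ D ∧ x ^ p = 1} ≤ p ^ r ∧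
  Nat.card {x : G // x ∈ D ∧ x ^ p = 1} ≤
    p ^ 2 * Nat.card {x : G // (x ∈ D ∧ x ^ p = 1) ∧ ∃ y ∈ D, y ^ p ^ (n - 1) = x} ∧
  Nat.card {x : G // x ∈ D ∧ x ^ p = 1} ≤
    p * Nat.card {x : G // (x ∈ D ∧ x ^ p = 1) ∧ ∃ y ∈ D, y ^ p = x}

theorem Dec.small [Finite G] (h : Dec D C K) (hab : ∀ a ∈ D, ∀ b ∈ D, a * b = b * a)
    {p q c : ℕ} (hD : Nat.card {x : G // x ∈ D ∧ x ^ p = 1} ≤
      c * Nat.card {x : G // (x ∈ D ∧ x ^ p = 1) ∧ ∃ y ∈ D, y ^ q = x}) :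
    Nat.card {x : G // x ∈ K ∧ x ^ p = 1} ≤
      c * Nat.card {x : G // (x ∈ K ∧ x ^ p = 1) ∧ ∃ y ∈ K, y ^ q = x} := by
  rw [h.card_om hab, h.card_omP hab] at hD
  have h1 : Nat.card {x : G // (x ∈ C ∧ x ^ p = 1) ∧ ∃ y ∈ C, y ^ q = x} ≤
      Nat.card {x : G // x ∈ C ∧ x ^ p = 1} :=
    Nat.card_le_card_of_injective
      (fun x : {x : G // (x ∈ C ∧ x ^ p = 1) ∧ ∃ y ∈ C, y ^ q = x} =>
        (⟨x.1, x.2.1⟩ : {x : G // x ∈ C ∧ x ^ p = 1}))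
      (fun x y e => Subtype.ext (congrArg (fun z : {x : G // x ∈ C ∧ x ^ p = 1} => z.1) e))
  have h2 : 0 < Nat.card {x : G // x ∈ C ∧ x ^ p = 1} := by
    have : Nonempty {x : G // x ∈ C ∧ x ^ p = 1} := ⟨⟨1, one_mem _, one_pow _⟩⟩
    exact Nat.card_pos
  refine Nat.le_of_mul_le_mul_left ?_ h2
  refine hD.trans ?_
  calc c * (Nat.card {x : G // (x ∈ C ∧ x ^ p = 1) ∧ ∃ y ∈ C, y ^ q = x} *
        Nat.card {x : G // (x ∈ K ∧ x ^ p = 1) ∧ ∃ y ∈ K, y ^ q = x}) ≤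
      c * (Nat.card {x : G // x ∈ C ∧ x ^ p = 1} *
        Nat.card {x : G // (x ∈ K ∧ x ^ p = 1) ∧ ∃ y ∈ K, y ^ q = x}) :=
        Nat.mul_le_mul_left _ (Nat.mul_le_mul_right _ h1)
    _ = _ := by ring

/-- **(T1)** direct factors -/
theorem TwoSmall.factor [Finite G] (h : Dec D C K) (hab : ∀ a ∈ D, ∀ b ∈ D, a * b = b * a)
    {p r n : ℕ} (hD : TwoSmall p r n D) : TwoSmall p r n K := by
  refine ⟨?_, h.small hab hD.2.1, h.small hab hD.2.2⟩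
  refine le_trans ?_ hD.1
  exact Nat.card_le_card_of_injective
    (fun x : {x : G // x ∈ K ∧ x ^ p = 1} =>
      (⟨x.1, h.leK x.2.1, x.2.2⟩ : {x : G // x ∈ D ∧ x ^ p = 1}))
    (fun x y e => Subtype.ext (congrArg (fun z : {x : G // x ∈ D ∧ x ^ p = 1} => z.1) e))

/-- the decomposition of `D` under a group of order prime to `p` -/
theorem dec_fitting [Finite G] {p : ℕ} [hp : Fact p.Prime] {F : Subgroup G} (hD : IsPGroup p D)
    (hab : ∀ a ∈ D, ∀ b ∈ D, a * b = b * a) (hFD : ∀ t ∈ F, ∀ d ∈ D, t * d * t⁻¹ ∈ D)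
    (hi : ¬ p ∣ (centralizer (D : Set G)).relIndex F) : Dec D (fixD D F) (focal D F) := by
  obtain ⟨h1, h2⟩ := fitting hD hab hFD hi
  exact ⟨fun x hx => (mem_fixD.1 hx).1, focal_le hFD, h1, h2⟩

/-- the commutator group with a group centralising the `q`-th powers has exponent `q` -/
theorem focal_pow {F : Subgroup G} (hab : ∀ a ∈ D, ∀ b ∈ D, a * b = b * a)
    (hFD : ∀ t ∈ F, ∀ d ∈ D, t * d * t⁻¹ ∈ D) {q : ℕ}
    (hq : ∀ t ∈ F, ∀ d ∈ D, t * d ^ q * t⁻¹ = d ^ q) {x : G} (hx : x ∈ focal D F) : x ^ q = 1 := by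
  have hle : focal D F ≤ omS hab q := by
    rw [focal, closure_le]
    rintro x ⟨t, ht, d, hd, rfl⟩
    refine ⟨mul_mem (hFD t ht d hd) (inv_mem hd), ?_⟩
    have hc : Commute (t * d * t⁻¹) d⁻¹ := hab _ (hFD t ht d hd) _ (inv_mem hd)
    rw [hc.mul_pow, inv_pow, conj_pow, hq t ht d hd, mul_inv_cancel]
  exact (hle hx).2

end Dec

end P179H666
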