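import Vale.Agent.P179.R2.H666.Thr1

/-!
# Peeling off the small factors, and regular elements
-/

namespace P179H666

open Subgroup P179H292 P179H92 P179H351

section Peel

variable {G : Type*} [Group G] {D R K T : Subgroup G}

/-- components of the commutator with `t` -/
theorem Dec.comm (h : Dec D R K) (hab : ∀ a ∈ D, ∀ b ∈ D, a * b = b * a)
    (hTR : ∀ t ∈ T, ∀ x ∈ R, t * x * t⁻¹ ∈ R) (hTK : ∀ t ∈ T, ∀ x ∈ K, t * x * t⁻¹ ∈ K)
    {t wR wK a b : G} (ht : t ∈ T) (hwR : wR ∈ R) (hwK : wK ∈ K) (ha : a ∈ R) (hb : b ∈ K)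
    (e : t * (wR * wK) * t⁻¹ * (wR * wK)⁻¹ = a * b) :
    t * wR * t⁻¹ * wR⁻¹ = a ∧ t * wK * t⁻¹ * wK⁻¹ = b := by
  have h1 := hTR t ht wR hwR
  have h2 := hTK t ht wK hwK
  have h3 : t * (wR * wK) * t⁻¹ * (wR * wK)⁻¹ =
      (t * wR * t⁻¹ * wR⁻¹) * (t * wK * t⁻¹ * wK⁻¹) := by
    have e1 : t * (wR * wK) * t⁻¹ * (wR * wK)⁻¹ =
        t * wR * t⁻¹ * ((t * wK * t⁻¹ * wK⁻¹) * wR⁻¹) := by group
    rw [e1, hab _ (h.leK (mul_mem h2 (inv_mem hwK))) _ (h.leC (inv_mem hwR))]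
    group
  rw [h3] at e
  exact h.uniq (mul_mem h1 (inv_mem hwR)) ha (mul_mem h2 (inv_mem hwK)) hb e

theorem Dec.mem_cent (h : Dec D R K) {t : G} (h1 : t ∈ centralizer (R : Set G))
    (h2 : t ∈ centralizer (K : Set G)) : t ∈ centralizer (D : Set G) := by
  rw [mem_centralizer_iff] at h1 h2 ⊢
  intro d hd
  obtain ⟨c, hc, k, hk, rfl⟩ := h.mul d hd
  rw [mul_assoc, h2 k hk, ← mul_assoc, h1 c hc, mul_assoc]

/-- regular elements modulo the `q`-th powers -/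
theorem Dec.reg_mod (h : Dec D R K) (hab : ∀ a ∈ D, ∀ b ∈ D, a * b = b * a)
    (hTR : ∀ t ∈ T, ∀ x ∈ R, t * x * t⁻¹ ∈ R) (hTK : ∀ t ∈ T, ∀ x ∈ K, t * x * t⁻¹ ∈ K) {q : ℕ}
    {wR wK : G} (hwR : wR ∈ R) (hwK : wK ∈ K)
    (h1 : ∀ t ∈ T, (∃ d ∈ R, t * wR * t⁻¹ * wR⁻¹ = d ^ q) → t ∈ centralizer (R : Set G))
    (h2 : ∀ t ∈ T ⊓ centralizer (R : Set G), (∃ d ∈ K, t * wK * t⁻¹ * wK⁻¹ = d ^ q) →
      t ∈ centralizer (K : Set G)) :
    ∀ t ∈ T, (∃ d ∈ D, t * (wR * wK) * t⁻¹ * (wR * wK)⁻¹ = d ^ q) →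
      t ∈ centralizer (D : Set G) := by
  rintro t ht ⟨d, hd, e⟩
  obtain ⟨c, hc, k, hk, rfl⟩ := h.mul d hd
  rw [h.pow hab hc hk] at e
  obtain ⟨e1, e2⟩ := h.comm hab hTR hTK ht hwR hwK (pow_mem hc q) (pow_mem hk q) e
  have h3 := h1 t ht ⟨c, hc, e1⟩
  exact h.mem_cent h3 (h2 t ⟨ht, h3⟩ ⟨k, hk, e2⟩)

/-- regular elements -/
theorem Dec.reg (h : Dec D R K) (hab : ∀ a ∈ D, ∀ b ∈ D, a * b = b * a)
    (hTR : ∀ t ∈ T, ∀ x ∈ R, t * x * t⁻¹ ∈ R) (hTK : ∀ t ∈ T, ∀ x ∈ K, t * x * t⁻¹ ∈ K)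
    {wR wK : G} (hwR : wR ∈ R) (hwK : wK ∈ K)
    (h1 : ∀ t ∈ T, t * wR * t⁻¹ = wR → t ∈ centralizer (R : Set G))
    (h2 : ∀ t ∈ T ⊓ centralizer (R : Set G), t * wK * t⁻¹ = wK → t ∈ centralizer (K : Set G)) :
    ∀ t ∈ T, t * (wR * wK) * t⁻¹ = wR * wK → t ∈ centralizer (D : Set G) := by
  intro t ht e
  obtain ⟨e1, e2⟩ := h.comm hab hTR hTK ht hwR hwK (one_mem R) (one_mem K)
    (by rw [e, mul_inv_cancel, one_mul])
  have h3 := h1 t ht (mul_inv_eq_one.1 e1)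
  exact h.mem_cent h3 (h2 t ⟨ht, h3⟩ (mul_inv_eq_one.1 e2))

/-- the index is multiplicative -/
theorem Dec.relIndex (h : Dec D R K) : (centralizer (D : Set G)).relIndex T =
    (centralizer (K : Set G)).relIndex (T ⊓ centralizer (R : Set G)) *
      (centralizer (R : Set G)).relIndex T := by
  have e1 : centralizer (D : Set G) ⊓ T ≤ T ⊓ centralizer (R : Set G) := fun t ht =>
    ⟨ht.2, centralizer_le h.leC ht.1⟩
  have e2 := relIndex_mul_relIndex (centralizer (D : Set G) ⊓ T) (T ⊓ centralizer (R : Set G)) T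
    e1 inf_le_left
  rw [inf_relIndex_right] at e2
  rw [← e2]
  congr 1
  · rw [← inf_relIndex_right (centralizer (D : Set G) ⊓ T),
      ← inf_relIndex_right (centralizer (K : Set G))]
    congr 1
    ext t
    constructor
    · rintro ⟨⟨h1, h2⟩, h3⟩
      exact ⟨centralizer_le h.leK h1, h3⟩
    · rintro ⟨h1, h2⟩
      exact ⟨⟨h.mem_cent h2.2 h1, h2.1⟩, h2⟩
  · rw [inf_comm, inf_relIndex_right]

/-- **peeling**: `R` contains the `p ^ m`-th powers of `D`, on which `T` acts faithfully modulo the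
centraliser of `R` -/
theorem exists_peel [Finite G] {p : ℕ} [hp : Fact p.Prime] (hD : IsPGroup p D)
    (hab : ∀ a ∈ D, ∀ b ∈ D, a * b = b * a) (hTN : T ≤ normalizer (D : Set G))
    (hT : ¬ p ∣ (centralizer (D : Set G)).relIndex T) (m : ℕ) :
    ∃ R K : Subgroup G, Dec D R K ∧ (∀ t ∈ T, ∀ x ∈ R, t * x * t⁻¹ ∈ R) ∧
      (∀ t ∈ T, ∀ x ∈ K, t * x * t⁻¹ ∈ K) ∧
      (∀ x, (∃ d ∈ D, d ^ p ^ m = x) ↔ ∃ d ∈ R, d ^ p ^ m = x) ∧ (∀ x ∈ K, x ^ p ^ m = 1) ∧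
      (∀ g ∈ T, (∀ d ∈ R, g * d ^ p ^ m * g⁻¹ = d ^ p ^ m) → g ∈ centralizer (R : Set G)) := by
  set F : Subgroup G := T ⊓ centralizer ((pwS hab (p ^ m) : Subgroup G) : Set G) with hF
  have hFT : F ≤ T := inf_le_left
  have hFD : ∀ t ∈ F, ∀ d ∈ D, t * d * t⁻¹ ∈ D := fun t ht d hd =>
    (mem_normalizer_iff.1 (hTN (hFT ht)) d).1 hd
  have hi : ¬ p ∣ (centralizer (D : Set G)).relIndex F := fun h =>
    hT (h.trans (relIndex_dvd hTN hFT))
  have hdec := dec_fitting hD hab hFD hi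
  have hFq : ∀ t ∈ F, ∀ d ∈ D, t * d ^ p ^ m * t⁻¹ = d ^ p ^ m := by
    intro t ht d hd
    have h1 := mem_centralizer_iff.1 ht.2 (d ^ p ^ m) ⟨d, hd, rfl⟩
    rw [mul_inv_eq_iff_eq_mul]
    exact h1.symm
  have hK1 : ∀ x ∈ focal D F, x ^ p ^ m = 1 := fun x hx => focal_pow hab hFD hFq hx
  -- `F` is normalised by `T`
  have hnF : ∀ t ∈ T, ∀ f ∈ F, t * f * t⁻¹ ∈ F := by
    intro t ht f hf
    refine mem_inf.2 ⟨T.mul_mem (T.mul_mem ht (hFT hf)) (T.inv_mem ht), mem_centralizer_iff.2 ?_⟩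
    rintro _ ⟨d, hd, rfl⟩
    have h1 : t⁻¹ * d * t⁻¹⁻¹ ∈ D := (mem_normalizer_iff.1 (hTN (inv_mem ht)) d).1 hd
    have h2 := mem_centralizer_iff.1 hf.2 ((t⁻¹ * d * t⁻¹⁻¹) ^ p ^ m) ⟨_, h1, rfl⟩
    rw [conj_pow] at h2
    have h3 : d ^ p ^ m * (t * f * t⁻¹) = t * ((t⁻¹ * d ^ p ^ m * t⁻¹⁻¹) * f) * t⁻¹ := by group
    rw [h3, h2]
    group
  refine ⟨fixD D F, focal D F, hdec, ?_, ?_, ?_, hK1, ?_⟩
  · intro t ht x hx
    rw [mem_fixD] at hx ⊢
    refine ⟨(mem_normalizer_iff.1 (hTN ht) x).1 hx.1, fun f hf => ?_⟩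
    have h1 := hnF t⁻¹ (inv_mem ht) f hf
    have h2 := hx.2 _ h1
    have h3 : f * (t * x * t⁻¹) * f⁻¹ = t * ((t⁻¹ * f * t⁻¹⁻¹) * x * (t⁻¹ * f * t⁻¹⁻¹)⁻¹) * t⁻¹ := by
      group
    rw [h3, h2]
  · intro t ht
    have h1 : focal D F ≤ (focal D F).comap (MulAut.conj t).toMonoidHom := by
      conv_lhs => rw [focal]
      rw [closure_le]
      rintro _ ⟨f, hf, d, hd, rfl⟩
      refine subset_closure ⟨t * f * t⁻¹, hnF t ht f hf, t * d * t⁻¹,
        (mem_normalizer_iff.1 (hTN ht) d).1 hd, ?_⟩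
      change t * (f * d * f⁻¹ * d⁻¹) * t⁻¹ = _
      group
    exact fun x hx => h1 hx
  · intro x
    constructor
    · rintro ⟨d, hd, rfl⟩
      obtain ⟨c, hc, k, hk, rfl⟩ := hdec.mul d hd
      exact ⟨c, hc, by rw [hdec.pow hab hc hk, hK1 k hk, mul_one]⟩
    · rintro ⟨d, hd, rfl⟩
      exact ⟨d, hdec.leC hd, rfl⟩
  · intro g hg h1
    have hgF : g ∈ F := by
      refine mem_inf.2 ⟨hg, mem_centralizer_iff.2 ?_⟩
      rintro _ ⟨d, hd, rfl⟩
      obtain ⟨c, hc, k, hk, rfl⟩ := hdec.mul d hd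
      have h2 := h1 c hc
      rw [hdec.pow hab hc hk, hK1 k hk, mul_one]
      rw [mul_inv_eq_iff_eq_mul] at h2
      exact h2.symm
    rw [mem_centralizer_iff]
    intro x hx
    have h2 := (mem_fixD.1 hx).2 g hgF
    rw [mul_inv_eq_iff_eq_mul] at h2
    exact h2.symm

end Peel

section Card

variable {G : Type*} [Group G] [Finite G] {D S : Subgroup G}

/-- the number of the elements of order dividing `p` is a power of `p` -/
theorem card_om_pow {p : ℕ} [hp : Fact p.Prime] (hD : IsPGroup p D)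
    (hab : ∀ a ∈ D, ∀ b ∈ D, a * b = b * a) : ∃ r : ℕ, Nat.card {x : G // x ∈ D ∧ x ^ p = 1} = p ^ r := by
  have h1 : IsPGroup p (omS hab p) := hD.to_le fun x hx => hx.1
  obtain ⟨r, hr⟩ := IsPGroup.iff_card.1 h1
  exact ⟨r, hr⟩

theorem card_omP_pow {p : ℕ} [hp : Fact p.Prime] (hD : IsPGroup p D)
    (hab : ∀ a ∈ D, ∀ b ∈ D, a * b = b * a) (q : ℕ) :
    ∃ r : ℕ, Nat.card {x : G // (x ∈ D ∧ x ^ p = 1) ∧ ∃ y ∈ D, y ^ q = x} = p ^ r := by
  have h1 : IsPGroup p (omS hab p ⊓ pwS hab q : Subgroup G) := hD.to_le fun x hx => hx.1.1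
  obtain ⟨r, hr⟩ := IsPGroup.iff_card.1 h1
  exact ⟨r, hr⟩

/-- rank at most one -/
theorem exists_reg_one {p : ℕ} [hp : Fact p.Prime] (hD : IsPGroup p D)
    (hab : ∀ a ∈ D, ∀ b ∈ D, a * b = b * a) (hS : S ≤ normalizer (D : Set G))
    (hT : ¬ p ∣ (centralizer (D : Set G)).relIndex S)
    (hr : Nat.card {x : G // x ∈ D ∧ x ^ p = 1} ≤ p) :
    ∃ w ∈ D, ∀ t ∈ S, t * w * t⁻¹ * w⁻¹ ∈ pwS hab (p ^ 1) → t ∈ centralizer (D : Set G) := by
  obtain ⟨r, hr'⟩ := card_om_pow hD hab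
  rw [hr'] at hr
  have hr1 : r ≤ 1 := by
    by_contra hcon
    have h1 : p ^ 1 < p ^ r := Nat.pow_lt_pow_right hp.out.one_lt (by omega)
    rw [pow_one] at h1
    omega
  rcases Nat.eq_zero_or_pos r with h0 | h0
  · -- `D = 1`
    subst h0
    refine ⟨1, one_mem _, fun t _ _ => ?_⟩
    rw [mem_centralizer_iff]
    intro d hd
    have hd1 : d = 1 := by
      by_contra hne
      obtain ⟨a, ha⟩ := IsPGroup.iff_orderOf.1 hD ⟨d, hd⟩
      have ha' : orderOf d = p ^ a := by rw [← ha]; exact (Subgroup.orderOf_mk d hd).symm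
      have ha0 : a ≠ 0 := by
        rintro rfl
        rw [pow_zero, orderOf_eq_one_iff] at ha'
        exact hne ha'
      obtain ⟨b, rfl⟩ := Nat.exists_eq_succ_of_ne_zero ha0
      have h1 : d ^ p ^ b ≠ 1 := by
        intro h2
        have h3 := orderOf_dvd_of_pow_eq_one h2
        rw [ha', Nat.pow_dvd_pow_iff_le_right hp.out.one_lt] at h3
        omega
      have h2 : (d ^ p ^ b) ^ p = 1 := by
        rw [← pow_mul, ← pow_succ]
        have := pow_orderOf_eq_one d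
        rwa [ha'] at this
      rw [pow_zero, Nat.card_eq_one_iff_unique] at hr'
      have h3 := hr'.1.elim (⟨d ^ p ^ b, pow_mem hd _, h2⟩ : {x : G // x ∈ D ∧ x ^ p = 1})
        ⟨1, one_mem _, one_pow _⟩
      exact h1 (congrArg Subtype.val h3)
    rw [hd1, one_mul, mul_one]
  · have h1 : r = 1 := by omega
    subst h1
    obtain ⟨w, hw, -, h⟩ := exists_regW (n := 0) (j := 1) hD hab hS hT le_rfl hr'
      (fun x hx _ => ⟨x, hx, by rw [pow_zero, pow_one]⟩) le_rfl le_rfl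
    exact ⟨w, hw, h⟩

/-- rank at most two, not elementary -/
theorem exists_reg_small {p : ℕ} [hp : Fact p.Prime] (hD : IsPGroup p D)
    (hab : ∀ a ∈ D, ∀ b ∈ D, a * b = b * a) (hS : S ≤ normalizer (D : Set G))
    (hT : ¬ p ∣ (centralizer (D : Set G)).relIndex S)
    (hr : Nat.card {x : G // x ∈ D ∧ x ^ p = 1} ≤ p ^ 2)
    (hr1 : Nat.card {x : G // x ∈ D ∧ x ^ p = 1} ≤
      p * Nat.card {x : G // (x ∈ D ∧ x ^ p = 1) ∧ ∃ y ∈ D, y ^ p = x}) :
    ∃ w ∈ D, ∀ t ∈ S, (∃ d ∈ D, t * w * t⁻¹ * w⁻¹ = d ^ p ^ 2) → t ∈ centralizer (D : Set G) := by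
  obtain ⟨r, hr'⟩ := card_om_pow hD hab
  obtain ⟨s, hs⟩ := card_omP_pow hD hab p
  rw [hr'] at hr hr1
  rw [hs, ← pow_succ'] at hr1
  have hrle : r ≤ 2 := (Nat.pow_le_pow_iff_right hp.out.one_lt).1 hr
  have hrs : r ≤ s + 1 := (Nat.pow_le_pow_iff_right hp.out.one_lt).1 hr1
  by_cases h1 : r ≤ 1
  · obtain ⟨w, hw, h⟩ := exists_reg_one hD hab hS hT (by
      rw [hr']
      calc p ^ r ≤ p ^ 1 := Nat.pow_le_pow_right hp.out.pos h1
        _ = p := pow_one p)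
    refine ⟨w, hw, fun t ht hd => h t ht ?_⟩
    obtain ⟨d, hd, e⟩ := hd
    rw [e]
    exact pwS_mono hab (by omega) ⟨d, hd, rfl⟩
  · have hr2 : r = 2 := by omega
    subst hr2
    by_cases h2 : 2 ≤ s
    · -- all factors have order at least `p ^ 2`
      have hall : ∀ x ∈ D, x ^ p = 1 → ∃ y ∈ D, y ^ p ^ 1 = x := by
        intro x hx hxp
        have h3 : (omS hab p ⊓ pwS hab p : Subgroup G) = omS hab p := by
          refine Subgroup.eq_of_le_of_card_ge inf_le_left ?_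
          have e1 : Nat.card (omS hab p) = p ^ 2 := hr'
          have e2 : Nat.card (omS hab p ⊓ pwS hab p : Subgroup G) = p ^ s := hs
          rw [e1, e2]
          exact Nat.pow_le_pow_right hp.out.pos h2
        have h4 : x ∈ (omS hab p ⊓ pwS hab p : Subgroup G) := by
          rw [h3]
          exact ⟨hx, hxp⟩
        obtain ⟨y, hy, hyx⟩ := h4.2
        exact ⟨y, hy, by rw [pow_one]; exact hyx⟩
      obtain ⟨w, hw, -, h⟩ := exists_regW (n := 1) (j := 2) hD hab hS hT (by norm_num) hr' hall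
        le_rfl le_rfl
      refine ⟨w, hw, fun t ht hd => h t ht ?_⟩
      obtain ⟨d, hd, e⟩ := hd
      exact ⟨d, hd, e.symm⟩
    · have hs1 : s = 1 := by omega
      subst hs1
      obtain ⟨R, K, hdec, hTR, hTK, hpw, hK1, hf⟩ := exists_peel hD hab hS hT 1
      have habR : ∀ a ∈ R, ∀ b ∈ R, a * b = b * a := fun a ha b hb =>
        hab a (hdec.leC ha) b (hdec.leC hb)
      have habK : ∀ a ∈ K, ∀ b ∈ K, a * b = b * a := fun a ha b hb =>
        hab a (hdec.leK ha) b (hdec.leK hb)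
      have hSR : S ≤ normalizer (R : Set G) := by
        intro t ht
        rw [mem_normalizer_iff]
        refine fun x => ⟨fun hx => hTR t ht x hx, fun hx => ?_⟩
        have := hTR t⁻¹ (inv_mem ht) _ hx
        have e : t⁻¹ * (t * x * t⁻¹) * t⁻¹⁻¹ = x := by group
        rwa [e] at this
      have hSK : S ≤ normalizer (K : Set G) := by
        intro t ht
        rw [mem_normalizer_iff]
        refine fun x => ⟨fun hx => hTK t ht x hx, fun hx => ?_⟩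
        have := hTK t⁻¹ (inv_mem ht) _ hx
        have e : t⁻¹ * (t * x * t⁻¹) * t⁻¹⁻¹ = x := by group
        rwa [e] at this
      have hidx := hdec.relIndex (T := S)
      have hTR' : ¬ p ∣ (centralizer (R : Set G)).relIndex S := fun h =>
        hT (hidx ▸ h.mul_left _)
      have hTK' : ¬ p ∣ (centralizer (K : Set G)).relIndex (S ⊓ centralizer (R : Set G)) := fun h =>
        hT (hidx ▸ h.mul_right _)
      have hcR : Nat.card {x // (∃ d ∈ R, d ^ p ^ 1 = x) ∧ x ^ p = 1} = p ^ 1 := by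
        refine (Nat.card_congr (Equiv.subtypeEquivRight fun x => ?_)).trans hs
        constructor
        · rintro ⟨⟨d, hd, rfl⟩, hx⟩
          rw [pow_one] at hx ⊢
          exact ⟨⟨pow_mem (hdec.leC hd) _, hx⟩, d, hdec.leC hd, rfl⟩
        · rintro ⟨⟨-, hx⟩, y, hy, rfl⟩
          refine ⟨(hpw _).1 ⟨y, hy, by rw [pow_one]⟩, hx⟩
      obtain ⟨wR, hwR, -, hregR⟩ := exists_regF (m := 1) (s := 1) (j := 2) (hD.to_le hdec.leC) habR
        hSR hTR' le_rfl hcR hf (by norm_num) le_rfl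
      -- the small part
      have hcK : Nat.card {x : G // x ∈ K ∧ x ^ p = 1} ≤ p := by
        have h3 := hdec.card_om hab p
        rw [hr'] at h3
        have h4 : p ≤ Nat.card {x : G // x ∈ R ∧ x ^ p = 1} := by
          calc p = p ^ 1 := (pow_one p).symm
            _ = Nat.card {x // (∃ d ∈ R, d ^ p ^ 1 = x) ∧ x ^ p = 1} := hcR.symm
            _ ≤ _ := Nat.card_le_card_of_injective
              (fun x : {x // (∃ d ∈ R, d ^ p ^ 1 = x) ∧ x ^ p = 1} =>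
                (⟨x.1, by
                  obtain ⟨d, hd, e⟩ := x.2.1
                  rw [← e]
                  exact pow_mem hd _, x.2.2⟩ : {x : G // x ∈ R ∧ x ^ p = 1}))
              (fun x y e => Subtype.ext (congrArg (fun z : {x : G // x ∈ R ∧ x ^ p = 1} => z.1) e))
        refine Nat.le_of_mul_le_mul_left ?_ hp.out.pos
        calc p * Nat.card {x : G // x ∈ K ∧ x ^ p = 1}
            ≤ Nat.card {x : G // x ∈ R ∧ x ^ p = 1} * Nat.card {x : G // x ∈ K ∧ x ^ p = 1} :=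
              Nat.mul_le_mul_right _ h4
          _ = p ^ 2 := h3.symm
          _ = p * p := sq p
      obtain ⟨wK, hwK, hregK⟩ := exists_reg_one (S := S ⊓ centralizer (R : Set G))
        (hD.to_le hdec.leK) habK (inf_le_left.trans hSK) hTK' hcK
      refine ⟨wR * wK, mul_mem (hdec.leC hwR) (hdec.leK hwK),
        hdec.reg_mod hab hTR hTK hwR hwK hregR fun t ht hd => hregK t ht ?_⟩
      obtain ⟨d, hd, e⟩ := hd
      rw [e]
      exact pwS_mono habK (by omega) ⟨d, hd, rfl⟩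

end Card

end P179H666
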