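import Vale.Agent.P179.R2.H666.Thr2
import Vale.Agent.P179.R2.H843.Eee

/-!
# Regular cosets when at most two cyclic factors are small
-/

namespace P179H666

open Subgroup P179H292 P179H92 P179H351

section Count

variable {G : Type*} [Group G] [Finite G] {D S : Subgroup G}

/-- the orbit of an element which is regular modulo the `q`-th powers -/
theorem orbit_count (hab : ∀ a ∈ D, ∀ b ∈ D, a * b = b * a)
    (hS : S ≤ normalizer (D : Set G)) {q : ℕ} {w : G} (hw : w ∈ D)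
    (hreg : ∀ t ∈ S, (∃ d ∈ D, t * w * t⁻¹ * w⁻¹ = d ^ q) → t ∈ centralizer (D : Set G)) :
    (centralizer (D : Set G)).relIndex S * Nat.card {y : G // ∃ d ∈ D, d ^ q = y} ≤
      Nat.card {x : G // x ∈ D ∧ ∀ t ∈ S, t * x * t⁻¹ = x → t ∈ centralizer (D : Set G)} := by
  set C : Subgroup G := centralizer (D : Set G) with hC
  have hnC : ∀ t ∈ S, ∀ c ∈ C, t * c * t⁻¹ ∈ C := fun t ht c hc =>
    P179B.conj_mem_centralizer_of_mem_normalizer (hS ht) hc
  have hSD : ∀ t ∈ S, ∀ d ∈ D, t * d * t⁻¹ ∈ D := fun t ht d hd =>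
    (mem_normalizer_iff.1 (hS ht) d).1 hd
  -- two elements of `S` with `s w s⁻¹ (t w t⁻¹)⁻¹` a `q`-th power
  have key : ∀ s ∈ S, ∀ t ∈ S, (∃ d ∈ D, s * w * s⁻¹ * (t * w * t⁻¹)⁻¹ = d ^ q) → t⁻¹ * s ∈ C := by
    rintro s hs t ht ⟨d, hd, e⟩
    refine hreg (t⁻¹ * s) (mul_mem (inv_mem ht) hs) ⟨t⁻¹ * d * t⁻¹⁻¹, hSD _ (inv_mem ht) d hd, ?_⟩
    rw [conj_pow, ← e]
    group
  have hcard : C.relIndex S * Nat.card {y : G // ∃ d ∈ D, d ^ q = y} =
      Nat.card ((S ⧸ C.subgroupOf S) × {y : G // ∃ d ∈ D, d ^ q = y}) := by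
    rw [Nat.card_prod]
    rfl
  rw [hcard]
  refine Nat.card_le_card_of_injective (fun z : (S ⧸ C.subgroupOf S) × {y : G // ∃ d ∈ D, d ^ q = y} =>
    (⟨(z.1.out : G) * w * (z.1.out : G)⁻¹ * z.2.1, ?_, ?_⟩ :
      {x : G // x ∈ D ∧ ∀ t ∈ S, t * x * t⁻¹ = x → t ∈ C})) ?_
  · obtain ⟨d, hd, e⟩ := z.2.2
    rw [← e]
    exact mul_mem (hSD _ z.1.out.2 w hw) (pow_mem hd q)
  · intro t ht htx
    obtain ⟨d, hd, e⟩ := z.2.2
    set c : G := (z.1.out : G) with hc
    have hcS : c ∈ S := z.1.out.2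
    have h1 : c⁻¹ * (t * c) ∈ C := by
      refine key (t * c) (mul_mem ht hcS) c hcS
        ⟨d * (t * d * t⁻¹)⁻¹, mul_mem hd (inv_mem (hSD t ht d hd)), ?_⟩
      rw [← e] at htx
      have h2 : Commute d (t * d * t⁻¹)⁻¹ := hab _ hd _ (inv_mem (hSD t ht d hd))
      rw [h2.mul_pow, inv_pow, conj_pow]
      have h3 : t * c * w * (t * c)⁻¹ = c * w * c⁻¹ * d ^ q * (t * d ^ q * t⁻¹)⁻¹ := by
        rw [← htx]
        group
      rw [h3]
      have h4 : c * w * c⁻¹ ∈ D := hSD c hcS w hw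
      have h5 : d ^ q * (t * d ^ q * t⁻¹)⁻¹ ∈ D :=
        mul_mem (pow_mem hd q) (inv_mem (hSD t ht _ (pow_mem hd q)))
      calc c * w * c⁻¹ * d ^ q * (t * d ^ q * t⁻¹)⁻¹ * (c * w * c⁻¹)⁻¹ =
          (c * w * c⁻¹) * (d ^ q * (t * d ^ q * t⁻¹)⁻¹) * (c * w * c⁻¹)⁻¹ := by group
        _ = (d ^ q * (t * d ^ q * t⁻¹)⁻¹) * (c * w * c⁻¹) * (c * w * c⁻¹)⁻¹ := by
          rw [hab _ h4 _ h5]
        _ = _ := by group
    have h2 := hnC c hcS _ h1
    have h3 : c * (c⁻¹ * (t * c)) * c⁻¹ = t := by group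
    rwa [h3] at h2
  · intro z z' hzz
    have e := congrArg (fun x : {x : G // x ∈ D ∧ ∀ t ∈ S, t * x * t⁻¹ = x → t ∈ C} => x.1) hzz
    obtain ⟨d, hd, ed⟩ := z.2.2
    obtain ⟨d', hd', ed'⟩ := z'.2.2
    have e1 : (z.1.out : G) * w * (z.1.out : G)⁻¹ * z.2.1 =
        (z'.1.out : G) * w * (z'.1.out : G)⁻¹ * z'.2.1 := e
    have h1 : ((z'.1.out : G))⁻¹ * (z.1.out : G) ∈ C := by
      refine key _ z.1.out.2 _ z'.1.out.2 ⟨d' * d⁻¹, mul_mem hd' (inv_mem hd), ?_⟩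
      have h2 : Commute d' d⁻¹ := hab _ hd' _ (inv_mem hd)
      rw [h2.mul_pow, inv_pow, ed, ed']
      have h3 : (z.1.out : G) * w * (z.1.out : G)⁻¹ =
          (z'.1.out : G) * w * (z'.1.out : G)⁻¹ * z'.2.1 * z.2.1⁻¹ := by
        rw [← e1]; group
      rw [h3]
      have h4 : (z'.1.out : G) * w * (z'.1.out : G)⁻¹ ∈ D := hSD _ z'.1.out.2 w hw
      have h5 : z'.2.1 * z.2.1⁻¹ ∈ D := by
        rw [← ed, ← ed']
        exact mul_mem (pow_mem hd' q) (inv_mem (pow_mem hd q))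
      calc (z'.1.out : G) * w * (z'.1.out : G)⁻¹ * z'.2.1 * z.2.1⁻¹ *
            ((z'.1.out : G) * w * (z'.1.out : G)⁻¹)⁻¹ =
          ((z'.1.out : G) * w * (z'.1.out : G)⁻¹) * (z'.2.1 * z.2.1⁻¹) *
            ((z'.1.out : G) * w * (z'.1.out : G)⁻¹)⁻¹ := by group
        _ = (z'.2.1 * z.2.1⁻¹) * ((z'.1.out : G) * w * (z'.1.out : G)⁻¹) *
            ((z'.1.out : G) * w * (z'.1.out : G)⁻¹)⁻¹ := by rw [hab _ h4 _ h5]
        _ = _ := by group
    have h2 : z.1 = z'.1 := by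
      rw [← QuotientGroup.out_eq' z.1, ← QuotientGroup.out_eq' z'.1]
      symm
      rw [QuotientGroup.eq, mem_subgroupOf]
      exact h1
    refine Prod.ext h2 (Subtype.ext ?_)
    rw [h2] at e1
    exact mul_left_cancel e1

/-- **(T2)** regular cosets when at most two cyclic factors of `D` are small -/
theorem exists_reg_two {p : ℕ} [hp : Fact p.Prime] {T : Subgroup G} (hD : IsPGroup p D)
    (hab : ∀ a ∈ D, ∀ b ∈ D, a * b = b * a) (hTN : T ≤ normalizer (D : Set G))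
    (hT : ¬ p ∣ (centralizer (D : Set G)).relIndex T) {r j n r₀ : ℕ} (hrj : r ≤ j)
    (h4 : r * (r + 1) ≤ 4 * j) (hjn : j * (r - 1) < n) (hS : TwoSmall p r n D)
    (hr₀ : Nat.card {x : G // x ∈ D ∧ x ^ p = 1} = p ^ r₀) (h3 : 3 ≤ r₀) :
    ∃ w ∈ D, (∀ t ∈ T, (∃ d ∈ D, t * w * t⁻¹ * w⁻¹ = d ^ p ^ j) → t ∈ centralizer (D : Set G)) ∧
      (∀ i : ℕ, (∃ d ∈ D, w ^ i = d ^ p ^ j) → p ^ j ∣ i) ∧
      (centralizer (D : Set G)).relIndex T * Nat.card D < p ^ (2 * j) *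
        Nat.card {w : G // w ∈ D ∧ ∀ t ∈ T, t * w * t⁻¹ = w → t ∈ centralizer (D : Set G)} ∧
      Nat.card D * p ≤ p ^ n * (Nat.card {y : G // ∃ d ∈ D, d ^ p ^ j = y} * p ^ j) ∧
      (centralizer (D : Set G)).relIndex T ≤ p ^ n := by
  have hp1 := hp.out.one_lt
  obtain ⟨hS1, hS2, hS3⟩ := hS
  have hr0r : r₀ ≤ r := by
    rw [hr₀] at hS1
    exact (Nat.pow_le_pow_iff_right hp1).1 hS1
  have h2j : 2 * j < n := by
    have h : j * 2 ≤ j * (r - 1) := Nat.mul_le_mul_left _ (by omega)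
    omega
  obtain ⟨R, K, hdec, hTR, hTK, hpw, hK1, hf⟩ := exists_peel hD hab hTN hT (n - 1)
  have habR : ∀ a ∈ R, ∀ b ∈ R, a * b = b * a := fun a ha b hb =>
    hab a (hdec.leC ha) b (hdec.leC hb)
  have habK : ∀ a ∈ K, ∀ b ∈ K, a * b = b * a := fun a ha b hb =>
    hab a (hdec.leK ha) b (hdec.leK hb)
  have hDR := hD.to_le hdec.leC
  have hDK := hD.to_le hdec.leK
  have hTRn : T ≤ normalizer (R : Set G) := by
    intro t ht
    rw [mem_normalizer_iff]
    refine fun x => ⟨fun hx => hTR t ht x hx, fun hx => ?_⟩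
    have := hTR t⁻¹ (inv_mem ht) _ hx
    have e : t⁻¹ * (t * x * t⁻¹) * t⁻¹⁻¹ = x := by group
    rwa [e] at this
  have hTKn : T ≤ normalizer (K : Set G) := by
    intro t ht
    rw [mem_normalizer_iff]
    refine fun x => ⟨fun hx => hTK t ht x hx, fun hx => ?_⟩
    have := hTK t⁻¹ (inv_mem ht) _ hx
    have e : t⁻¹ * (t * x * t⁻¹) * t⁻¹⁻¹ = x := by group
    rwa [e] at this
  have hidx := hdec.relIndex (T := T)
  have hTR' : ¬ p ∣ (centralizer (R : Set G)).relIndex T := fun h =>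
    hT (hidx ▸ h.mul_left _)
  have hTK' : ¬ p ∣ (centralizer (K : Set G)).relIndex (T ⊓ centralizer (R : Set G)) := fun h =>
    hT (hidx ▸ h.mul_right _)
  -- the ranks
  obtain ⟨s, hs⟩ := card_omP_pow hD hab (p ^ (n - 1))
  have hcR : Nat.card {x // (∃ d ∈ R, d ^ p ^ (n - 1) = x) ∧ x ^ p = 1} = p ^ s := by
    refine (Nat.card_congr (Equiv.subtypeEquivRight fun x => ?_)).trans hs
    constructor
    · rintro ⟨⟨d, hd, rfl⟩, hx⟩
      exact ⟨⟨pow_mem (hdec.leC hd) _, hx⟩, d, hdec.leC hd, rfl⟩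
    · rintro ⟨⟨-, hx⟩, y, hy, rfl⟩
      exact ⟨(hpw _).1 ⟨y, hy, rfl⟩, hx⟩
  obtain ⟨ρ, hρ⟩ := card_om_pow hDK habK
  have hs2 : r₀ ≤ 2 + s := by
    rw [hr₀, hs, ← pow_add] at hS2
    exact (Nat.pow_le_pow_iff_right hp1).1 hS2
  have hsρ : s + ρ ≤ r₀ := by
    have h5 := hdec.card_om hab p
    rw [hr₀, hρ] at h5
    have h6 : p ^ s ≤ Nat.card {x : G // x ∈ R ∧ x ^ p = 1} := by
      rw [← hcR]
      exact Nat.card_le_card_of_injective
        (fun x : {x // (∃ d ∈ R, d ^ p ^ (n - 1) = x) ∧ x ^ p = 1} =>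
          (⟨x.1, by
            obtain ⟨d, hd, e⟩ := x.2.1
            rw [← e]
            exact pow_mem hd _, x.2.2⟩ : {x : G // x ∈ R ∧ x ^ p = 1}))
        (fun x y e => Subtype.ext (congrArg (fun z : {x : G // x ∈ R ∧ x ^ p = 1} => z.1) e))
    have h7 : p ^ (s + ρ) ≤ p ^ r₀ := by
      rw [h5, pow_add]
      exact Nat.mul_le_mul_right _ h6
    exact (Nat.pow_le_pow_iff_right hp1).1 h7
  have hρ2 : ρ ≤ 2 := by omega
  have hs1 : 1 ≤ s := by omega
  -- the regular elements of the two factors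
  obtain ⟨wR, hwR, hoR, hregR⟩ := exists_regF (m := n - 1) (s := s) (j := j) hDR habR hTRn hTR' hs1
    hcR hf (by omega) (by omega)
  obtain ⟨wK, hwK, hregK⟩ := exists_reg_small (S := T ⊓ centralizer (R : Set G)) hDK habK
    (inf_le_left.trans hTKn) hTK' (by
      rw [hρ]
      exact Nat.pow_le_pow_right hp.out.pos hρ2) (hdec.small hab hS3)
  refine ⟨wR * wK, mul_mem (hdec.leC hwR) (hdec.leK hwK),
    hdec.reg_mod hab hTR hTK hwR hwK hregR fun t ht hd => hregK t ht ?_, ?_, ?_, ?_, ?_⟩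
  · obtain ⟨d, hd, e⟩ := hd
    refine ⟨d ^ p ^ (j - 2), pow_mem hd _, ?_⟩
    rw [e, ← pow_mul, ← pow_add]
    congr 2
    omega
  · rintro i ⟨d, hd, e⟩
    obtain ⟨c, hc, k, hk, rfl⟩ := hdec.mul d hd
    rw [hdec.pow hab hwR hwK, hdec.pow hab hc hk] at e
    exact hoR i ⟨c, hc, (hdec.uniq (pow_mem hwR i) (pow_mem hc _) (pow_mem hwK i)
      (pow_mem hk _) e).1⟩
  · -- the number of regular elements
    have hE : (centralizer (R : Set G)).relIndex T ≤ ∏ i ∈ Finset.range s, (p ^ (i + 1) - 1) := by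
      have habP : ∀ a ∈ pwS habR (p ^ (n - 1)), ∀ b ∈ pwS habR (p ^ (n - 1)), a * b = b * a :=
        fun a ha b hb => habR a (pwS_le habR _ ha) b (pwS_le habR _ hb)
      have hTP : T ≤ normalizer ((pwS habR (p ^ (n - 1)) : Subgroup G) : Set G) := by
        intro t ht
        rw [mem_normalizer_iff]
        intro y
        refine ⟨fun hy => conj_mem_pwS habR (hTRn ht) hy, fun hy => ?_⟩
        have h5 := conj_mem_pwS habR (inv_mem (hTRn ht)) hy
        have e : t⁻¹ * (t * y * t⁻¹) * t⁻¹⁻¹ = y := by group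
        rwa [e] at h5
      have hrel : (centralizer ((pwS habR (p ^ (n - 1)) : Subgroup G) : Set G)).relIndex T =
          (centralizer (R : Set G)).relIndex T := by
        rw [← inf_relIndex_right, ← inf_relIndex_right (centralizer (R : Set G))]
        congr 1
        ext t
        constructor
        · rintro ⟨h5, h6⟩
          refine ⟨hf t h6 fun d hd => ?_, h6⟩
          have h7 := mem_centralizer_iff.1 h5 (d ^ p ^ (n - 1)) ⟨d, hd, rfl⟩
          rw [mul_inv_eq_iff_eq_mul]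
          exact h7.symm
        · rintro ⟨h5, h6⟩
          exact ⟨centralizer_le (pwS_le habR _) h5, h6⟩
      rw [← hrel]
      exact P179H843.relIndex_le_prod (hDR.to_le (pwS_le habR _)) habP hTP (by rwa [hrel]) hcR
    have harith := arith' (p := p) (r := s) (n := n) (j := j - ρ) hp.out.one_le hs1 (by omega)
      (by
        have h5 : (s + ρ) * (s + ρ + 1) ≤ r * (r + 1) :=
          Nat.mul_le_mul (by omega) (by omega)
        have h6 : s * (s + 1) + 4 * ρ ≤ (s + ρ) * (s + ρ + 1) := by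
          obtain ⟨s', rfl⟩ : ∃ s', s = s' + 1 := ⟨s - 1, by omega⟩
          interval_cases ρ <;> nlinarith
        omega) (by omega) (Or.inr (Or.inr (by omega))) hE
    have hRc := regular_countF hDR habR hTR' (pow_pos hp.out.pos (2 * (j - ρ))) hf harith
    have hKo := orbit_count habK (inf_le_left.trans hTKn) hwK hregK
    have hKp := card_le_pw habK hρ 2
    have hle := hdec.card_le
      (P := fun w => w ∈ D ∧ ∀ t ∈ T, t * w * t⁻¹ = w → t ∈ centralizer (D : Set G))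
      (PC := fun w => w ∈ R ∧ ∀ t ∈ T, t * w * t⁻¹ = w → t ∈ centralizer (R : Set G))
      (PK := fun w => w ∈ K ∧ ∀ t ∈ T ⊓ centralizer (R : Set G), t * w * t⁻¹ = w →
        t ∈ centralizer (K : Set G)) (fun _ h => h.1) (fun _ h => h.1)
      (fun c k hc hk => ⟨mul_mem (hdec.leC hc.1) (hdec.leK hk.1),
        hdec.reg hab hTR hTK hc.1 hk.1 hc.2 hk.2⟩)
    rw [hidx, hdec.card]
    set eR := (centralizer (R : Set G)).relIndex T
    set eK := (centralizer (K : Set G)).relIndex (T ⊓ centralizer (R : Set G))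
    set NR := Nat.card {w : G // w ∈ R ∧ ∀ t ∈ T, t * w * t⁻¹ = w → t ∈ centralizer (R : Set G)}
    set NK := Nat.card {w : G // w ∈ K ∧ ∀ t ∈ T ⊓ centralizer (R : Set G), t * w * t⁻¹ = w →
      t ∈ centralizer (K : Set G)}
    set ND := Nat.card {w : G // w ∈ D ∧ ∀ t ∈ T, t * w * t⁻¹ = w → t ∈ centralizer (D : Set G)}
    have h5 : eK * Nat.card K ≤ p ^ (2 * ρ) * NK := by
      calc eK * Nat.card K ≤ eK * (Nat.card {y : G // ∃ d ∈ K, d ^ p ^ 2 = y} * p ^ (ρ * 2)) :=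
            Nat.mul_le_mul_left _ hKp
        _ = p ^ (2 * ρ) * (eK * Nat.card {y : G // ∃ d ∈ K, d ^ p ^ 2 = y}) := by
            rw [mul_comm ρ 2]; ring
        _ ≤ p ^ (2 * ρ) * NK := Nat.mul_le_mul_left _ hKo
    have h6 : 0 < eK * Nat.card K := by
      refine Nat.mul_pos (Nat.pos_of_ne_zero ?_) Nat.card_pos
      intro h0
      exact hTK' (by rw [h0]; exact dvd_zero p)
    calc eK * eR * (Nat.card R * Nat.card K) = (eR * Nat.card R) * (eK * Nat.card K) := by ring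
      _ < (p ^ (2 * (j - ρ)) * NR) * (eK * Nat.card K) := Nat.mul_lt_mul_of_pos_right hRc h6
      _ ≤ (p ^ (2 * (j - ρ)) * NR) * (p ^ (2 * ρ) * NK) := Nat.mul_le_mul_left _ h5
      _ = p ^ (2 * j) * (NR * NK) := by
          have h7 : p ^ (2 * j) = p ^ (2 * (j - ρ)) * p ^ (2 * ρ) := by
            rw [← pow_add]
            congr 1
            omega
          rw [h7]
          ring
      _ ≤ p ^ (2 * j) * ND := Nat.mul_le_mul_left _ hle
  · have h5 := card_le_pw hab hr₀ j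
    calc Nat.card D * p ≤ Nat.card {y : G // ∃ d ∈ D, d ^ p ^ j = y} * p ^ (r₀ * j) * p :=
          Nat.mul_le_mul_right _ h5
      _ = Nat.card {y : G // ∃ d ∈ D, d ^ p ^ j = y} * p ^ (r₀ * j + 1) := by rw [pow_succ]; ring
      _ ≤ Nat.card {y : G // ∃ d ∈ D, d ^ p ^ j = y} * p ^ (n + j) := by
          refine Nat.mul_le_mul_left _ (Nat.pow_le_pow_right hp.out.pos ?_)
          obtain ⟨t, rfl⟩ : ∃ t, r₀ = t + 1 := ⟨r₀ - 1, by omega⟩
          have h6 : j * t ≤ j * (r - 1) := Nat.mul_le_mul_left _ (by omega)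
          have h7 : (t + 1) * j = j * t + j := by ring
          omega
      _ = _ := by rw [pow_add]; ring
  · have h5 := P179H843.relIndex_le_prod hD hab hTN hT hr₀
    refine h5.trans ?_
    obtain ⟨m, hm1, hm2, hm3⟩ := prod_le p r₀ (by omega)
    refine hm3.trans ?_
    have h6 : m ≤ n := by
      have h7 : r₀ * (r₀ + 1) ≤ r * (r + 1) := Nat.mul_le_mul hr0r (by omega)
      omega
    calc (p - 1) * p ^ (m - 1) ≤ p * p ^ (m - 1) := Nat.mul_le_mul_right _ (Nat.sub_le _ _)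
      _ = p ^ m := by
          rw [← pow_succ']
          congr 1
          omega
      _ ≤ p ^ n := Nat.pow_le_pow_right hp.out.pos h6

end Count

end P179H666
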